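import Mathlib

set_option autoImplicit false

namespace Crest.Agent.H5

open MeasureTheory unitInterval Set

/-- integral over an initial segment of the unit interval -/
lemma setLIntegral_Iic_I (f : ℝ → ℝ) (hf : Continuous f) (hf0 : ∀ z ∈ Icc (0:ℝ) 1, 0 ≤ f z) (c : I) :
    ∫⁻ z in Iic c, ENNReal.ofReal (f (z : ℝ)) ∂(volume : Measure I)
      = ENNReal.ofReal (∫ z in (0:ℝ)..c, f z) := by
  have h1 : ∫⁻ z in Iic c, ENNReal.ofReal (f (z : ℝ)) ∂(volume : Measure I)
      = ∫⁻ z in Iic (c : ℝ), ENNReal.ofReal (f z) ∂(volume.restrict I) := by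
    have := (unitInterval.measurePreserving_coe).setLIntegral_comp_preimage
      (s := Iic (c : ℝ)) measurableSet_Iic (f := fun z => ENNReal.ofReal (f z)) (by fun_prop)
    rw [← this]
    rfl
  rw [h1, Measure.restrict_restrict measurableSet_Iic]
  have h2 : Iic (c : ℝ) ∩ I = Icc 0 (c : ℝ) := by
    ext z
    simp only [mem_inter_iff, mem_Iic, mem_Icc]
    constructor
    · rintro ⟨h, h0, _⟩; exact ⟨h0, h⟩
    · rintro ⟨h0, h⟩; exact ⟨h, h0, h.trans c.2.2⟩
  rw [h2, intervalIntegral.integral_of_le c.2.1, ← integral_Icc_eq_integral_Ioc,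
    ofReal_integral_eq_lintegral_ofReal]
  · exact (hf.integrableOn_Icc)
  · filter_upwards [ae_restrict_mem measurableSet_Icc] with z hz
    exact hf0 z ⟨hz.1, hz.2.trans c.2.2⟩

/-- conditional density of an observation given the spin -/
noncomputable def dens (b : Bool) (z : I) : ℝ := if b then (z : ℝ) + 1/2 else 1

lemma dens_pos (b : Bool) (z : I) : 0 < dens b z := by
  unfold dens; split_ifs
  · have := z.2.1; linarith
  · norm_num

lemma dens_ge (b : Bool) (z : I) : 1/2 ≤ dens b z := by
  unfold dens; split_ifs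
  · have := z.2.1; linarith
  · norm_num

lemma dens_le (b : Bool) (z : I) : dens b z ≤ 3/2 := by
  unfold dens; split_ifs
  · have := z.2.2; linarith
  · norm_num

@[fun_prop]
lemma measurable_dens (b : Bool) : Measurable (dens b) := by
  unfold dens; split_ifs <;> fun_prop

/-- law of an observation given the spin -/
noncomputable def chLaw (b : Bool) : Measure I := volume.withDensity (fun z => ENNReal.ofReal (dens b z))

/-- posterior predictive c.d.f. -/
noncomputable def cdfFun (p z : ℝ) : ℝ := z + p / 2 * (z ^ 2 - z)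

lemma cdfFun_mem {p z : ℝ} (hp : p ∈ Icc (0:ℝ) 1) (hz : z ∈ Icc (0:ℝ) 1) : cdfFun p z ∈ Icc (0:ℝ) 1 := by
  obtain ⟨hp0, hp1⟩ := hp
  obtain ⟨hz0, hz1⟩ := hz
  have h := mul_nonneg hz0 (sub_nonneg.2 hz1)
  constructor
  · unfold cdfFun; nlinarith
  · unfold cdfFun; nlinarith

/-- posterior predictive c.d.f. on the unit interval -/
noncomputable def Fmap (p z : I) : I := ⟨cdfFun p z, cdfFun_mem p.2 z.2⟩

@[simp] lemma coe_Fmap (p z : I) : (Fmap p z : ℝ) = cdfFun p z := rfl

lemma measurable_Fmap : Measurable (fun q : I × I => Fmap q.1 q.2) := by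
  refine Measurable.subtype_mk ?_
  unfold cdfFun
  fun_prop

lemma integral_density (p c : ℝ) : ∫ z in (0:ℝ)..c, (1 + p * (z - 1/2)) = cdfFun p c := by
  have : ∀ x ∈ uIcc (0:ℝ) c, HasDerivAt (cdfFun p) (1 + p * (x - 1/2)) x := by
    intro x _
    unfold cdfFun
    have h1 := (hasDerivAt_id x)
    have h2 := ((hasDerivAt_id x).pow 2)
    have := h1.add ((h2.sub h1).const_mul (p/2))
    refine this.congr_deriv ?_
    simp only [id]
    ring
  rw [intervalIntegral.integral_eq_sub_of_hasDerivAt this]
  · simp [cdfFun]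
  · apply Continuous.intervalIntegrable; fun_prop

lemma cdfFun_strictMono {p : ℝ} (hp : p ∈ Icc (0:ℝ) 1) {x y : ℝ} (hx : x ∈ Icc (0:ℝ) 1)
    (hy : y ∈ Icc (0:ℝ) 1) : cdfFun p x ≤ cdfFun p y ↔ x ≤ y := by
  have key : cdfFun p y - cdfFun p x = (y - x) * (1 + p / 2 * (x + y - 1)) := by
    unfold cdfFun; ring
  have hpos : 0 < 1 + p / 2 * (x + y - 1) := by
    obtain ⟨hp0, hp1⟩ := hp
    obtain ⟨hx0, hx1⟩ := hx
    obtain ⟨hy0, hy1⟩ := hy
    nlinarith
  constructor
  · intro h
    by_contra hlt
    push Not at hlt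
    have : cdfFun p y - cdfFun p x < 0 := by
      rw [key]; exact mul_neg_of_neg_of_pos (by linarith) hpos
    linarith
  · intro h
    have : 0 ≤ cdfFun p y - cdfFun p x := by
      rw [key]; exact mul_nonneg (by linarith) hpos.le
    linarith

/-- predictive density -/
noncomputable def mixDens (p : ℝ) (z : ℝ) : ℝ := 1 + p * (z - 1/2)

lemma map_Fmap (p : I) :
    (volume.withDensity (fun z : I => ENNReal.ofReal (mixDens p z))).map (Fmap p) = volume := by
  have hm : Measurable (Fmap p) := measurable_Fmap.comp (measurable_const.prodMk measurable_id)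
  have hnn : ∀ z ∈ Icc (0:ℝ) 1, 0 ≤ mixDens p z := by
    intro z hz
    unfold mixDens
    have h1 := p.2.1; have h2 := p.2.2
    nlinarith [hz.1, hz.2]
  have hc : Continuous (mixDens p) := by unfold mixDens; fun_prop
  have hfin : IsFiniteMeasure ((volume.withDensity (fun z : I => ENNReal.ofReal (mixDens p z)))) := by
    refine ⟨?_⟩
    rw [withDensity_apply _ MeasurableSet.univ]
    have := setLIntegral_Iic_I (mixDens p) hc hnn 1
    have h1 : (Iic (1 : I)) = univ := by ext z; simp [unitInterval.le_one']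
    rw [h1] at this
    rw [this]; exact ENNReal.ofReal_lt_top
  have : IsFiniteMeasure ((volume.withDensity (fun z : I => ENNReal.ofReal (mixDens p z))).map (Fmap p)) :=
    Measure.isFiniteMeasure_map _ _
  refine Measure.ext_of_Iic _ _ fun a => ?_
  rw [Measure.map_apply hm measurableSet_Iic, withDensity_apply _ (hm measurableSet_Iic)]
  -- find c with Fmap p c = a
  obtain ⟨c, hc01, hca⟩ : ∃ c ∈ Icc (0:ℝ) 1, cdfFun p c = a := by
    have hcont : ContinuousOn (cdfFun p) (Icc 0 1) := by
      unfold cdfFun; fun_prop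
    have := intermediate_value_Icc (zero_le_one' ℝ) hcont
    have h0 : cdfFun p 0 = 0 := by simp [cdfFun]
    have h1 : cdfFun p 1 = 1 := by simp [cdfFun]
    rw [h0, h1] at this
    exact this a.2
  have hset : Fmap p ⁻¹' Iic a = Iic (⟨c, hc01⟩ : I) := by
    ext z
    simp only [mem_preimage, mem_Iic]
    rw [← Subtype.coe_le_coe, ← Subtype.coe_le_coe, coe_Fmap, ← hca]
    exact cdfFun_strictMono p.2 z.2 hc01
  rw [hset, setLIntegral_Iic_I (mixDens p) hc hnn, unitInterval.volume_Iic]
  congr 1
  simp only [mixDens]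
  rw [integral_density, ← hca]

instance (b : Bool) : IsProbabilityMeasure (chLaw b) := by
  refine ⟨?_⟩
  unfold chLaw
  rw [withDensity_apply _ MeasurableSet.univ]
  have h1 : (Iic (1 : I)) = univ := by ext z; simp [unitInterval.le_one']
  cases b
  · simp [dens]
  · have := setLIntegral_Iic_I (mixDens 1) (by unfold mixDens; fun_prop) (by
      intro z hz; unfold mixDens; linarith [hz.1]) 1
    rw [h1] at this
    have h2 : ∀ z : I, dens true z = mixDens 1 z := by intro z; simp [dens, mixDens]; ring
    simp_rw [h2]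
    rw [this]
    simp only [mixDens]
    rw [integral_density]
    simp [cdfFun]

lemma exists_hmap : ∃ h : Bool → I → I, (∀ b, Measurable (h b)) ∧ ∀ b, (volume : Measure I).map (h b) = chLaw b := by
  choose h h1 h2 using fun b => (chLaw b).exists_measurable_map_eq
  exact ⟨h, h1, h2⟩

/-- a representation of the channel -/
noncomputable def hmap (b : Bool) : I → I := Classical.choose exists_hmap b

@[fun_prop]
lemma measurable_hmap (b : Bool) : Measurable (hmap b) := (Classical.choose_spec exists_hmap).1 b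

lemma map_hmap (b : Bool) : (volume : Measure I).map (hmap b) = chLaw b :=
  (Classical.choose_spec exists_hmap).2 b

lemma chLaw_mix (p : I) {A : Set I} (hA : MeasurableSet A) :
    ENNReal.ofReal p * chLaw true (Fmap p ⁻¹' A) + ENNReal.ofReal (1 - p) * chLaw false (Fmap p ⁻¹' A)
      = volume A := by
  have hm : Measurable (Fmap p) := measurable_Fmap.comp (measurable_const.prodMk measurable_id)
  have hA' := hm hA
  conv_rhs => rw [← map_Fmap p]
  rw [Measure.map_apply hm hA, withDensity_apply _ hA', chLaw, chLaw, withDensity_apply _ hA',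
    withDensity_apply _ hA', ← lintegral_const_mul _ (by fun_prop), ← lintegral_const_mul _ (by fun_prop),
    ← lintegral_add_left (by fun_prop)]
  refine lintegral_congr fun z => ?_
  have h1 := p.2.1
  have h2 := p.2.2
  rw [← ENNReal.ofReal_mul h1, ← ENNReal.ofReal_mul (by linarith),
    ← ENNReal.ofReal_add (mul_nonneg h1 (dens_pos _ _).le) (mul_nonneg (by linarith) (dens_pos _ _).le)]
  congr 1
  simp [dens, mixDens]; ring

end Crest.Agent.H5
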