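import Mathlib
import Crest.Agent.H5.Channel

set_option autoImplicit false

namespace Crest.Agent.H5

open MeasureTheory ProbabilityTheory unitInterval Set

lemma pi_withDensity {κ : Type*} [Fintype κ] (f : κ → I → ENNReal) (hf : ∀ j, Measurable (f j))
    [∀ j, SigmaFinite ((volume : Measure I).withDensity (f j))] :
    Measure.pi (fun j => (volume : Measure I).withDensity (f j))
      = (Measure.pi (fun _ : κ => (volume : Measure I))).withDensity (fun y => ∏ j, f j (y j)) := by
  refine Measure.pi_eq fun s hs => ?_
  rw [withDensity_apply _ (MeasurableSet.univ_pi hs), ← lintegral_indicator (MeasurableSet.univ_pi hs)]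
  have h1 : ∀ y : κ → I, (univ.pi s).indicator (fun y => ∏ j, f j (y j)) y
      = ∏ j, (s j).indicator (f j) (y j) := by
    intro y
    by_cases hy : y ∈ univ.pi s
    · rw [indicator_of_mem hy]
      refine Finset.prod_congr rfl fun j _ => ?_
      rw [indicator_of_mem (hy j (mem_univ j))]
    · rw [indicator_of_notMem hy]
      simp only [mem_pi, mem_univ, true_implies, not_forall] at hy
      obtain ⟨j, hj⟩ := hy
      symm
      refine Finset.prod_eq_zero (Finset.mem_univ j) ?_
      rw [indicator_of_notMem hj]
  simp_rw [h1]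
  have hind : iIndepFun (fun (j : κ) (y : κ → I) => (s j).indicator (f j) (y j))
      (Measure.pi (fun _ : κ => (volume : Measure I))) :=
    iIndepFun_pi (X := fun j => (s j).indicator (f j))
      (fun j => ((hf j).indicator (hs j)).aemeasurable)
  rw [lintegral_prod_eq_prod_lintegral_of_indepFun Finset.univ
    (fun (j : κ) (y : κ → I) => (s j).indicator (f j) (y j)) hind
    (fun j => ((hf j).indicator (hs j)).comp (measurable_pi_apply j))]
  refine Finset.prod_congr rfl fun j _ => ?_
  have hmp := measurePreserving_eval (fun _ : κ => (volume : Measure I)) j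
  have := hmp.lintegral_comp (f := (s j).indicator (f j)) ((hf j).indicator (hs j))
  simp only [Function.eval] at this
  rw [this, lintegral_indicator (hs j), withDensity_apply _ (hs j)]

lemma meas_true {α : Type*} [MeasurableSpace α] {f : α → Bool} (hf : Measurable f) :
    MeasurableSet {a | f a = true} := hf (measurableSet_singleton true)

variable {V : Type*}

/-- noise law -/
noncomputable def noise (V : Type*) : Measure (V × ℕ → I) := Measure.infinitePi fun _ => volume

instance : IsProbabilityMeasure (noise V) := by unfold noise; infer_instance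

/-- observation -/
noncomputable def obs (E : Set V) (x : V → Bool) (ξ : V × ℕ → I) (j : V × ℕ) : I :=
  haveI := Classical.dec (j.1 ∈ E)
  if j.1 ∈ E then hmap (x j.1) (ξ j) else 0

/-- joint law of spins and noise -/
noncomputable def jointLaw (ν : Measure (V → Bool)) : Measure ((V → Bool) × (V × ℕ → I)) :=
  ν.prod (noise V)

instance (ν : Measure (V → Bool)) [IsProbabilityMeasure ν] : IsProbabilityMeasure (jointLaw ν) := by
  unfold jointLaw; infer_instance

/-- likelihood of finitely many observations -/
noncomputable def wt (J : Finset (V × ℕ)) (x : V → Bool) (y : J → I) : ℝ :=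
  ∏ j : J, dens (x j.1.1) (y j)

lemma wt_pos (J : Finset (V × ℕ)) (x : V → Bool) (y : J → I) : 0 < wt J x y :=
  Finset.prod_pos fun _ _ => dens_pos _ _

lemma measurable_dens_comp {α : Type*} [MeasurableSpace α] {f : α → Bool} {g : α → I}
    (hf : Measurable f) (hg : Measurable g) : Measurable (fun a => dens (f a) (g a)) := by
  unfold dens
  refine Measurable.ite (hf (measurableSet_singleton true)) ?_ measurable_const
  fun_prop

lemma measurable_hmap_comp {α : Type*} [MeasurableSpace α] {f : α → Bool} {g : α → I}
    (hf : Measurable f) (hg : Measurable g) : Measurable (fun a => hmap (f a) (g a)) := by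
  have h : (fun a => hmap (f a) (g a)) = fun a => if f a = true then hmap true (g a) else hmap false (g a) := by
    ext a; cases f a <;> simp
  rw [h]
  refine Measurable.ite (hf (measurableSet_singleton true)) ?_ ?_ <;> fun_prop

lemma measurable_wt (J : Finset (V × ℕ)) :
    Measurable (fun p : (V → Bool) × (J → I) => wt J p.1 p.2) := by
  unfold wt
  refine Finset.measurable_prod _ fun j _ => ?_
  exact measurable_dens_comp (by fun_prop) (by fun_prop)

/-- posterior probability of a spin given finitely many observations -/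
noncomputable def postJ (ν : Measure (V → Bool)) (J : Finset (V × ℕ)) (v : V) (y : J → I) : ℝ :=
  (∫ x, (if x v = true then wt J x y else 0) ∂ν) / ∫ x, wt J x y ∂ν

lemma wt_le (J : Finset (V × ℕ)) (x : V → Bool) (y : J → I) : wt J x y ≤ (3/2) ^ J.card := by
  unfold wt
  calc ∏ j : J, dens (x j.1.1) (y j) ≤ ∏ _j : J, (3/2 : ℝ) :=
        Finset.prod_le_prod (fun _ _ => (dens_pos _ _).le) fun _ _ => dens_le _ _
    _ = (3/2) ^ J.card := by rw [Finset.prod_const, Finset.card_univ, Fintype.card_coe]

lemma le_wt (J : Finset (V × ℕ)) (x : V → Bool) (y : J → I) : (1/2) ^ J.card ≤ wt J x y := by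
  unfold wt
  calc (1/2 : ℝ) ^ J.card = ∏ _j : J, (1/2 : ℝ) := by simp
    _ ≤ ∏ j : J, dens (x j.1.1) (y j) :=
        Finset.prod_le_prod (fun _ _ => by norm_num) fun _ _ => dens_ge _ _

lemma measurable_wt_left (J : Finset (V × ℕ)) (y : J → I) : Measurable (fun x : V → Bool => wt J x y) :=
  (measurable_wt J).comp (measurable_id.prodMk measurable_const)

lemma integrable_wt (ν : Measure (V → Bool)) [IsFiniteMeasure ν] (J : Finset (V × ℕ)) (y : J → I) :
    Integrable (fun x => wt J x y) ν := by
  refine Integrable.of_bound (measurable_wt_left J y).aestronglyMeasurable ((3/2) ^ J.card) ?_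
  filter_upwards with x
  rw [Real.norm_of_nonneg (wt_pos _ _ _).le]
  exact wt_le _ _ _

lemma measurable_ite_wt (J : Finset (V × ℕ)) (v : V) :
    Measurable (fun p : (V → Bool) × (J → I) => if p.1 v = true then wt J p.1 p.2 else 0) := by
  refine Measurable.ite (meas_true ?_) (measurable_wt J) measurable_const
  fun_prop

lemma integrable_ite_wt (ν : Measure (V → Bool)) [IsFiniteMeasure ν] (J : Finset (V × ℕ)) (v : V)
    (y : J → I) : Integrable (fun x => if x v = true then wt J x y else 0) ν := by
  refine Integrable.of_bound ((measurable_ite_wt J v).comp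
    (measurable_id.prodMk measurable_const)).aestronglyMeasurable ((3/2) ^ J.card) ?_
  filter_upwards with x
  split_ifs
  · rw [Real.norm_of_nonneg (wt_pos _ _ _).le]
    exact wt_le _ _ _
  · rw [norm_zero]; positivity

lemma integral_wt_pos (ν : Measure (V → Bool)) [IsProbabilityMeasure ν] (J : Finset (V × ℕ)) (y : J → I) :
    0 < ∫ x, wt J x y ∂ν := by
  have h : (1/2 : ℝ) ^ J.card ≤ ∫ x, wt J x y ∂ν := by
    calc (1/2 : ℝ) ^ J.card = ∫ _x, (1/2 : ℝ) ^ J.card ∂ν := by simp
      _ ≤ ∫ x, wt J x y ∂ν := integral_mono (integrable_const _) (integrable_wt ν J y) fun x => le_wt J x y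
  exact lt_of_lt_of_le (by positivity) h

lemma postJ_mem (ν : Measure (V → Bool)) [IsProbabilityMeasure ν] (J : Finset (V × ℕ)) (v : V)
    (y : J → I) : postJ ν J v y ∈ Icc (0:ℝ) 1 := by
  have hpos := integral_wt_pos ν J y
  constructor
  · refine div_nonneg (integral_nonneg fun x => ?_) hpos.le
    dsimp only
    split_ifs
    · exact (wt_pos _ _ _).le
    · exact le_rfl
  · unfold postJ
    rw [div_le_one hpos]
    refine integral_mono (integrable_ite_wt ν J v y) (integrable_wt ν J y) fun x => ?_
    dsimp only
    split_ifs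
    · exact le_rfl
    · exact (wt_pos _ _ _).le

lemma measurable_postJ (ν : Measure (V → Bool)) [IsProbabilityMeasure ν] (J : Finset (V × ℕ)) (v : V) :
    Measurable (postJ ν J v) := by
  unfold postJ
  refine Measurable.div ?_ ?_
  · exact ((measurable_ite_wt J v).comp measurable_swap).stronglyMeasurable.integral_prod_right'.measurable
  · exact ((measurable_wt J).comp measurable_swap).stronglyMeasurable.integral_prod_right'.measurable

/-- law of finitely many observations given the spins -/
lemma map_obs_restrict (E : Set V) (x : V → Bool) (J : Finset (V × ℕ)) (hJ : ∀ j ∈ J, j.1 ∈ E) :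
    (noise V).map (fun ξ => J.restrict (obs E x ξ))
      = (Measure.pi (fun _ : J => (volume : Measure I))).withDensity
          (fun y => ENNReal.ofReal (wt J x y)) := by
  have h1 : (fun ξ : V × ℕ → I => J.restrict (obs E x ξ))
      = (fun (η : J → I) (j : J) => hmap (x j.1.1) (η j)) ∘ J.restrict := by
    funext ξ j
    simp only [Finset.restrict, Function.comp, obs]
    rw [if_pos (hJ j.1 j.2)]
  rw [h1, ← Measure.map_map (by fun_prop) (by fun_prop)]
  unfold noise
  rw [Measure.infinitePi_map_restrict]
  rw [Measure.pi_map_pi (fun j => (measurable_hmap _).aemeasurable)]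
  simp_rw [map_hmap, chLaw]
  have : ∀ j : J, SigmaFinite ((volume : Measure I).withDensity
      (fun z => ENNReal.ofReal (dens (x j.1.1) z))) := fun j => by
    have : IsProbabilityMeasure (chLaw (x j.1.1)) := inferInstance
    unfold chLaw at this
    infer_instance
  rw [pi_withDensity (fun (j : J) (z : I) => ENNReal.ofReal (dens (x j.1.1) z)) (fun j => by fun_prop)]
  congr 1
  funext y
  unfold wt
  rw [ENNReal.ofReal_prod_of_nonneg fun _ _ => (dens_pos _ _).le]

lemma measurable_obs (E : Set V) (j : V × ℕ) :
    Measurable (fun ω : (V → Bool) × (V × ℕ → I) => obs E ω.1 ω.2 j) := by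
  unfold obs
  split_ifs
  · exact measurable_hmap_comp (by fun_prop) (by fun_prop)
  · fun_prop

lemma measurable_obs' (E : Set V) :
    Measurable (fun ω : (V → Bool) × (V × ℕ → I) => obs E ω.1 ω.2) :=
  measurable_pi_iff.2 (measurable_obs E)

/-- change of measure formula -/
lemma lintegral_obs (ν : Measure (V → Bool)) [IsProbabilityMeasure ν] (E : Set V)
    (J : Finset (V × ℕ)) (hJ : ∀ j ∈ J, j.1 ∈ E)
    (G : (V → Bool) → (J → I) → ENNReal) (hG : Measurable (Function.uncurry G)) :
    ∫⁻ ω, G ω.1 (J.restrict (obs E ω.1 ω.2)) ∂(jointLaw ν)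
      = ∫⁻ y, ∫⁻ x, G x y * ENNReal.ofReal (wt J x y) ∂ν ∂(Measure.pi (fun _ : J => (volume : Measure I))) := by
  unfold jointLaw
  have hmeas : Measurable (fun ω : (V → Bool) × (V × ℕ → I) => G ω.1 (J.restrict (obs E ω.1 ω.2))) := by
    have := measurable_obs' (V := V) E
    have h2 : Measurable (fun ω : (V → Bool) × (V × ℕ → I) => (ω.1, J.restrict (obs E ω.1 ω.2))) := by
      fun_prop
    exact hG.comp h2
  rw [lintegral_prod _ hmeas.aemeasurable]
  have hstep : ∀ x, ∫⁻ ξ, G x (J.restrict (obs E x ξ)) ∂(noise V)
      = ∫⁻ y, G x y * ENNReal.ofReal (wt J x y) ∂(Measure.pi (fun _ : J => (volume : Measure I))) := by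
    intro x
    have hm1 : Measurable (fun ξ : V × ℕ → I => J.restrict (obs E x ξ)) := by
      have := (measurable_obs' (V := V) E).comp (measurable_const.prodMk measurable_id : Measurable (fun ξ : V × ℕ → I => (x, ξ)))
      exact (Finset.measurable_restrict J).comp this
    have hGx : Measurable (G x) := hG.comp (measurable_const.prodMk measurable_id)
    rw [← lintegral_map hGx hm1, map_obs_restrict E x J hJ,
      lintegral_withDensity_eq_lintegral_mul _ _ hGx]
    · refine lintegral_congr fun y => ?_
      simp [mul_comm]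
    · exact (ENNReal.measurable_ofReal).comp ((measurable_wt J).comp (measurable_const.prodMk measurable_id))
  simp_rw [hstep]
  rw [lintegral_lintegral_swap]
  refine Measurable.aemeasurable ?_
  exact hG.mul (ENNReal.measurable_ofReal.comp (measurable_wt J))

/-- Bayes formula, set version -/
lemma bayes_set (ν : Measure (V → Bool)) [IsProbabilityMeasure ν] (E : Set V)
    (J : Finset (V × ℕ)) (hJ : ∀ j ∈ J, j.1 ∈ E) (v : V) (C : Set (J → I)) (hC : MeasurableSet C) :
    ∫⁻ ω in {ω | J.restrict (obs E ω.1 ω.2) ∈ C}, ENNReal.ofReal (postJ ν J v (J.restrict (obs E ω.1 ω.2)))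
        ∂(jointLaw ν)
      = jointLaw ν ({ω | J.restrict (obs E ω.1 ω.2) ∈ C} ∩ {ω | ω.1 v = true}) := by
  have hCm : MeasurableSet {ω : (V → Bool) × (V × ℕ → I) | J.restrict (obs E ω.1 ω.2) ∈ C} := by
    have := measurable_obs' (V := V) E
    exact ((Finset.measurable_restrict J).comp this) hC
  have hvm : MeasurableSet {ω : (V → Bool) × (V × ℕ → I) | ω.1 v = true} :=
    meas_true (by fun_prop)
  rw [← lintegral_indicator hCm, ← lintegral_indicator_one (hCm.inter hvm)]
  have e1 : ∀ ω : (V → Bool) × (V × ℕ → I),
      ({ω : (V → Bool) × (V × ℕ → I) | J.restrict (obs E ω.1 ω.2) ∈ C}).indicator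
        (fun ω => ENNReal.ofReal (postJ ν J v (J.restrict (obs E ω.1 ω.2)))) ω
      = (fun (_ : V → Bool) (y : J → I) => C.indicator (fun y => ENNReal.ofReal (postJ ν J v y)) y)
          ω.1 (J.restrict (obs E ω.1 ω.2)) := by
    intro ω
    simp only [indicator, mem_ofPred_eq]
  have e2 : ∀ ω : (V → Bool) × (V × ℕ → I),
      ({ω : (V → Bool) × (V × ℕ → I) | J.restrict (obs E ω.1 ω.2) ∈ C} ∩ {ω | ω.1 v = true}).indicator
        (1 : (V → Bool) × (V × ℕ → I) → ENNReal) ω
      = (fun (x : V → Bool) (y : J → I) => C.indicator (fun _ => if x v = true then (1 : ENNReal) else 0) y)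
          ω.1 (J.restrict (obs E ω.1 ω.2)) := by
    intro ω
    simp only [indicator, mem_inter_iff, mem_ofPred_eq, Pi.one_apply]
    by_cases h1 : J.restrict (obs E ω.1 ω.2) ∈ C <;> by_cases h2 : ω.1 v = true <;> simp [h1, h2]
  rw [lintegral_congr e1, lintegral_congr e2,
    lintegral_obs ν E J hJ (fun (_ : V → Bool) (y : J → I) =>
      C.indicator (fun y => ENNReal.ofReal (postJ ν J v y)) y),
    lintegral_obs ν E J hJ (fun (x : V → Bool) (y : J → I) =>
      C.indicator (fun _ => if x v = true then (1 : ENNReal) else 0) y)]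
  · refine lintegral_congr fun y => ?_
    by_cases hy : y ∈ C
    · simp only [indicator_of_mem hy]
      rw [lintegral_const_mul _ (by
        exact (ENNReal.measurable_ofReal).comp (measurable_wt_left J y))]
      have h1 : ∫⁻ x, ENNReal.ofReal (wt J x y) ∂ν = ENNReal.ofReal (∫ x, wt J x y ∂ν) := by
        rw [ofReal_integral_eq_lintegral_ofReal (integrable_wt ν J y)
          (ae_of_all _ fun x => (wt_pos _ _ _).le)]
      have h2 : ∫⁻ x, (if x v = true then (1 : ENNReal) else 0) * ENNReal.ofReal (wt J x y) ∂ν
          = ENNReal.ofReal (∫ x, (if x v = true then wt J x y else 0) ∂ν) := by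
        rw [ofReal_integral_eq_lintegral_ofReal (integrable_ite_wt ν J v y)
          (ae_of_all _ fun x => by dsimp only; split_ifs; exacts [(wt_pos _ _ _).le, le_rfl])]
        refine lintegral_congr fun x => ?_
        split_ifs <;> simp
      rw [h1, h2, ← ENNReal.ofReal_mul (postJ_mem ν J v y).1]
      congr 1
      unfold postJ
      rw [div_mul_cancel₀ _ (integral_wt_pos ν J y).ne']
    · simp [indicator_of_notMem hy]
  · unfold Function.uncurry
    dsimp only
    refine Measurable.indicator (f := fun p : (V → Bool) × (J → I) => if p.1 v = true then (1 : ENNReal) else 0)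
      (s := {p : (V → Bool) × (J → I) | p.2 ∈ C}) ?_ (measurable_snd hC)
    exact Measurable.ite (meas_true (by fun_prop))
      measurable_const measurable_const
  · unfold Function.uncurry
    dsimp only
    refine Measurable.indicator (f := fun p : (V → Bool) × (J → I) => ENNReal.ofReal (postJ ν J v p.2))
      (s := {p : (V → Bool) × (J → I) | p.2 ∈ C}) ?_ (measurable_snd hC)
    exact ENNReal.measurable_ofReal.comp ((measurable_postJ ν J v).comp measurable_snd)

end Crest.Agent.H5
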