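import Mathlib

set_option autoImplicit false

namespace Crest.Agent.H5

open Polynomial Filter Topology Complex

/-- lower bound for a polynomial with no zeros in the upper half plane -/
lemma poly_lower (Q : ℂ[X]) (hQ : ∀ s : ℂ, 0 < s.im → Q.eval s ≠ 0) (s : ℂ) (hs : 0 < s.im) :
    ‖Q.leadingCoeff‖ * s.im ^ Q.natDegree ≤ ‖Q.eval s‖ := by
  have hsp : Q.Splits := IsAlgClosed.splits Q
  have hQ0 : Q ≠ 0 := by
    rintro rfl
    exact hQ s hs (by simp)
  have h1 := hsp.eval_eq_prod_roots s
  rw [h1, norm_mul]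
  refine mul_le_mul_of_nonneg_left ?_ (norm_nonneg _)
  have h2 : Q.natDegree = Multiset.card Q.roots := hsp.natDegree_eq_card_roots
  rw [h2]
  have key : ∀ R : Multiset ℂ, (∀ ρ ∈ R, ρ.im ≤ 0) →
      s.im ^ Multiset.card R ≤ ‖(R.map (fun a => s - a)).prod‖ := by
    intro R
    induction R using Multiset.induction_on with
    | empty => simp
    | cons a R ih =>
      intro h
      rw [Multiset.card_cons, Multiset.map_cons, Multiset.prod_cons, norm_mul, pow_succ, mul_comm]
      have h3 := ih (fun ρ hρ => h ρ (Multiset.mem_cons_of_mem hρ))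
      have h4 : s.im ≤ ‖s - a‖ := by
        have h5 := h a (Multiset.mem_cons_self a R)
        have h6 := Complex.abs_im_le_norm (s - a)
        rw [Complex.sub_im] at h6
        have := le_abs_self (s.im - a.im)
        linarith
      exact mul_le_mul h4 h3 (by positivity) (norm_nonneg _)
  refine key _ fun ρ hρ => ?_
  by_contra hlt
  push Not at hlt
  exact hQ ρ hlt ((mem_roots hQ0).1 hρ)

/-- no zeros for positive real second variable -/
lemma no_zero_real (A B : ℝ[X]) (hA : ∀ k, 0 ≤ A.coeff k) (hB : ∀ k, 0 ≤ B.coeff k)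
    (hne : ∀ s z : ℂ, 0 < s.im → 0 < z.im → aeval s A + z * aeval s B ≠ 0)
    (hAB : A ≠ 0 ∨ B ≠ 0) (c : ℝ) (hc : 0 < c) (s : ℂ) (hs : 0 < s.im) :
    aeval s A + c * aeval s B ≠ 0 := by
  let Q : ℝ → ℂ[X] := fun η => A.map (algebraMap ℝ ℂ) + C (c + η * I) * B.map (algebraMap ℝ ℂ)
  have hQev : ∀ η (s : ℂ), (Q η).eval s = aeval s A + (c + η * I) * aeval s B := by
    intro η s
    simp only [Q, eval_add, eval_mul, eval_C, eval_map_algebraMap]
  let P : ℝ[X] := A + C c * B
  have hPc : ∀ k, P.coeff k = A.coeff k + c * B.coeff k := by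
    intro k; simp [P]
  have hP0 : P ≠ 0 := by
    intro h
    have h1 : ∀ k, A.coeff k + c * B.coeff k = 0 := by
      intro k; rw [← hPc, h, coeff_zero]
    rcases hAB with h2 | h2
    · apply h2
      ext k
      have := h1 k
      have h3 := hA k
      have h4 := mul_nonneg hc.le (hB k)
      rw [coeff_zero]; linarith
    · apply h2
      ext k
      have := h1 k
      have h3 := hA k
      have h4 := mul_nonneg hc.le (hB k)
      have h5 : c * B.coeff k = 0 := by linarith
      rw [coeff_zero]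
      exact (mul_eq_zero.1 h5).resolve_left hc.ne'
  set d := P.natDegree with hd
  have hlead : 0 < P.coeff d := by
    have h1 : P.coeff d ≠ 0 := by rw [hd]; exact leadingCoeff_ne_zero.2 hP0
    have h2 : 0 ≤ P.coeff d := by
      rw [hPc]; exact add_nonneg (hA d) (mul_nonneg hc.le (hB d))
    exact lt_of_le_of_ne h2 h1.symm
  have hzero : ∀ k, d < k → A.coeff k = 0 ∧ B.coeff k = 0 := by
    intro k hk
    have h1 : P.coeff k = 0 := coeff_eq_zero_of_natDegree_lt hk
    rw [hPc] at h1
    have h3 := hA k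
    have h4 := mul_nonneg hc.le (hB k)
    have h5 : c * B.coeff k = 0 := by linarith
    exact ⟨by linarith, (mul_eq_zero.1 h5).resolve_left hc.ne'⟩
  have hQc : ∀ η k, (Q η).coeff k = (A.coeff k : ℂ) + (c + η * I) * (B.coeff k : ℂ) := by
    intro η k
    simp only [Q, coeff_add, coeff_C_mul, coeff_map]
    rfl
  have hre : ∀ η, ((Q η).coeff d).re = P.coeff d := by
    intro η
    rw [hQc, hPc]
    simp
  have hdeg : ∀ η, (Q η).natDegree = d := by
    intro η
    apply le_antisymm
    · rw [natDegree_le_iff_coeff_eq_zero]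
      intro k hk
      rw [hQc, (hzero k hk).1, (hzero k hk).2]
      simp
    · apply le_natDegree_of_ne_zero
      intro h
      have := hre η
      rw [h] at this
      simp at this
      linarith
  have hbound : ∀ η, 0 < η → P.coeff d * s.im ^ d ≤ ‖(Q η).eval s‖ := by
    intro η hη
    have h1 := poly_lower (Q η) (fun s' hs' => by
      rw [hQev]
      exact hne s' _ hs' (by simp [hη])) s hs
    rw [hdeg] at h1
    refine le_trans ?_ h1
    refine mul_le_mul_of_nonneg_right ?_ (by positivity)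
    rw [leadingCoeff, hdeg, ← hre η]
    exact (le_abs_self _).trans (Complex.abs_re_le_norm _)
  have hlim : Tendsto (fun η : ℝ => ‖(Q η).eval s‖) (𝓝[>] 0) (𝓝 ‖aeval s A + c * aeval s B‖) := by
    have h1 : Tendsto (fun η : ℝ => ‖aeval s A + ((c : ℂ) + (η : ℂ) * I) * aeval s B‖) (𝓝 0)
        (𝓝 ‖aeval s A + ((c : ℂ) + ((0 : ℝ) : ℂ) * I) * aeval s B‖) := by
      apply Continuous.tendsto
      fun_prop
    simp only [Complex.ofReal_zero, zero_mul, add_zero] at h1
    refine (h1.mono_left nhdsWithin_le_nhds).congr fun η => ?_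
    rw [hQev]
  have h2 : P.coeff d * s.im ^ d ≤ ‖aeval s A + c * aeval s B‖ := by
    refine ge_of_tendsto hlim ?_
    filter_upwards [self_mem_nhdsWithin] with η hη
    exact hbound η hη
  intro h
  rw [h, norm_zero] at h2
  have : 0 < P.coeff d * s.im ^ d := by positivity
  linarith

lemma aeval_conj (A : ℝ[X]) (s : ℂ) : aeval ((starRingEnd ℂ) s) A = (starRingEnd ℂ) (aeval s A) := by
  have := Polynomial.aeval_algHom_apply (Complex.conjAe : ℂ ≃ₐ[ℝ] ℂ).toAlgHom s A
  simpa using this

lemma aeval_ofReal_eq (A : ℝ[X]) (s : ℝ) : aeval (s : ℂ) A = ((A.eval s : ℝ) : ℂ) := by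
  have := Polynomial.aeval_algebraMap_apply ℂ s A
  simpa using this

/-- nonnegative coefficients and positive point -/
lemma eval_pos_of {A : ℝ[X]} (hA : ∀ k, 0 ≤ A.coeff k) (h0 : A ≠ 0) {s : ℝ} (hs : 0 < s) :
    0 < A.eval s := by
  rw [eval_eq_sum_range]
  refine Finset.sum_pos' (fun i _ => mul_nonneg (hA i) (by positivity)) ?_
  refine ⟨A.natDegree, by simp, ?_⟩
  have h1 : A.coeff A.natDegree ≠ 0 := leadingCoeff_ne_zero.2 h0
  have h2 := hA A.natDegree
  have : 0 < A.coeff A.natDegree := lt_of_le_of_ne h2 h1.symm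
  positivity

lemma no_zero_slit (A B : ℝ[X]) (hA : ∀ k, 0 ≤ A.coeff k) (hB : ∀ k, 0 ≤ B.coeff k)
    (hne : ∀ s z : ℂ, 0 < s.im → 0 < z.im → aeval s A + z * aeval s B ≠ 0)
    (hA0 : A ≠ 0) (hB0 : B ≠ 0) (c : ℝ) (hc : 0 < c) (s : ℂ) (hs : s ∈ slitPlane) :
    aeval s A + c * aeval s B ≠ 0 := by
  by_cases h1 : 0 < s.im
  · exact no_zero_real A B hA hB hne (Or.inl hA0) c hc s h1
  by_cases h2 : s.im < 0
  · intro h
    have h3 := no_zero_real A B hA hB hne (Or.inl hA0) c hc ((starRingEnd ℂ) s) (by simpa using h2)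
    apply h3
    rw [aeval_conj, aeval_conj]
    have h4 : (starRingEnd ℂ) (aeval s A + c * aeval s B) = 0 := by rw [h]; simp
    simpa using h4
  · have h3 : s.im = 0 := le_antisymm (not_lt.1 h1) (not_lt.1 h2)
    have h4 : 0 < s.re := by
      rcases hs with h | h
      · exact h
      · exact absurd h3 h
    have h5 : s = ((s.re : ℝ) : ℂ) := by
      apply Complex.ext <;> simp [h3]
    rw [h5, aeval_ofReal_eq, aeval_ofReal_eq]
    have h6 := eval_pos_of hA hA0 h4
    have h7 := eval_pos_of hB hB0 h4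
    have h8 : 0 < A.eval s.re + c * B.eval s.re := by positivity
    intro h
    have : ((A.eval s.re + c * B.eval s.re : ℝ) : ℂ) = 0 := by push_cast; exact h
    rw [Complex.ofReal_eq_zero] at this
    linarith

/-- Schwarz lemma for self maps of the slit plane -/
lemma schwarz_slit (R : ℂ → ℂ) (hR : DifferentiableOn ℂ R (Metric.ball 1 1))
    (hmaps : ∀ s ∈ Metric.ball (1:ℂ) 1, R s ∈ slitPlane) (r : ℝ) (hr : 0 < r) (h1 : R 1 = r)
    (R' : ℂ) (hd : HasDerivAt R R' 1) : ‖R'‖ ≤ 4 * r := by
  let g : ℂ → ℂ := fun s => Complex.exp (Complex.log (R s) / 2)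
  have hgd : DifferentiableOn ℂ g (Metric.ball 1 1) := by
    intro s hs
    have h2 := (hR s hs).clog (hmaps s hs)
    exact (h2.div_const 2).cexp
  have hgre : ∀ s ∈ Metric.ball (1:ℂ) 1, 0 < (g s).re := by
    intro s hs
    have h2 := hmaps s hs
    rw [Complex.mem_slitPlane_iff_arg] at h2
    have h3 := Complex.neg_pi_lt_arg (R s)
    have h4 : Complex.arg (R s) < Real.pi := lt_of_le_of_ne (Complex.arg_le_pi _) h2.1
    simp only [g]
    rw [Complex.exp_re]
    refine mul_pos (Real.exp_pos _) (Real.cos_pos_of_mem_Ioo ?_)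
    have h5 : (Complex.log (R s) / 2).im = Complex.arg (R s) / 2 := by
      rw [show (Complex.log (R s) / 2) = Complex.log (R s) / ((2:ℝ) : ℂ) by norm_num, Complex.div_ofReal_im,
        Complex.log_im]
    rw [h5]
    constructor <;> linarith
  let q : ℝ := Real.exp (Real.log r / 2)
  have hq0 : 0 < q := Real.exp_pos _
  have hg1 : g 1 = q := by
    simp only [g, q, h1]
    rw [← Complex.ofReal_log hr.le]
    push_cast
    rfl
  have hq2 : q * q = r := by
    simp only [q]
    rw [← Real.exp_add, add_halves, Real.exp_log hr]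
  let φ : ℂ → ℂ := fun s => (g s - q) / (g s + q)
  have hden : ∀ s ∈ Metric.ball (1:ℂ) 1, g s + q ≠ 0 := by
    intro s hs h
    have h2 := hgre s hs
    have h3 : (g s + q).re = 0 := by rw [h]; simp
    rw [Complex.add_re, Complex.ofReal_re] at h3
    linarith
  have hφd : DifferentiableOn ℂ φ (Metric.ball 1 1) :=
    (hgd.sub_const _).div (hgd.add_const _) hden
  have hφ1 : φ 1 = 0 := by simp [φ, hg1]
  have hmapsφ : Set.MapsTo φ (Metric.ball 1 1) (Metric.closedBall (φ 1) 1) := by
    intro s hs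
    rw [hφ1, mem_closedBall_zero_iff]
    simp only [φ]
    rw [norm_div, div_le_one (norm_pos_iff.2 (hden s hs))]
    have h2 := hgre s hs
    rw [← sq_le_sq₀ (norm_nonneg _) (norm_nonneg _), ← Complex.normSq_eq_norm_sq, ← Complex.normSq_eq_norm_sq,
      Complex.normSq_apply, Complex.normSq_apply]
    simp only [Complex.sub_re, Complex.sub_im, Complex.add_re, Complex.add_im, Complex.ofReal_re, Complex.ofReal_im]
    nlinarith [mul_pos h2 hq0]
  have hschw := Complex.norm_deriv_le_div_of_mapsTo_ball hφd hmapsφ one_pos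
  have h1mem : (1:ℂ) ∈ Metric.ball (1:ℂ) 1 := Metric.mem_ball_self one_pos
  -- derivative of φ at 1
  have hslit1 : R 1 ∈ slitPlane := hmaps 1 h1mem
  have hgderiv : HasDerivAt g (g 1 * (R' / R 1 / 2)) 1 := by
    have h2 := (hd.clog hslit1).div_const 2
    exact h2.cexp
  have hφderiv : HasDerivAt φ (((g 1 * (R' / R 1 / 2)) * (g 1 + q) - (g 1 - q) * (g 1 * (R' / R 1 / 2)))
      / (g 1 + q) ^ 2) 1 := (hgderiv.sub_const _).div (hgderiv.add_const _) (hden 1 h1mem)
  rw [hφderiv.deriv, div_one] at hschw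
  have hqc : (q : ℂ) ≠ 0 := by exact_mod_cast hq0.ne'
  have hrq : (r : ℂ) = q * q := by exact_mod_cast hq2.symm
  have e : ((g 1 * (R' / R 1 / 2)) * (g 1 + q) - (g 1 - q) * (g 1 * (R' / R 1 / 2)))
      / (g 1 + q) ^ 2 = R' / (4 * r : ℝ) := by
    rw [hg1, h1]
    push_cast
    rw [hrq]
    field_simp
    ring
  rw [e, norm_div, Complex.norm_real, Real.norm_of_nonneg (by positivity), div_le_one (by positivity)] at hschw
  exact hschw

/-- total covariance bound, in polynomial form -/
lemma total_bound (A B : ℝ[X]) (hA : ∀ k, 0 ≤ A.coeff k) (hB : ∀ k, 0 ≤ B.coeff k)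
    (hne : ∀ s z : ℂ, 0 < s.im → 0 < z.im → aeval s A + z * aeval s B ≠ 0) :
    A.derivative.eval 1 * B.eval 1 - A.eval 1 * B.derivative.eval 1 ≤ 4 * (A.eval 1 * B.eval 1) := by
  by_cases hA0 : A = 0
  · simp [hA0]
  by_cases hB0 : B = 0
  · simp [hB0]
  have hA1 := eval_pos_of hA hA0 one_pos
  have hB1 := eval_pos_of hB hB0 one_pos
  set a := A.eval 1
  set b := B.eval 1
  set a' := A.derivative.eval 1
  set b' := B.derivative.eval 1
  have key : ∀ δ : ℝ, 0 < δ → δ < 1 → (1 - δ^2) * (a' * b - a * b') ≤ 4 * ((a + δ * b) * (b + δ * a)) := by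
    intro δ hδ hδ1
    let N : ℂ → ℂ := fun s => aeval s A + δ * aeval s B
    let D : ℂ → ℂ := fun s => aeval s B + δ * aeval s A
    have hball : ∀ s ∈ Metric.ball (1:ℂ) 1, s ∈ slitPlane := by
      intro s hs
      left
      rw [Metric.mem_ball, Complex.dist_eq] at hs
      have h1 := Complex.abs_re_le_norm (s - 1)
      rw [Complex.sub_re, Complex.one_re] at h1
      have h2 := neg_abs_le (s.re - 1)
      linarith
    have hNZ : ∀ (c : ℝ), 0 < c → ∀ s ∈ Metric.ball (1:ℂ) 1, aeval s A + c * aeval s B ≠ 0 :=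
      fun c hc s hs => no_zero_slit A B hA hB hne hA0 hB0 c hc s (hball s hs)
    have hD : ∀ s ∈ Metric.ball (1:ℂ) 1, D s ≠ 0 := by
      intro s hs h
      refine hNZ δ⁻¹ (by positivity) s hs ?_
      have hδc : (δ : ℂ) ≠ 0 := by exact_mod_cast hδ.ne'
      have : D s = δ * (aeval s A + (δ⁻¹ : ℝ) * aeval s B) := by
        simp only [D]; push_cast; field_simp; ring
      rw [this] at h
      exact (mul_eq_zero.1 h).resolve_left hδc
    let R : ℂ → ℂ := fun s => N s / D s
    have hmaps : ∀ s ∈ Metric.ball (1:ℂ) 1, R s ∈ slitPlane := by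
      intro s hs
      by_contra hns
      -- then R s = -c, c ≥ 0
      have h1 : (R s).re ≤ 0 ∧ (R s).im = 0 := by
        rw [Complex.mem_slitPlane_iff] at hns
        push Not at hns
        exact hns
      set c : ℝ := -(R s).re with hc
      have hc0 : 0 ≤ c := by rw [hc]; linarith [h1.1]
      have h2 : R s = -(c : ℂ) := by
        apply Complex.ext
        · simp [hc]
        · simp [h1.2]
      have h3 : N s = -(c : ℂ) * D s := by
        have : R s = N s / D s := rfl
        rw [this, div_eq_iff (hD s hs)] at h2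
        exact h2
      refine hNZ ((δ + c) / (1 + c * δ)) (by positivity) s hs ?_
      have h4 : (1 + c * δ : ℂ) ≠ 0 := by
        have : (0:ℝ) < 1 + c * δ := by positivity
        exact_mod_cast this.ne'
      have h5 : aeval s A * (1 + c * δ) + (δ + c) * aeval s B = 0 := by
        have : N s + c * D s = 0 := by rw [h3]; ring
        simp only [N, D] at this
        linear_combination this
      have h6 : aeval s A + (((δ + c) / (1 + c * δ) : ℝ) : ℂ) * aeval s B
          = (aeval s A * (1 + c * δ) + (δ + c) * aeval s B) / (1 + c * δ) := by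
        push_cast
        rw [eq_div_iff h4, add_mul, mul_right_comm, div_mul_cancel₀ _ h4]
      rw [h6, h5, zero_div]
    have hNd : ∀ s, HasDerivAt N (aeval s A.derivative + δ * aeval s B.derivative) s := by
      intro s
      exact (A.hasDerivAt_aeval s).add ((B.hasDerivAt_aeval s).const_mul _)
    have hDd : ∀ s, HasDerivAt D (aeval s B.derivative + δ * aeval s A.derivative) s := by
      intro s
      exact (B.hasDerivAt_aeval s).add ((A.hasDerivAt_aeval s).const_mul _)
    have hRd : DifferentiableOn ℂ R (Metric.ball 1 1) := by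
      intro s hs
      exact (((hNd s).differentiableAt).div ((hDd s).differentiableAt) (hD s hs)).differentiableWithinAt
    have h1mem : (1:ℂ) ∈ Metric.ball (1:ℂ) 1 := Metric.mem_ball_self one_pos
    have haA : ∀ P : ℝ[X], aeval (1:ℂ) P = ((P.eval 1 : ℝ) : ℂ) := by
      intro P
      have := aeval_ofReal_eq P 1
      simpa using this
    have hN1 : N 1 = ((a + δ * b : ℝ) : ℂ) := by simp only [N, haA]; push_cast; rfl
    have hD1 : D 1 = ((b + δ * a : ℝ) : ℂ) := by simp only [D, haA]; push_cast; rfl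
    have hDpos : 0 < b + δ * a := by positivity
    have hNpos : 0 < a + δ * b := by positivity
    have hR1 : R 1 = (((a + δ * b) / (b + δ * a) : ℝ) : ℂ) := by
      simp only [R, hN1, hD1]; push_cast; rfl
    have hder := (hNd 1).div (hDd 1) (hD 1 h1mem)
    have hschw := schwarz_slit R hRd hmaps ((a + δ * b) / (b + δ * a)) (by positivity) hR1 _ hder
    have e : ((aeval (1:ℂ) A.derivative + δ * aeval (1:ℂ) B.derivative) * D 1 -
        N 1 * (aeval (1:ℂ) B.derivative + δ * aeval (1:ℂ) A.derivative)) / D 1 ^ 2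
        = (((1 - δ^2) * (a' * b - a * b') / (b + δ * a) ^ 2 : ℝ) : ℂ) := by
      rw [hN1, hD1, haA, haA]
      push_cast
      congr 1
      ring
    rw [e, Complex.norm_real] at hschw
    have h2 := (le_abs_self _).trans hschw
    rw [div_le_iff₀ (by positivity)] at h2
    have h3 : 4 * ((a + δ * b) / (b + δ * a)) * (b + δ * a) ^ 2 = 4 * ((a + δ * b) * (b + δ * a)) := by
      field_simp
    linarith
  have hl : Tendsto (fun δ : ℝ => (1 - δ^2) * (a' * b - a * b')) (𝓝[>] 0) (𝓝 ((1 - 0^2) * (a' * b - a * b'))) := by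
    refine Tendsto.mono_left (Continuous.tendsto ?_ 0) nhdsWithin_le_nhds
    fun_prop
  have hr : Tendsto (fun δ : ℝ => 4 * ((a + δ * b) * (b + δ * a))) (𝓝[>] 0) (𝓝 (4 * ((a + 0 * b) * (b + 0 * a)))) := by
    refine Tendsto.mono_left (Continuous.tendsto ?_ 0) nhdsWithin_le_nhds
    fun_prop
  have := le_of_tendsto_of_tendsto hl hr (by
    filter_upwards [Ioo_mem_nhdsGT (show (0:ℝ) < 1 by norm_num)] with δ hδ
    exact key δ hδ.1 hδ.2)
  simpa using this

end Crest.Agent.H5
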