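import Mathlib
import Crest.Agent.H5.Nevan

set_option autoImplicit false

namespace Crest.Agent.H5

open Filter Topology

variable {ι : Type*}

/-- generating polynomial of a finite mass function -/
noncomputable def gp (F : Finset ι) (m : Finset ι → ℝ) (z : ι → ℂ) : ℂ :=
  ∑ S ∈ F.powerset, (m S : ℂ) * ∏ i ∈ S, z i

/-- strongly Rayleigh mass function -/
def SRm (F : Finset ι) (m : Finset ι → ℝ) : Prop :=
  (∀ S, 0 ≤ m S) ∧ ∀ z : ι → ℂ, (∀ i ∈ F, 0 < (z i).im) → gp F m z ≠ 0

lemma SRm.scale {F : Finset ι} {m : Finset ι → ℝ} (h : SRm F m) (r : ι → ℝ) (hr : ∀ i, 0 < r i) :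
    SRm F (fun S => m S * ∏ i ∈ S, r i) := by
  refine ⟨fun S => mul_nonneg (h.1 S) (Finset.prod_nonneg fun i _ => (hr i).le), fun z hz => ?_⟩
  have h1 : gp F (fun S => m S * ∏ i ∈ S, r i) z = gp F m (fun i => (r i : ℂ) * z i) := by
    unfold gp
    refine Finset.sum_congr rfl fun S _ => ?_
    rw [Finset.prod_mul_distrib]
    push_cast
    ring
  rw [h1]
  refine h.2 _ fun i hi => ?_
  simp only [Complex.re_ofReal_mul, Complex.im_ofReal_mul]
  exact mul_pos (hr i) (hz i hi)

variable [DecidableEq ι]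

/-- mass of the sets containing a given set -/
noncomputable def up (F : Finset ι) (m : Finset ι → ℝ) (T : Finset ι) : ℝ :=
  ∑ S ∈ F.powerset, if T ⊆ S then m S else 0

lemma sum_powerset_erase {β : Type*} [AddCommMonoid β] {F : Finset ι} {v : ι} (hv : v ∈ F)
    (f : Finset ι → β) :
    ∑ S ∈ F.powerset, f S = ∑ S ∈ (F.erase v).powerset, (f S + f (insert v S)) := by
  conv_lhs => rw [← Finset.insert_erase hv]
  rw [Finset.sum_powerset_insert (Finset.notMem_erase v F), Finset.sum_add_distrib]

lemma notMem_of_powerset_erase {F : Finset ι} {v : ι} {S : Finset ι} (hS : S ∈ (F.erase v).powerset) :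
    v ∉ S := fun h => Finset.notMem_erase v F (Finset.mem_powerset.1 hS h)

/-- negative correlation -/
lemma SRm.nc {F : Finset ι} {m : Finset ι → ℝ} (h : SRm F m) {v w : ι} (hv : v ∈ F) (hw : w ∈ F)
    (hvw : v ≠ w) : up F m ∅ * up F m {v, w} ≤ up F m {v} * up F m {w} := by
  have hw' : w ∈ F.erase v := Finset.mem_erase.2 ⟨hvw.symm, hw⟩
  set F' := (F.erase v).erase w with hF'
  have hsplit : ∀ {β : Type} [AddCommMonoid β] (f : Finset ι → β), ∑ S ∈ F.powerset, f S
      = ∑ S ∈ F'.powerset, ((f S + f (insert v S)) + (f (insert w S) + f (insert v (insert w S)))) := by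
    intro β _ f
    rw [sum_powerset_erase hv, sum_powerset_erase hw']
  have hvS : ∀ S ∈ F'.powerset, v ∉ S := fun S hS hvS => by
    have := Finset.mem_powerset.1 hS hvS
    rw [hF', Finset.mem_erase, Finset.mem_erase] at this
    exact this.2.1 rfl
  have hwS : ∀ S ∈ F'.powerset, w ∉ S := fun S hS hwS => by
    have := Finset.mem_powerset.1 hS hwS
    rw [hF', Finset.mem_erase] at this
    exact this.1 rfl
  set a := ∑ S ∈ F'.powerset, m S with ha
  set b := ∑ S ∈ F'.powerset, m (insert v S) with hb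
  set c := ∑ S ∈ F'.powerset, m (insert w S) with hc
  set d := ∑ S ∈ F'.powerset, m (insert v (insert w S)) with hd
  have e0 : up F m ∅ = a + b + c + d := by
    unfold up
    rw [hsplit, ha, hb, hc, hd, ← Finset.sum_add_distrib, ← Finset.sum_add_distrib, ← Finset.sum_add_distrib]
    refine Finset.sum_congr rfl fun S _ => ?_
    simp only [Finset.empty_subset, if_true]
    ring
  have ev : up F m {v} = b + d := by
    unfold up
    rw [hsplit, hb, hd, ← Finset.sum_add_distrib]
    refine Finset.sum_congr rfl fun S hS => ?_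
    have h1 := hvS S hS
    simp only [Finset.singleton_subset_iff, h1, Finset.mem_insert, hvw, or_self, if_false, true_or, if_true]
    ring
  have ew : up F m {w} = c + d := by
    unfold up
    rw [hsplit, hc, hd, ← Finset.sum_add_distrib]
    refine Finset.sum_congr rfl fun S hS => ?_
    have h1 := hwS S hS
    simp only [Finset.singleton_subset_iff, h1, Finset.mem_insert, hvw.symm, or_self, if_false, true_or,
      or_true, if_true]
    ring
  have evw : up F m {v, w} = d := by
    unfold up
    rw [hsplit, hd]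
    refine Finset.sum_congr rfl fun S hS => ?_
    have h1 := hwS S hS
    have h2 := hvS S hS
    simp only [Finset.insert_subset_iff, Finset.singleton_subset_iff, h1, h2, Finset.mem_insert, hvw,
      hvw.symm, or_self, if_false, true_or, or_true, if_true, and_self, false_and, and_false]
    ring
  rw [e0, ev, ew, evw]
  by_contra hcon
  push Not at hcon
  have hgt : b * c < a * d := by nlinarith
  have ha0 : 0 ≤ a := Finset.sum_nonneg fun S _ => h.1 S
  have hb0 : 0 ≤ b := Finset.sum_nonneg fun S _ => h.1 _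
  have hc0 : 0 ≤ c := Finset.sum_nonneg fun S _ => h.1 _
  have hd0 : 0 ≤ d := Finset.sum_nonneg fun S _ => h.1 _
  have hdpos : 0 < d := by
    rcases hd0.eq_or_lt with h1 | h1
    · rw [← h1, mul_zero] at hgt
      have := mul_nonneg hb0 hc0
      linarith
    · exact h1
  -- perturbed sums
  let pw : ℝ → Finset ι → ℂ := fun δ S => (1 + δ * Complex.I) ^ S.card
  let fa : ℝ → ℂ := fun δ => ∑ S ∈ F'.powerset, (m S : ℂ) * pw δ S
  let fb : ℝ → ℂ := fun δ => ∑ S ∈ F'.powerset, (m (insert v S) : ℂ) * pw δ S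
  let fc : ℝ → ℂ := fun δ => ∑ S ∈ F'.powerset, (m (insert w S) : ℂ) * pw δ S
  let fd : ℝ → ℂ := fun δ => ∑ S ∈ F'.powerset, (m (insert v (insert w S)) : ℂ) * pw δ S
  have hpw : ∀ S, Continuous (fun δ => pw δ S) := by intro S; simp only [pw]; fun_prop
  have hfa : Continuous fa := continuous_finsetSum _ fun S _ => continuous_const.mul (hpw S)
  have hfb : Continuous fb := continuous_finsetSum _ fun S _ => continuous_const.mul (hpw S)
  have hfc : Continuous fc := continuous_finsetSum _ fun S _ => continuous_const.mul (hpw S)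
  have hfd : Continuous fd := continuous_finsetSum _ fun S _ => continuous_const.mul (hpw S)
  have hpw0 : ∀ S, pw 0 S = 1 := by intro S; simp [pw]
  have hfa0 : fa 0 = (a : ℂ) := by simp only [fa, hpw0, mul_one, ha]; push_cast; rfl
  have hfb0 : fb 0 = (b : ℂ) := by simp only [fb, hpw0, mul_one, hb]; push_cast; rfl
  have hfc0 : fc 0 = (c : ℂ) := by simp only [fc, hpw0, mul_one, hc]; push_cast; rfl
  have hfd0 : fd 0 = (d : ℂ) := by simp only [fd, hpw0, mul_one, hd]; push_cast; rfl
  let den : ℝ → ℂ := fun δ => fc δ + fd δ * Complex.I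
  let om : ℝ → ℂ := fun δ => -(fa δ + fb δ * Complex.I) / den δ
  have hden0 : den 0 ≠ 0 := by
    intro h0
    have : (den 0).im = 0 := by rw [h0]; simp
    simp only [den, hfc0, hfd0] at this
    simp at this
    linarith
  have hcontden : ContinuousAt den 0 := (hfc.add (hfd.mul continuous_const)).continuousAt
  have hcont : ContinuousAt om 0 :=
    ((hfa.add (hfb.mul continuous_const)).neg.continuousAt).div hcontden hden0
  have him0 : 0 < (om 0).im := by
    simp only [om, den, hfa0, hfb0, hfc0, hfd0]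
    rw [Complex.div_im]
    have hns : Complex.normSq ((c : ℂ) + d * Complex.I) = c ^ 2 + d ^ 2 := by
      rw [Complex.normSq_add_mul_I]
    rw [hns]
    simp
    have : 0 < c ^ 2 + d ^ 2 := by positivity
    have e : -(b * c) / (c ^ 2 + d ^ 2) - -(a * d) / (c ^ 2 + d ^ 2) = (a * d - b * c) / (c ^ 2 + d ^ 2) := by
      ring
    have h5 : 0 < (a * d - b * c) / (c ^ 2 + d ^ 2) := div_pos (by linarith) this
    first
      | linarith
      | (rw [← sub_pos]; convert h5 using 1; ring)
  have hev1 : ∀ᶠ δ in 𝓝 (0:ℝ), 0 < (om δ).im :=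
    (Complex.continuous_im.continuousAt.comp hcont).eventually (lt_mem_nhds him0)
  have hev2 : ∀ᶠ δ in 𝓝 (0:ℝ), den δ ≠ 0 := hcontden.eventually_ne hden0
  have hev3 : ∀ᶠ δ in 𝓝[>] (0:ℝ), 0 < (om δ).im ∧ den δ ≠ 0 :=
    nhdsWithin_le_nhds (hev1.and hev2)
  obtain ⟨δ, ⟨hδ1, hδ2⟩, hδ3⟩ := (hev3.and self_mem_nhdsWithin).exists
  have hδ : 0 < δ := hδ3
  let z : ι → ℂ := fun i => if i = v then Complex.I else if i = w then om δ else 1 + δ * Complex.I
  have hzv : z v = Complex.I := by simp [z]
  have hzw : z w = om δ := by simp [z, hvw.symm]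
  have hprod : ∀ S ∈ F'.powerset, ∏ i ∈ S, z i = pw δ S := by
    intro S hS
    simp only [pw]
    rw [Finset.prod_eq_pow_card]
    intro i hi
    have h1 : i ≠ v := fun h => hvS S hS (h ▸ hi)
    have h2 : i ≠ w := fun h => hwS S hS (h ▸ hi)
    simp [z, h1, h2]
  refine h.2 z (fun i _ => ?_) ?_
  · simp only [z]
    split_ifs
    · simp
    · exact hδ1
    · simp [hδ]
  · have hgp : gp F m z = fa δ + fb δ * Complex.I + (fc δ + fd δ * Complex.I) * om δ := by
      unfold gp
      rw [hsplit]
      simp only [fa, fb, fc, fd]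
      rw [Finset.sum_mul, Finset.sum_mul, ← Finset.sum_add_distrib, ← Finset.sum_add_distrib,
        Finset.sum_mul, ← Finset.sum_add_distrib]
      refine Finset.sum_congr rfl fun S hS => ?_
      have h1 : v ∉ insert w S := by
        rw [Finset.mem_insert, not_or]; exact ⟨hvw, hvS S hS⟩
      rw [Finset.prod_insert (hvS S hS), Finset.prod_insert (hwS S hS), Finset.prod_insert h1,
        Finset.prod_insert (hwS S hS), hprod S hS, hzv, hzw]
      ring
    rw [hgp]
    have : (fc δ + fd δ * Complex.I) * om δ = -(fa δ + fb δ * Complex.I) := by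
      simp only [om]
      rw [mul_div_cancel₀]
      exact hδ2
    rw [this]
    ring

open Polynomial in
/-- total covariance bound -/
lemma SRm.total {F : Finset ι} {m : Finset ι → ℝ} (h : SRm F m) {v : ι} (hv : v ∈ F) :
    ∑ w ∈ F.erase v, (up F m {v} * up F m {w} - up F m ∅ * up F m {v, w})
      ≤ 4 * ((up F m ∅ - up F m {v}) * up F m {v}) := by
  let A : ℝ[X] := ∑ S ∈ (F.erase v).powerset, C (m S) * X ^ S.card
  let B : ℝ[X] := ∑ S ∈ (F.erase v).powerset, C (m (insert v S)) * X ^ S.card
  have hA : ∀ k, 0 ≤ A.coeff k := by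
    intro k
    simp only [A, finset_sum_coeff, coeff_C_mul, coeff_X_pow]
    refine Finset.sum_nonneg fun S _ => mul_nonneg (h.1 _) ?_
    split_ifs <;> norm_num
  have hB : ∀ k, 0 ≤ B.coeff k := by
    intro k
    simp only [B, finset_sum_coeff, coeff_C_mul, coeff_X_pow]
    refine Finset.sum_nonneg fun S _ => mul_nonneg (h.1 _) ?_
    split_ifs <;> norm_num
  have haA : ∀ s : ℂ, aeval s A = ∑ S ∈ (F.erase v).powerset, (m S : ℂ) * s ^ S.card := by
    intro s
    simp only [A, map_sum, map_mul, map_pow, aeval_X, aeval_C]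
    rfl
  have haB : ∀ s : ℂ, aeval s B = ∑ S ∈ (F.erase v).powerset, (m (insert v S) : ℂ) * s ^ S.card := by
    intro s
    simp only [B, map_sum, map_mul, map_pow, aeval_X, aeval_C]
    rfl
  have hne : ∀ s z : ℂ, 0 < s.im → 0 < z.im → aeval s A + z * aeval s B ≠ 0 := by
    intro s z hs hz
    have h1 := h.2 (fun i => if i = v then z else s) (fun i _ => by split_ifs; exacts [hz, hs])
    have h2 : gp F m (fun i => if i = v then z else s) = aeval s A + z * aeval s B := by
      unfold gp
      rw [sum_powerset_erase hv, haA, haB, Finset.mul_sum, ← Finset.sum_add_distrib]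
      refine Finset.sum_congr rfl fun S hS => ?_
      have hvS := notMem_of_powerset_erase hS
      have h3 : ∏ i ∈ S, (if i = v then z else s) = s ^ S.card := by
        rw [Finset.prod_eq_pow_card]
        intro i hi
        have : i ≠ v := fun h => hvS (h ▸ hi)
        simp [this]
      rw [Finset.prod_insert hvS, h3]
      simp only [if_true]
      ring
    rwa [h2] at h1
  have key := total_bound A B hA hB hne
  have eA : A.eval 1 = up F m ∅ - up F m {v} := by
    unfold up
    rw [← Finset.sum_sub_distrib, sum_powerset_erase hv]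
    simp only [A, eval_finsetSum, eval_mul, eval_C, eval_pow, eval_X, one_pow, mul_one]
    refine Finset.sum_congr rfl fun S hS => ?_
    have hvS := notMem_of_powerset_erase hS
    simp [hvS]
  have eB : B.eval 1 = up F m {v} := by
    unfold up
    rw [sum_powerset_erase hv]
    simp only [B, eval_finsetSum, eval_mul, eval_C, eval_pow, eval_X, one_pow, mul_one]
    refine Finset.sum_congr rfl fun S hS => ?_
    have hvS := notMem_of_powerset_erase hS
    simp [hvS]
  have eA' : A.derivative.eval 1 = ∑ S ∈ (F.erase v).powerset, m S * S.card := by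
    simp only [A, derivative_sum, eval_finsetSum, derivative_C_mul, derivative_X_pow, eval_mul, eval_C,
      eval_pow, eval_X, one_pow, mul_one, eval_natCast, map_natCast]
  have eB' : B.derivative.eval 1 = ∑ S ∈ (F.erase v).powerset, m (insert v S) * S.card := by
    simp only [B, derivative_sum, eval_finsetSum, derivative_C_mul, derivative_X_pow, eval_mul, eval_C,
      eval_pow, eval_X, one_pow, mul_one, eval_natCast, map_natCast]
  have s1 : ∑ w ∈ F.erase v, up F m {v, w} = B.derivative.eval 1 := by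
    rw [eB']
    unfold up
    rw [Finset.sum_comm, sum_powerset_erase hv]
    refine Finset.sum_congr rfl fun S hS => ?_
    have hvS := notMem_of_powerset_erase hS
    have hSF := Finset.mem_powerset.1 hS
    have h1 : ∑ w ∈ F.erase v, (if {v, w} ⊆ S then m S else 0) = 0 := by
      refine Finset.sum_eq_zero fun w _ => ?_
      rw [if_neg]
      intro h2
      exact hvS (h2 (by simp))
    have h2 : ∑ w ∈ F.erase v, (if {v, w} ⊆ insert v S then m (insert v S) else 0)
        = ∑ w ∈ F.erase v, (if w ∈ S then m (insert v S) else 0) := by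
      refine Finset.sum_congr rfl fun w hw => ?_
      have hwv := (Finset.mem_erase.1 hw).1
      congr 1
      simp [Finset.insert_subset_iff, hwv]
    rw [h1, h2, zero_add, ← Finset.sum_filter, Finset.sum_const, nsmul_eq_mul, mul_comm]
    congr 3
    ext w
    rw [Finset.mem_filter]
    exact ⟨fun h => h.2, fun h => ⟨hSF h, h⟩⟩
  have s2 : ∑ w ∈ F.erase v, up F m {w} = A.derivative.eval 1 + B.derivative.eval 1 := by
    rw [eA', eB', ← Finset.sum_add_distrib]
    unfold up
    rw [Finset.sum_comm, sum_powerset_erase hv]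
    refine Finset.sum_congr rfl fun S hS => ?_
    have hvS := notMem_of_powerset_erase hS
    have hSF := Finset.mem_powerset.1 hS
    have hcard : ((F.erase v).filter (fun w => w ∈ S)).card = S.card := by
      congr 1
      ext w
      rw [Finset.mem_filter]
      exact ⟨fun h => h.2, fun h => ⟨hSF h, h⟩⟩
    have h1 : ∑ w ∈ F.erase v, (if {w} ⊆ S then m S else 0) = m S * S.card := by
      simp only [Finset.singleton_subset_iff]
      rw [← Finset.sum_filter, Finset.sum_const, nsmul_eq_mul, mul_comm, hcard]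
    have h2 : ∑ w ∈ F.erase v, (if {w} ⊆ insert v S then m (insert v S) else 0)
        = m (insert v S) * S.card := by
      have : ∑ w ∈ F.erase v, (if {w} ⊆ insert v S then m (insert v S) else 0)
          = ∑ w ∈ F.erase v, (if w ∈ S then m (insert v S) else 0) := by
        refine Finset.sum_congr rfl fun w hw => ?_
        have hwv := (Finset.mem_erase.1 hw).1
        congr 1
        simp [hwv]
      rw [this, ← Finset.sum_filter, Finset.sum_const, nsmul_eq_mul, mul_comm, hcard]
    rw [h1, h2]
  rw [Finset.sum_sub_distrib, ← Finset.mul_sum, ← Finset.mul_sum, s1, s2]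
  rw [eA, eB] at key
  nlinarith [key]

/-- bound of a row of the covariance matrix -/
lemma SRm.row {F : Finset ι} {m : Finset ι → ℝ} (h : SRm F m) {v : ι} (hv : v ∈ F) :
    ∑ w ∈ F, |up F m {v, w} * up F m ∅ - up F m {v} * up F m {w}| ≤ 5/4 * up F m ∅ ^ 2 := by
  rw [← Finset.add_sum_erase F _ hv]
  have hup0 : 0 ≤ up F m {v} := Finset.sum_nonneg fun S _ => by split_ifs; exacts [h.1 S, le_rfl]
  have hup1 : up F m {v} ≤ up F m ∅ := by
    unfold up
    refine Finset.sum_le_sum fun S _ => ?_
    simp only [Finset.empty_subset, if_true]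
    split_ifs
    · exact le_rfl
    · exact h.1 S
  have h1 : |up F m {v, v} * up F m ∅ - up F m {v} * up F m {v}| = (up F m ∅ - up F m {v}) * up F m {v} := by
    have : ({v, v} : Finset ι) = {v} := by simp
    rw [this, abs_of_nonneg]
    · ring
    · nlinarith
  have h2 : ∑ w ∈ F.erase v, |up F m {v, w} * up F m ∅ - up F m {v} * up F m {w}|
      = ∑ w ∈ F.erase v, (up F m {v} * up F m {w} - up F m ∅ * up F m {v, w}) := by
    refine Finset.sum_congr rfl fun w hw => ?_
    have hw' := Finset.mem_erase.1 hw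
    have := h.nc hv hw'.2 hw'.1.symm
    rw [abs_of_nonpos (by nlinarith)]
    ring
  rw [h1, h2]
  have h3 := h.total hv
  nlinarith [sq_nonneg (up F m ∅ - 2 * up F m {v})]

lemma SRm.pos {F : Finset ι} {m : Finset ι → ℝ} (h : SRm F m) : 0 < up F m ∅ := by
  have h0 : 0 ≤ up F m ∅ := Finset.sum_nonneg fun S _ => by split_ifs; exacts [h.1 S, le_rfl]
  rcases h0.eq_or_lt with h1 | h1
  · exfalso
    unfold up at h1
    simp only [Finset.empty_subset, if_true] at h1
    have h2 := (Finset.sum_eq_zero_iff_of_nonneg (fun S _ => h.1 S)).1 h1.symm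
    refine h.2 (fun _ => Complex.I) (fun _ _ => by simp) ?_
    unfold gp
    refine Finset.sum_eq_zero fun S hS => ?_
    rw [h2 S hS]
    simp
  · exact h1

/-- tilted mass function -/
noncomputable def tm (F : Finset ι) (m : Finset ι → ℝ) (Y : ι → ℝ) (S : Finset ι) : ℝ :=
  m S * ∏ w ∈ S, Real.exp (Y w)

/-- tilted mean, finite version -/
noncomputable def fmean (F : Finset ι) (m : Finset ι → ℝ) (v : ι) (Y : ι → ℝ) : ℝ :=
  up F (tm F m Y) {v} / up F (tm F m Y) ∅

lemma SRm.tm {F : Finset ι} {m : Finset ι → ℝ} (h : SRm F m) (Y : ι → ℝ) : SRm F (tm F m Y) :=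
  h.scale (fun w => Real.exp (Y w)) (fun _ => Real.exp_pos _)

lemma hasDerivAt_up {F : Finset ι} {m : Finset ι → ℝ} (Y D : ι → ℝ) (T : Finset ι) (θ : ℝ) :
    HasDerivAt (fun θ : ℝ => up F (tm F m (fun w => Y w + θ * D w)) T)
      (∑ w ∈ F, D w * up F (tm F m (fun w => Y w + θ * D w)) (insert w T)) θ := by
  have h1 : ∀ S : Finset ι, HasDerivAt (fun θ : ℝ => tm F m (fun w => Y w + θ * D w) S)
      ((∑ w ∈ S, D w) * tm F m (fun w => Y w + θ * D w) S) θ := by
    intro S
    unfold tm
    simp_rw [← Real.exp_sum, Finset.sum_add_distrib, ← Finset.mul_sum]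
    have h2 : HasDerivAt (fun θ : ℝ => ∑ i ∈ S, Y i + θ * ∑ i ∈ S, D i) (∑ i ∈ S, D i) θ := by
      have := ((hasDerivAt_id θ).mul_const (∑ i ∈ S, D i)).const_add (∑ i ∈ S, Y i)
      simpa using this
    have h3 := (h2.exp).const_mul (m S)
    refine h3.congr_deriv ?_
    ring
  have h2 : HasDerivAt (fun θ : ℝ => up F (tm F m (fun w => Y w + θ * D w)) T)
      (∑ S ∈ F.powerset, if T ⊆ S then (∑ w ∈ S, D w) * tm F m (fun w => Y w + θ * D w) S else 0) θ := by
    unfold up
    refine HasDerivAt.fun_sum fun S _ => ?_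
    split_ifs
    · exact h1 S
    · exact hasDerivAt_const _ _
  refine h2.congr_deriv ?_
  unfold up
  simp_rw [Finset.mul_sum]
  rw [Finset.sum_comm]
  refine Finset.sum_congr rfl fun S hS => ?_
  have hSF := Finset.mem_powerset.1 hS
  by_cases hT : T ⊆ S
  · rw [if_pos hT, Finset.sum_mul]
    rw [← Finset.sum_subset hSF (f := fun w => D w * if insert w T ⊆ S then
      tm F m (fun w => Y w + θ * D w) S else 0)]
    · refine Finset.sum_congr rfl fun w hw => ?_
      rw [if_pos (Finset.insert_subset hw hT)]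
    · intro w _ hw
      rw [if_neg (fun h => hw (h (Finset.mem_insert_self _ _))), mul_zero]
  · rw [if_neg hT]
    symm
    refine Finset.sum_eq_zero fun w _ => ?_
    rw [if_neg (fun h => hT ((Finset.subset_insert _ _).trans h)), mul_zero]

/-- Lipschitz dependence of tilted means on the tilts -/
lemma SRm.lip {F : Finset ι} {m : Finset ι → ℝ} (h : SRm F m) {v : ι} (hv : v ∈ F) (Y Y' : ι → ℝ)
    (δ : ℝ) (hY : ∀ w ∈ F, |Y w - Y' w| ≤ δ) : |fmean F m v Y - fmean F m v Y'| ≤ 5/4 * δ := by
  set D : ι → ℝ := fun w => Y w - Y' w with hD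
  let W : ℝ → Finset ι → ℝ := fun θ => Crest.Agent.H5.tm F m (fun w => Y' w + θ * D w)
  have hW : ∀ θ, SRm F (W θ) := fun θ => h.tm _
  let φ : ℝ → ℝ := fun θ => up F (W θ) {v} / up F (W θ) ∅
  have h1 : φ 1 = fmean F m v Y := by
    simp only [φ, W, fmean, hD, one_mul]
    congr 3 <;> (funext w; ring)
  have h0 : φ 0 = fmean F m v Y' := by
    simp only [φ, W, fmean, zero_mul, add_zero]
  let φ' : ℝ → ℝ := fun θ => ((∑ w ∈ F, D w * up F (W θ) (insert w {v})) * up F (W θ) ∅ -
    up F (W θ) {v} * (∑ w ∈ F, D w * up F (W θ) (insert w ∅))) / (up F (W θ) ∅) ^ 2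
  have hder : ∀ θ, HasDerivAt φ (φ' θ) θ := fun θ =>
    (hasDerivAt_up Y' D {v} θ).div (hasDerivAt_up Y' D ∅ θ) (hW θ).pos.ne'
  have hbound : ∀ θ, ‖φ' θ‖ ≤ 5/4 * δ := by
    intro θ
    have hpos := (hW θ).pos
    have e : φ' θ = (∑ w ∈ F, D w * (up F (W θ) {v, w} * up F (W θ) ∅ - up F (W θ) {v} * up F (W θ) {w}))
        / (up F (W θ) ∅) ^ 2 := by
      simp only [φ']
      congr 1
      rw [Finset.sum_mul, Finset.mul_sum, ← Finset.sum_sub_distrib]
      refine Finset.sum_congr rfl fun w _ => ?_
      rw [Finset.pair_comm v w]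
      simp only [insert_empty_eq]
      ring
    rw [e, norm_div, Real.norm_of_nonneg (sq_nonneg (up F (W θ) ∅)), div_le_iff₀ (by positivity)]
    refine (norm_sum_le _ _).trans ?_
    calc ∑ w ∈ F, ‖D w * (up F (W θ) {v, w} * up F (W θ) ∅ - up F (W θ) {v} * up F (W θ) {w})‖
        ≤ ∑ w ∈ F, δ * |up F (W θ) {v, w} * up F (W θ) ∅ - up F (W θ) {v} * up F (W θ) {w}| := by
          refine Finset.sum_le_sum fun w hw => ?_
          rw [norm_mul, Real.norm_eq_abs, Real.norm_eq_abs]
          exact mul_le_mul_of_nonneg_right (hY w hw) (abs_nonneg _)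
      _ = δ * ∑ w ∈ F, |up F (W θ) {v, w} * up F (W θ) ∅ - up F (W θ) {v} * up F (W θ) {w}| := by
          rw [Finset.mul_sum]
      _ ≤ δ * (5/4 * up F (W θ) ∅ ^ 2) := by
          refine mul_le_mul_of_nonneg_left ((hW θ).row hv) ?_
          exact (abs_nonneg _).trans (hY v hv)
      _ = 5/4 * δ * up F (W θ) ∅ ^ 2 := by ring
  have := norm_image_sub_le_of_norm_deriv_le_segment_01' (f := φ) (f' := φ') (C := 5/4 * δ)
    (fun θ _ => (hder θ).hasDerivWithinAt) (fun θ _ => hbound θ)
  rw [h1, h0, Real.norm_eq_abs] at this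
  exact this

end Crest.Agent.H5
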