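import Mathlib
import Crest.Agent.H5.SR

set_option autoImplicit false

namespace Crest.Agent.H5

open Filter Topology

variable {ι : Type*} [DecidableEq ι]

/-- negative correlation for all positive weights -/
def NCall (E : Finset ι) (m : Finset ι → ℝ) : Prop :=
  (∀ S, 0 ≤ m S) ∧ ∀ r : ι → ℝ, (∀ i, 0 < r i) → ∀ v ∈ E, ∀ w ∈ E, v ≠ w →
    up E (fun S => m S * ∏ i ∈ S, r i) ∅ * up E (fun S => m S * ∏ i ∈ S, r i) {v, w}
      ≤ up E (fun S => m S * ∏ i ∈ S, r i) {v} * up E (fun S => m S * ∏ i ∈ S, r i) {w}

lemma SRm.ncall {E : Finset ι} {m : Finset ι → ℝ} (h : SRm E m) : NCall E m :=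
  ⟨h.1, fun r hr v hv w hw hvw => (h.scale r hr).nc hv hw hvw⟩

lemma NCall.nc {E : Finset ι} {m : Finset ι → ℝ} (h : NCall E m) {v w : ι} (hv : v ∈ E) (hw : w ∈ E)
    (hvw : v ≠ w) : up E m ∅ * up E m {v, w} ≤ up E m {v} * up E m {w} := by
  have := h.2 (fun _ => 1) (fun _ => one_pos) v hv w hw hvw
  simpa using this

/-- splitting with one perturbed weight -/
lemma up_split (E : Finset ι) (m : Finset ι → ℝ) (g : ι) (r : ι → ℝ) (ε : ℝ) (T : Finset ι) :
    up E (fun S => m S * ∏ i ∈ S, (if i = g then r i * ε else r i)) T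
      = up E (fun S => (if g ∈ S then 0 else m S) * ∏ i ∈ S, r i) T
        + ε * up E (fun S => (if g ∈ S then m S else 0) * ∏ i ∈ S, r i) T := by
  unfold up
  rw [Finset.mul_sum, ← Finset.sum_add_distrib]
  refine Finset.sum_congr rfl fun S _ => ?_
  by_cases hT : T ⊆ S
  · simp only [hT, if_true]
    by_cases hg : g ∈ S
    · simp only [hg, if_true, zero_mul, zero_add]
      have h1 : ∏ i ∈ S, (if i = g then r i * ε else r i) = ε * ∏ i ∈ S, r i := by
        rw [← Finset.mul_prod_erase S _ hg, ← Finset.mul_prod_erase S r hg, if_pos rfl]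
        have : ∏ i ∈ S.erase g, (if i = g then r i * ε else r i) = ∏ i ∈ S.erase g, r i := by
          refine Finset.prod_congr rfl fun i hi => ?_
          rw [if_neg (Finset.ne_of_mem_erase hi)]
        rw [this]; ring
      rw [h1]; ring
    · simp only [hg, if_false, zero_mul, mul_zero, add_zero]
      congr 1
      refine Finset.prod_congr rfl fun i hi => ?_
      have hig : i ≠ g := fun h => hg (h ▸ hi)
      rw [if_neg hig]
  · simp [hT]

lemma NCall.del {E : Finset ι} {m : Finset ι → ℝ} (h : NCall E m) (g : ι) :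
    NCall E (fun S => if g ∈ S then 0 else m S) := by
  refine ⟨fun S => by dsimp only; split_ifs; exacts [le_rfl, h.1 S], fun r hr v hv w hw hvw => ?_⟩
  set a := fun T => up E (fun S => (if g ∈ S then 0 else m S) * ∏ i ∈ S, r i) T with ha
  set b := fun T => up E (fun S => (if g ∈ S then m S else 0) * ∏ i ∈ S, r i) T with hb
  have key : ∀ ε : ℝ, 0 < ε → (a ∅ + ε * b ∅) * (a {v, w} + ε * b {v, w})
      ≤ (a {v} + ε * b {v}) * (a {w} + ε * b {w}) := by
    intro ε hε
    have h1 := h.2 (fun i => if i = g then r i * ε else r i)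
      (fun i => by split_ifs; exacts [mul_pos (hr i) hε, hr i]) v hv w hw hvw
    rw [up_split, up_split, up_split, up_split] at h1
    exact h1
  have hl : Tendsto (fun ε : ℝ => (a ∅ + ε * b ∅) * (a {v, w} + ε * b {v, w})) (𝓝[>] 0)
      (𝓝 ((a ∅ + 0 * b ∅) * (a {v, w} + 0 * b {v, w}))) := by
    refine Tendsto.mono_left (Continuous.tendsto ?_ 0) nhdsWithin_le_nhds
    fun_prop
  have hr' : Tendsto (fun ε : ℝ => (a {v} + ε * b {v}) * (a {w} + ε * b {w})) (𝓝[>] 0)
      (𝓝 ((a {v} + 0 * b {v}) * (a {w} + 0 * b {w}))) := by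
    refine Tendsto.mono_left (Continuous.tendsto ?_ 0) nhdsWithin_le_nhds
    fun_prop
  have := le_of_tendsto_of_tendsto hl hr' (by
    filter_upwards [self_mem_nhdsWithin] with ε hε
    exact key ε hε)
  simp only [zero_mul, add_zero] at this
  exact this

lemma NCall.con {E : Finset ι} {m : Finset ι → ℝ} (h : NCall E m) (g : ι) :
    NCall E (fun S => if g ∈ S then m S else 0) := by
  refine ⟨fun S => by dsimp only; split_ifs; exacts [h.1 S, le_rfl], fun r hr v hv w hw hvw => ?_⟩
  set a := fun T => up E (fun S => (if g ∈ S then 0 else m S) * ∏ i ∈ S, r i) T with ha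
  set b := fun T => up E (fun S => (if g ∈ S then m S else 0) * ∏ i ∈ S, r i) T with hb
  have key : ∀ η : ℝ, 0 < η → (η * a ∅ + b ∅) * (η * a {v, w} + b {v, w})
      ≤ (η * a {v} + b {v}) * (η * a {w} + b {w}) := by
    intro η hη
    have hε : 0 < η⁻¹ := inv_pos.2 hη
    have h1 := h.2 (fun i => if i = g then r i * η⁻¹ else r i)
      (fun i => by split_ifs; exacts [mul_pos (hr i) hε, hr i]) v hv w hw hvw
    rw [up_split, up_split, up_split, up_split] at h1
    have h2 : (a ∅ + η⁻¹ * b ∅) * (a {v, w} + η⁻¹ * b {v, w})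
      ≤ (a {v} + η⁻¹ * b {v}) * (a {w} + η⁻¹ * b {w}) := h1
    have h3 := mul_le_mul_of_nonneg_left h2 (sq_nonneg η)
    have e1 : ∀ x y x' y' : ℝ, η ^ 2 * ((x + η⁻¹ * y) * (x' + η⁻¹ * y')) = (η * x + y) * (η * x' + y') := by
      intro x y x' y'
      field_simp
    rw [e1, e1] at h3
    exact h3
  have hl : Tendsto (fun η : ℝ => (η * a ∅ + b ∅) * (η * a {v, w} + b {v, w})) (𝓝[>] 0)
      (𝓝 ((0 * a ∅ + b ∅) * (0 * a {v, w} + b {v, w}))) := by
    refine Tendsto.mono_left (Continuous.tendsto ?_ 0) nhdsWithin_le_nhds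
    fun_prop
  have hr' : Tendsto (fun η : ℝ => (η * a {v} + b {v}) * (η * a {w} + b {w})) (𝓝[>] 0)
      (𝓝 ((0 * a {v} + b {v}) * (0 * a {w} + b {w}))) := by
    refine Tendsto.mono_left (Continuous.tendsto ?_ 0) nhdsWithin_le_nhds
    fun_prop
  have := le_of_tendsto_of_tendsto hl hr' (by
    filter_upwards [self_mem_nhdsWithin] with η hη
    exact key η hη)
  simp only [zero_mul, zero_add] at this
  exact this

lemma up_nonneg' {E : Finset ι} {m : Finset ι → ℝ} (h : ∀ S, 0 ≤ m S) (T : Finset ι) : 0 ≤ up E m T :=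
  Finset.sum_nonneg fun S _ => by split_ifs; exacts [h S, le_rfl]

lemma up_anti {E : Finset ι} {m : Finset ι → ℝ} (h : ∀ S, 0 ≤ m S) {T T' : Finset ι} (hT : T ⊆ T') :
    up E m T' ≤ up E m T := by
  unfold up
  refine Finset.sum_le_sum fun S _ => ?_
  by_cases h1 : T' ⊆ S
  · rw [if_pos h1, if_pos (hT.trans h1)]
  · rw [if_neg h1]
    split_ifs
    · exact h S
    · exact le_rfl

lemma up_con (E : Finset ι) (m : Finset ι → ℝ) (g : ι) (T : Finset ι) :
    up E (fun S => if g ∈ S then m S else 0) T = up E m (insert g T) := by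
  unfold up
  refine Finset.sum_congr rfl fun S _ => ?_
  simp only [Finset.insert_subset_iff]
  by_cases h1 : T ⊆ S <;> by_cases h2 : g ∈ S <;> simp [h1, h2]

lemma up_del (E : Finset ι) (m : Finset ι → ℝ) (g : ι) (T : Finset ι) :
    up E (fun S => if g ∈ S then 0 else m S) T = up E m T - up E m (insert g T) := by
  unfold up
  rw [← Finset.sum_sub_distrib]
  refine Finset.sum_congr rfl fun S _ => ?_
  simp only [Finset.insert_subset_iff]
  by_cases h1 : T ⊆ S <;> by_cases h2 : g ∈ S <;> simp [h1, h2]

/-- negative correlation with an increasing event given by a set -/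
lemma NCall.fold {E : Finset ι} (F : Finset ι) : ∀ {m : Finset ι → ℝ}, NCall E m → F ⊆ E → ∀ g ∈ E, g ∉ F →
    up E m (insert g F) * up E m ∅ ≤ up E m F * up E m {g} := by
  induction F using Finset.induction_on with
  | empty =>
    intro m h _ g hg _
    rw [insert_empty_eq, mul_comm]
  | insert f F0 hf ih =>
    intro m h hFE g hg hgF
    have hfE : f ∈ E := hFE (Finset.mem_insert_self _ _)
    have hgf : g ≠ f := fun h => hgF (h ▸ Finset.mem_insert_self _ _)
    have hgF0 : g ∉ F0 := fun h => hgF (Finset.mem_insert_of_mem h)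
    have h1 := ih (h.con f) ((Finset.subset_insert _ _).trans hFE) g hg hgF0
    rw [up_con, up_con, up_con, up_con] at h1
    have h2 := h.nc hfE hg hgf.symm
    have h3 : insert f (insert g F0) = insert g (insert f F0) := Finset.insert_comm _ _ _
    rw [h3, insert_empty_eq] at h1
    have p1 := up_nonneg' (E := E) h.1 (insert g (insert f F0))
    have p2 := up_nonneg' (E := E) h.1 (insert f F0)
    have p3 := up_nonneg' (E := E) h.1 ({g} : Finset ι)
    have p4 := up_nonneg' (E := E) h.1 (∅ : Finset ι)
    rcases (up_nonneg' (E := E) h.1 ({f} : Finset ι)).eq_or_lt with h4 | h4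
    · have h5 : up E m (insert g (insert f F0)) = 0 := by
        apply le_antisymm _ p1
        rw [h4]
        exact up_anti h.1 (by simp)
      rw [h5, zero_mul]
      positivity
    · -- multiply
      have h5 : up E m {f} * (up E m (insert g (insert f F0)) * up E m ∅)
          ≤ up E m {f} * (up E m (insert f F0) * up E m {g}) := by
        calc up E m {f} * (up E m (insert g (insert f F0)) * up E m ∅)
            = (up E m (insert g (insert f F0)) * up E m {f}) * up E m ∅ := by ring
          _ ≤ (up E m (insert f F0) * up E m {f, g}) * up E m ∅ := by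
              exact mul_le_mul_of_nonneg_right h1 p4
          _ = up E m (insert f F0) * (up E m ∅ * up E m {f, g}) := by ring
          _ ≤ up E m (insert f F0) * (up E m {f} * up E m {g}) := by
              exact mul_le_mul_of_nonneg_left h2 p2
          _ = up E m {f} * (up E m (insert f F0) * up E m {g}) := by ring
      exact le_of_mul_le_mul_left h5 h4

/-- removing a set of elements -/
lemma NCall.delSet {E : Finset ι} {m : Finset ι → ℝ} (h : NCall E m) (Q : Finset ι) :
    NCall E (fun S => if Disjoint Q S then m S else 0) := by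
  induction Q using Finset.induction_on with
  | empty => simpa using h
  | insert g Q0 hg ih =>
    have h1 := ih.del g
    convert h1 using 2 with S
    by_cases hgS : g ∈ S
    · rw [if_neg (fun h => by
        rw [Finset.disjoint_insert_left] at h
        exact h.1 hgS), if_pos hgS]
    · rw [if_neg hgS]
      congr 1
      rw [Finset.disjoint_insert_left]
      simp [hgS]

lemma NCall.foldDel {E : Finset ι} {m : Finset ι → ℝ} (h : NCall E m) (F Q : Finset ι) (hF : F ⊆ E)
    (hQ : Q ⊆ E) (hFQ : Disjoint F Q) :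
    up E m F * up E (fun S => if Disjoint Q S then m S else 0) ∅
      ≤ up E (fun S => if Disjoint Q S then m S else 0) F * up E m ∅ := by
  induction Q using Finset.induction_on with
  | empty => simp
  | insert g Q0 hg ih =>
    have hgE : g ∈ E := hQ (Finset.mem_insert_self _ _)
    have hgF : g ∉ F := fun hgF => (Finset.disjoint_left.1 hFQ) hgF (Finset.mem_insert_self _ _)
    have ih' := ih ((Finset.subset_insert _ _).trans hQ)
      (Finset.disjoint_of_subset_right (Finset.subset_insert _ _) hFQ)
    set m' : Finset ι → ℝ := fun S => if Disjoint Q0 S then m S else 0 with hm'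
    have hm'' : (fun S => if Disjoint (insert g Q0) S then m S else 0) = fun S => if g ∈ S then 0 else m' S := by
      funext S
      simp only [hm']
      by_cases hgS : g ∈ S
      · rw [if_neg (fun h => by
          rw [Finset.disjoint_insert_left] at h
          exact h.1 hgS), if_pos hgS]
      · rw [if_neg hgS]
        congr 1
        rw [Finset.disjoint_insert_left]
        simp [hgS]
    rw [hm'', up_del, up_del, insert_empty_eq]
    have hnc' : NCall E m' := h.delSet Q0
    have h1 := hnc'.fold F hF g hgE hgF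
    have p1 := up_nonneg' (E := E) hnc'.1 (∅ : Finset ι)
    have p2 := up_nonneg' (E := E) hnc'.1 ({g} : Finset ι)
    have p3 := up_nonneg' (E := E) hnc'.1 F
    have p4 := up_nonneg' (E := E) h.1 F
    have p5 := up_nonneg' (E := E) h.1 (∅ : Finset ι)
    have p6 := up_anti (E := E) hnc'.1 (Finset.empty_subset ({g} : Finset ι))
    have p7 := up_anti (E := E) hnc'.1 (Finset.subset_insert g F)
    rcases p1.eq_or_lt with h4 | h4
    · have h5 : up E m' ∅ - up E m' {g} ≤ 0 := by rw [← h4]; linarith
      calc up E m F * (up E m' ∅ - up E m' {g}) ≤ 0 := mul_nonpos_of_nonneg_of_nonpos p4 h5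
        _ ≤ (up E m' F - up E m' (insert g F)) * up E m ∅ := mul_nonneg (by linarith) p5
    · have h5 : up E m' F * (up E m' ∅ - up E m' {g}) ≤ (up E m' F - up E m' (insert g F)) * up E m' ∅ := by
        nlinarith
      have h6 : up E m' ∅ * (up E m F * (up E m' ∅ - up E m' {g}))
          ≤ up E m' ∅ * ((up E m' F - up E m' (insert g F)) * up E m ∅) := by
        calc up E m' ∅ * (up E m F * (up E m' ∅ - up E m' {g}))
            = (up E m F * up E m' ∅) * (up E m' ∅ - up E m' {g}) := by ring
          _ ≤ (up E m' F * up E m ∅) * (up E m' ∅ - up E m' {g}) :=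
              mul_le_mul_of_nonneg_right ih' (by linarith)
          _ = (up E m' F * (up E m' ∅ - up E m' {g})) * up E m ∅ := by ring
          _ ≤ ((up E m' F - up E m' (insert g F)) * up E m' ∅) * up E m ∅ :=
              mul_le_mul_of_nonneg_right h5 p5
          _ = up E m' ∅ * ((up E m' F - up E m' (insert g F)) * up E m ∅) := by ring
      exact le_of_mul_le_mul_left h6 h4

end Crest.Agent.H5
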