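import Mathlib

set_option autoImplicit false

namespace Crest.Agent.H5

open Finset Matrix

variable {V : Type*} [DecidableEq V]

/-- chosen endpoints of an edge -/
noncomputable def ep (e : Sym2 V) : V × V := Quot.out e

omit [DecidableEq V] in
lemma ep_eq (e : Sym2 V) : s((ep e).1, (ep e).2) = e := Quot.out_eq e

/-- signed incidence vector -/
noncomputable def bvec (R : Type*) [CommRing R] (e : Sym2 V) (w : V) : R :=
  (if w = (ep e).1 then 1 else 0) - (if w = (ep e).2 then 1 else 0)

/-- reduced weighted Laplacian -/
noncomputable def lapM {R : Type*} [CommRing R] (W : Finset V) (E : Finset (Sym2 V)) (z : Sym2 V → R) :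
    Matrix W W R :=
  ∑ e ∈ E, z e • Matrix.of (fun i j : W => bvec R e i * bvec R e j)

lemma lapM_row {R : Type*} [CommRing R] (W : Finset V) (E : Finset (Sym2 V)) (z : Sym2 V → R) :
    lapM W E z = Matrix.of (fun i : W => ∑ e ∈ E, ((fun j : W => z e * (bvec R e i * bvec R e j)) : W → R)) := by
  ext i j
  simp [lapM, Matrix.sum_apply, Finset.sum_apply]

/-- the contribution of a choice function -/
noncomputable def kf {R : Type*} [CommRing R] (W : Finset V) (f : W → Sym2 V) : R :=
  det (Matrix.of fun i j : W => bvec R (f i) i * bvec R (f i) j)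

lemma kf_eq_zero {R : Type*} [CommRing R] (W : Finset V) (f : W → Sym2 V) (hf : ¬ Function.Injective f) :
    kf (R := R) W f = 0 := by
  unfold kf
  have h1 := det_mul_column (fun i : W => bvec R (f i) i) (Matrix.of fun i j : W => bvec R (f i) j)
  simp only [Matrix.of_apply] at h1
  rw [h1]
  simp only [Function.Injective, not_forall] at hf
  obtain ⟨i, j, hij, hne⟩ := hf
  rw [det_zero_of_row_eq hne (by funext k; simp [hij]), mul_zero]

open Classical in
/-- coefficient of a set of edges -/
noncomputable def cf {R : Type*} [CommRing R] (W : Finset V) (A : Finset (Sym2 V)) : R :=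
  ∑ f ∈ (Fintype.piFinset (fun _ : W => A)) with Function.Injective f ∧ Finset.univ.image f = A, kf (R := R) W f

lemma det_lapM_cf {R : Type*} [CommRing R] (W : Finset V) (E : Finset (Sym2 V)) (z : Sym2 V → R) :
    det (lapM W E z) = ∑ A ∈ E.powersetCard W.card, (∏ e ∈ A, z e) * cf (R := R) W A := by
  classical
  have h1 : det (lapM W E z) = ∑ f ∈ Fintype.piFinset (fun _ : W => E), (∏ i : W, z (f i)) * kf (R := R) W f := by
    have h2 := (detRowAlternating : (W → R) [⋀^W]→ₗ[R] R).toMultilinearMap.map_sum_finset
      (fun (i : W) (e : Sym2 V) => ((fun j : W => z e * (bvec R e i * bvec R e j)) : W → R)) (fun _ => E)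
    have h3 : det (lapM W E z) = (detRowAlternating : (W → R) [⋀^W]→ₗ[R] R).toMultilinearMap
        (fun i : W => ∑ e ∈ E, ((fun j : W => z e * (bvec R e i * bvec R e j)) : W → R)) := by
      rw [lapM_row]; rfl
    rw [h3, h2]
    refine Finset.sum_congr rfl fun f _ => ?_
    have h4 := det_mul_column (fun i : W => z (f i)) (Matrix.of fun i j : W => bvec R (f i) i * bvec R (f i) j)
    exact h4
  rw [h1]
  have h2 : ∑ f ∈ Fintype.piFinset (fun _ : W => E), (∏ i : W, z (f i)) * kf (R := R) W f
      = ∑ f ∈ (Fintype.piFinset (fun _ : W => E)) with Function.Injective f,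
          (∏ i : W, z (f i)) * kf (R := R) W f := by
    rw [Finset.sum_filter]
    refine Finset.sum_congr rfl fun f _ => ?_
    split_ifs with h
    · rfl
    · rw [kf_eq_zero W f h, mul_zero]
  rw [h2, ← Finset.sum_fiberwise_of_maps_to (t := E.powersetCard W.card)
    (g := fun f : W → Sym2 V => Finset.univ.image f)]
  · refine Finset.sum_congr rfl fun A hA => ?_
    rw [Finset.mem_powersetCard] at hA
    unfold cf
    rw [Finset.mul_sum]
    have hset : ((Fintype.piFinset (fun _ : W => E)).filter (fun f => Function.Injective f)).filter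
        (fun f : W → Sym2 V => Finset.univ.image f = A)
        = (Fintype.piFinset (fun _ : W => A)).filter
          (fun f => Function.Injective f ∧ Finset.univ.image f = A) := by
      ext f
      simp only [Finset.mem_filter, Fintype.mem_piFinset]
      constructor
      · rintro ⟨⟨h1, h2⟩, h3⟩
        exact ⟨fun i => by rw [← h3]; exact Finset.mem_image_of_mem _ (Finset.mem_univ i), h2, h3⟩
      · rintro ⟨h1, h2, h3⟩
        exact ⟨⟨fun i => hA.1 (h1 i), h2⟩, h3⟩
    rw [hset]
    refine Finset.sum_congr rfl fun f hf => ?_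
    rw [Finset.mem_filter] at hf
    congr 1
    rw [← hf.2.2, Finset.prod_image]
    intro a _ b _ hab
    exact hf.2.1 hab
  · intro f hf
    rw [Finset.mem_filter, Fintype.mem_piFinset] at hf
    rw [Finset.mem_powersetCard]
    constructor
    · intro e he
      rw [Finset.mem_image] at he
      obtain ⟨i, _, rfl⟩ := he
      exact hf.1 i
    · rw [Finset.card_image_of_injective _ hf.2, Finset.card_univ, Fintype.card_coe]

/-- expansion of the determinant of the weighted Laplacian -/
lemma det_lapM {R : Type*} [CommRing R] (W : Finset V) (E : Finset (Sym2 V)) (z : Sym2 V → R) :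
    det (lapM W E z) = ∑ A ∈ E.powersetCard W.card, (∏ e ∈ A, z e) * det (lapM W A (fun _ => (1 : R))) := by
  rw [det_lapM_cf]
  refine Finset.sum_congr rfl fun A hA => ?_
  rw [Finset.mem_powersetCard] at hA
  congr 1
  rw [det_lapM_cf, ← hA.2, Finset.powersetCard_self, Finset.sum_singleton]
  simp

/-- extension by zero -/
noncomputable def ext0 {R : Type*} [CommRing R] (W : Finset V) (u : W → R) (x : V) : R :=
  if h : x ∈ W then u ⟨x, h⟩ else 0

lemma sum_bvec {R : Type*} [CommRing R] (W : Finset V) (u : W → R) (e : Sym2 V) :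
    ∑ i : W, bvec R e i * u i = ext0 W u (ep e).1 - ext0 W u (ep e).2 := by
  unfold bvec
  simp_rw [sub_mul, Finset.sum_sub_distrib]
  have key : ∀ a : V, ∑ i : W, (if (i : V) = a then (1 : R) else 0) * u i = ext0 W u a := by
    intro a
    unfold ext0
    split_ifs with h
    · rw [Finset.sum_eq_single ⟨a, h⟩]
      · simp
      · intro b _ hb
        rw [if_neg, zero_mul]
        intro h2
        exact hb (Subtype.ext h2)
      · intro h2
        exact absurd (Finset.mem_univ _) h2
    · refine Finset.sum_eq_zero fun b _ => ?_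
      rw [if_neg, zero_mul]
      intro h2
      exact h (h2 ▸ b.2)
  rw [key, key]

lemma lapM_mulVec {R : Type*} [CommRing R] (W : Finset V) (E : Finset (Sym2 V)) (z : Sym2 V → R) (u : W → R)
    (i : W) : (lapM W E z).mulVec u i
      = ∑ e ∈ E, z e * bvec R e i * (ext0 W u (ep e).1 - ext0 W u (ep e).2) := by
  rw [Matrix.mulVec, dotProduct]
  simp_rw [lapM, Matrix.sum_apply, Matrix.smul_apply, Matrix.of_apply, Finset.sum_mul, smul_eq_mul]
  rw [Finset.sum_comm]
  refine Finset.sum_congr rfl fun e _ => ?_
  rw [← sum_bvec, Finset.mul_sum]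
  refine Finset.sum_congr rfl fun j _ => ?_
  ring

end Crest.Agent.H5
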