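import Mathlib
import Crest.Agent.H5.LapDet

set_option autoImplicit false

namespace Crest.Agent.H5

open Finset Matrix

variable {V : Type*} [DecidableEq V]

/-- graph on a finite piece with given edges -/
def pieceG (S : Finset V) (A : Finset (Sym2 V)) : SimpleGraph (S : Set V) :=
  (SimpleGraph.fromEdgeSet (A : Set (Sym2 V))).induce (S : Set V)

omit [DecidableEq V] in
lemma pieceG_adj (S : Finset V) (A : Finset (Sym2 V)) (x y : (S : Set V)) :
    (pieceG S A).Adj x y ↔ s((x : V), (y : V)) ∈ A ∧ (x : V) ≠ y := by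
  unfold pieceG
  simp

/-- edges inside the piece -/
def Inside (S : Finset V) (A : Finset (Sym2 V)) : Prop :=
  ∀ e ∈ A, (ep e).1 ∈ S ∧ (ep e).2 ∈ S ∧ (ep e).1 ≠ (ep e).2

omit [DecidableEq V] in
lemma Inside.mono {S : Finset V} {A B : Finset (Sym2 V)} (h : Inside S B) (hAB : A ⊆ B) : Inside S A :=
  fun e he => h e (hAB he)

omit [DecidableEq V] in
lemma eq_of_reachable {α β : Type*} {G : SimpleGraph α} (f : α → β) (h : ∀ x y, G.Adj x y → f x = f y)
    {x y : α} (hxy : G.Reachable x y) : f x = f y := by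
  obtain ⟨p⟩ := hxy
  induction p with
  | nil => rfl
  | cons hadj _ ih => exact (h _ _ hadj).trans ih

lemma quad_form (W : Finset V) (E : Finset (Sym2 V)) (z : Sym2 V → ℂ) (u : W → ℂ) :
    ∑ i, (starRingEnd ℂ) (u i) * (lapM W E z).mulVec u i
      = ∑ e ∈ E, z e * (Complex.normSq (ext0 W u (ep e).1 - ext0 W u (ep e).2) : ℂ) := by
  simp_rw [lapM_mulVec, Finset.mul_sum]
  rw [Finset.sum_comm]
  refine Finset.sum_congr rfl fun e _ => ?_
  have h1 : ∑ i : W, (starRingEnd ℂ) (u i) * bvec ℂ e i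
      = (starRingEnd ℂ) (ext0 W u (ep e).1 - ext0 W u (ep e).2) := by
    rw [← sum_bvec, map_sum]
    refine Finset.sum_congr rfl fun i _ => ?_
    rw [map_mul, mul_comm]
    congr 1
    unfold bvec
    split_ifs <;> simp
  rw [Complex.normSq_eq_conj_mul_self, ← h1, Finset.sum_mul, Finset.mul_sum]
  refine Finset.sum_congr rfl fun i _ => ?_
  ring

/-- nonvanishing of the reduced Laplacian determinant -/
lemma det_lapM_ne_zero (S : Finset V) (r : V) (hr : r ∈ S) (E : Finset (Sym2 V))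
    (hconn : (pieceG S E).Connected) (z : Sym2 V → ℂ) (hz : ∀ e ∈ E, 0 < (z e).im) :
    det (lapM (S.erase r) E z) ≠ 0 := by
  intro hdet
  obtain ⟨u, hu0, hu⟩ := Matrix.exists_mulVec_eq_zero_iff.2 hdet
  have h1 := quad_form (S.erase r) E z u
  rw [hu] at h1
  simp only [Pi.zero_apply, mul_zero, Finset.sum_const_zero] at h1
  have h2 : ∑ e ∈ E, (z e).im * Complex.normSq (ext0 (S.erase r) u (ep e).1 - ext0 (S.erase r) u (ep e).2) = 0 := by
    have h3 := congrArg Complex.im h1
    rw [Complex.im_sum] at h3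
    simp only [Complex.zero_im, Complex.im_mul_ofReal] at h3
    exact h3.symm
  rw [Finset.sum_eq_zero_iff_of_nonneg (fun e he => mul_nonneg (hz e he).le (Complex.normSq_nonneg _))] at h2
  have h3 : ∀ e ∈ E, ext0 (S.erase r) u (ep e).1 = ext0 (S.erase r) u (ep e).2 := by
    intro e he
    have h4 := (mul_eq_zero.1 (h2 e he)).resolve_left (hz e he).ne'
    rw [Complex.normSq_eq_zero] at h4
    exact sub_eq_zero.1 h4
  have h4 : ∀ x y : (S : Set V), (pieceG S E).Adj x y →
      ext0 (S.erase r) u (x : V) = ext0 (S.erase r) u (y : V) := by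
    intro x y hxy
    rw [pieceG_adj] at hxy
    have h5 := h3 _ hxy.1
    have h6 := ep_eq s((x : V), (y : V))
    rw [Sym2.eq_iff] at h6
    rcases h6 with ⟨h7, h8⟩ | ⟨h7, h8⟩
    · rw [h7, h8] at h5; exact h5
    · rw [h7, h8] at h5; exact h5.symm
  apply hu0
  funext i
  have hiS : (i : V) ∈ S := Finset.mem_of_mem_erase i.2
  have h5 := eq_of_reachable (fun x : (S : Set V) => ext0 (S.erase r) u (x : V)) h4
    (hconn.preconnected ⟨(i : V), hiS⟩ ⟨r, hr⟩)
  simp only [ext0] at h5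
  rw [dif_pos i.2, dif_neg (by simp)] at h5
  exact h5

/-- the quadratic form over a commutative ring -/
lemma quad_form_int (W : Finset V) (E : Finset (Sym2 V)) (u u' : W → ℤ) :
    ∑ i, u' i * (lapM W E (fun _ => (1 : ℤ))).mulVec u i
      = ∑ e ∈ E, (ext0 W u' (ep e).1 - ext0 W u' (ep e).2) * (ext0 W u (ep e).1 - ext0 W u (ep e).2) := by
  simp_rw [lapM_mulVec, Finset.mul_sum]
  rw [Finset.sum_comm]
  refine Finset.sum_congr rfl fun e _ => ?_
  rw [← sum_bvec W u' e, Finset.sum_mul]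
  refine Finset.sum_congr rfl fun i _ => ?_
  ring

/-- unimodularity -/
lemma det_eq_one_of_dual (W : Finset V) (A : Finset (Sym2 V)) (hcard : A.card = W.card)
    (N : Sym2 V → W → ℤ)
    (hN : ∀ e ∈ A, ∀ f ∈ A, ext0 W (N e) (ep f).1 - ext0 W (N e) (ep f).2 = if e = f then 1 else 0) :
    det (lapM W A (fun _ => (1 : ℤ))) = 1 := by
  have hc : Fintype.card W = Fintype.card A := by simp [hcard]
  let φ : W ≃ A := Fintype.equivOfCardEq hc
  let P : Matrix W W ℤ := Matrix.of fun i j => N (φ j) i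
  have h1 : P.transpose * (lapM W A (fun _ => (1 : ℤ)) * P) = 1 := by
    ext i j
    rw [Matrix.mul_apply]
    have h2 : ∀ k, (lapM W A (fun _ => (1 : ℤ)) * P) k j = (lapM W A (fun _ => (1 : ℤ))).mulVec (N (φ j)) k := by
      intro k
      rw [Matrix.mul_apply]
      rfl
    simp_rw [h2]
    have h3 := quad_form_int W A (N (φ j)) (N (φ i))
    have h4 : ∑ k, P.transpose i k * (lapM W A (fun _ => (1 : ℤ))).mulVec (N (φ j)) k
        = ∑ k, N (φ i) k * (lapM W A (fun _ => (1 : ℤ))).mulVec (N (φ j)) k := rfl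
    rw [h4, h3]
    have h5 : ∀ f ∈ A, (ext0 W (N (φ i)) (ep f).1 - ext0 W (N (φ i)) (ep f).2) *
        (ext0 W (N (φ j)) (ep f).1 - ext0 W (N (φ j)) (ep f).2)
        = if (φ i : Sym2 V) = f then (if (φ j : Sym2 V) = f then 1 else 0) else 0 := by
      intro f hf
      rw [hN _ (φ i).2 f hf, hN _ (φ j).2 f hf]
      split_ifs <;> simp
    rw [Finset.sum_congr rfl h5, Finset.sum_ite_eq]
    rw [if_pos (φ i).2, Matrix.one_apply]
    by_cases hij : i = j
    · simp [hij]
    · rw [if_neg hij, if_neg]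
      intro h
      exact hij (φ.injective (Subtype.ext h.symm))
  have h2 := congrArg det h1
  rw [det_mul, det_mul, det_transpose, det_one] at h2
  have h3 : det P * det P * det (lapM W A (fun _ => (1 : ℤ))) = 1 := by
    calc det P * det P * det (lapM W A (fun _ => (1 : ℤ)))
        = det P * (det (lapM W A (fun _ => (1 : ℤ))) * det P) := by ring
      _ = 1 := h2
  have h4 : 0 < det (lapM W A (fun _ => (1 : ℤ))) := by
    by_contra h
    push Not at h
    nlinarith [mul_self_nonneg (det P)]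
  exact Int.eq_one_of_mul_eq_one_left h4.le h3

omit [DecidableEq V] in
lemma card_edgeSet_pieceG (S : Finset V) (A : Finset (Sym2 V)) (hA : Inside S A) :
    Nat.card (pieceG S A).edgeSet = A.card := by
  have h1 : (Sym2.map (Subtype.val : ↥(S : Set V) → V)) '' (pieceG S A).edgeSet = (A : Set (Sym2 V)) := by
    ext e
    constructor
    · rintro ⟨f, hf, rfl⟩
      induction f with
      | h x y =>
        rw [SimpleGraph.mem_edgeSet, pieceG_adj] at hf
        exact hf.1
    · intro he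
      obtain ⟨h1, h2, h3⟩ := hA e he
      refine ⟨s(⟨(ep e).1, h1⟩, ⟨(ep e).2, h2⟩), ?_, ?_⟩
      · rw [SimpleGraph.mem_edgeSet, pieceG_adj]
        refine ⟨?_, h3⟩
        rw [ep_eq]; exact he
      · rw [Sym2.map_mk]
        exact ep_eq e
  have h2 : ((pieceG S A).edgeSet).ncard = A.card := by
    rw [← Set.ncard_coe_finset A, ← h1, Set.ncard_image_of_injective _ (Sym2.map.injective Subtype.val_injective)]
  rw [← h2]
  rfl

omit [DecidableEq V] in
lemma isTree_iff' (S : Finset V) (A : Finset (Sym2 V)) (hA : Inside S A) :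
    (pieceG S A).IsTree ↔ (pieceG S A).Connected ∧ A.card + 1 = S.card := by
  rw [SimpleGraph.isTree_iff_connected_and_card, card_edgeSet_pieceG S A hA]
  have : Nat.card (S : Set V) = S.card := by simp
  rw [this]

open Classical in
/-- the potential dual to an edge of a tree -/
noncomputable def pot (S : Finset V) (r : V) (hr : r ∈ S) (A : Finset (Sym2 V)) (e : Sym2 V) (x : V) : ℤ :=
  if h : x ∈ S ∧ (ep e).1 ∈ S then
    ((if (pieceG S (A.erase e)).Reachable ⟨x, h.1⟩ ⟨(ep e).1, h.2⟩ then 1 else 0)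
      - (if (pieceG S (A.erase e)).Reachable ⟨r, hr⟩ ⟨(ep e).1, h.2⟩ then 1 else 0))
  else 0

lemma pot_ext (S : Finset V) (r : V) (hr : r ∈ S) (A : Finset (Sym2 V)) (e : Sym2 V) (x : V) (hx : x ∈ S) :
    ext0 (S.erase r) (fun i => pot S r hr A e i) x = pot S r hr A e x := by
  unfold ext0
  split_ifs with h
  · rfl
  · have hxr : x = r := by
      by_contra hne
      exact h (Finset.mem_erase.2 ⟨hne, hx⟩)
    subst hxr
    unfold pot
    split_ifs <;> simp

lemma pieceG_erase (S : Finset V) (A : Finset (Sym2 V)) (e : Sym2 V) (h1 : (ep e).1 ∈ S) (h2 : (ep e).2 ∈ S) :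
    (pieceG S A).deleteEdges {s((⟨(ep e).1, h1⟩ : (S : Set V)), ⟨(ep e).2, h2⟩)} = pieceG S (A.erase e) := by
  ext a b
  rw [SimpleGraph.deleteEdges_adj, pieceG_adj, pieceG_adj, Finset.mem_erase]
  have : s(a, b) ∈ ({s((⟨(ep e).1, h1⟩ : (S : Set V)), ⟨(ep e).2, h2⟩)} : Set (Sym2 (S : Set V)))
      ↔ s((a : V), (b : V)) = e := by
    rw [Set.mem_singleton_iff, ← (Sym2.map.injective (Subtype.val_injective (p := fun x => x ∈ (S : Set V)))).eq_iff,
      Sym2.map_mk, Sym2.map_mk]
    simp only [Prod.map]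
    rw [ep_eq]
  rw [this]
  tauto

lemma det_tree (S : Finset V) (r : V) (hr : r ∈ S) (A : Finset (Sym2 V)) (hA : Inside S A)
    (ht : (pieceG S A).IsTree) : det (lapM (S.erase r) A (fun _ => (1 : ℤ))) = 1 := by
  have hcard : A.card = (S.erase r).card := by
    have h1 := ((isTree_iff' S A hA).1 ht).2
    rw [Finset.card_erase_of_mem hr]
    omega
  refine det_eq_one_of_dual _ A hcard (fun e i => pot S r hr A e i) fun e he f hf => ?_
  obtain ⟨f1, f2, f3⟩ := hA f hf
  obtain ⟨e1, e2, e3⟩ := hA e he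
  rw [pot_ext S r hr A e _ f1, pot_ext S r hr A e _ f2]
  unfold pot
  rw [dif_pos ⟨f1, e1⟩, dif_pos ⟨f2, e1⟩]
  by_cases hef : e = f
  · subst hef
    rw [if_pos rfl, if_pos (SimpleGraph.Reachable.refl _)]
    have hbr := (SimpleGraph.isAcyclic_iff_forall_adj_isBridge.1 ht.isAcyclic)
      (show (pieceG S A).Adj ⟨(ep e).1, e1⟩ ⟨(ep e).2, e2⟩ by
        rw [pieceG_adj]; exact ⟨by rw [ep_eq]; exact he, e3⟩)
    rw [SimpleGraph.isBridge_iff, pieceG_erase] at hbr
    have h0 : ¬ (pieceG S (A.erase e)).Reachable ⟨(ep e).2, f2⟩ ⟨(ep e).1, e1⟩ := fun h => hbr h.symm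
    rw [if_neg h0]
    ring
  · rw [if_neg hef]
    have hadj : (pieceG S (A.erase e)).Adj ⟨(ep f).1, f1⟩ ⟨(ep f).2, f2⟩ := by
      rw [pieceG_adj, Finset.mem_erase]
      exact ⟨⟨by rw [ep_eq]; exact fun h => hef h.symm, by rw [ep_eq]; exact hf⟩, f3⟩
    have hiff : (pieceG S (A.erase e)).Reachable ⟨(ep f).1, f1⟩ ⟨(ep e).1, e1⟩
        ↔ (pieceG S (A.erase e)).Reachable ⟨(ep f).2, f2⟩ ⟨(ep e).1, e1⟩ :=
      ⟨fun h => hadj.symm.reachable.trans h, fun h => hadj.reachable.trans h⟩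
    by_cases h : (pieceG S (A.erase e)).Reachable ⟨(ep f).1, f1⟩ ⟨(ep e).1, e1⟩
    · rw [if_pos h, if_pos (hiff.1 h)]; ring
    · rw [if_neg h, if_neg (fun h' => h (hiff.2 h'))]; ring

lemma det_not_tree (S : Finset V) (r : V) (hr : r ∈ S) (A : Finset (Sym2 V)) (hA : Inside S A)
    (hcard : A.card = (S.erase r).card)
    (ht : ¬ (pieceG S A).IsTree) : det (lapM (S.erase r) A (fun _ => (1 : ℤ))) = 0 := by
  classical
  have hS : A.card + 1 = S.card := by
    rw [hcard, Finset.card_erase_of_mem hr]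
    have : 0 < S.card := Finset.card_pos.2 ⟨r, hr⟩
    omega
  have hnc : ¬ (pieceG S A).Connected := fun h => ht ((isTree_iff' S A hA).2 ⟨h, hS⟩)
  have hex : ∃ v : (S : Set V), ¬ (pieceG S A).Reachable v ⟨r, hr⟩ := by
    by_contra hall
    push Not at hall
    apply hnc
    haveI : Nonempty (S : Set V) := ⟨⟨r, hr⟩⟩
    exact ⟨fun x y => (hall x).trans (hall y).symm⟩
  obtain ⟨v, hv⟩ := hex
  let g : V → ℤ := fun x => if h : x ∈ S then (if (pieceG S A).Reachable ⟨x, h⟩ ⟨r, hr⟩ then 0 else 1) else 0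
  have hext : ∀ x ∈ S, ext0 (S.erase r) (fun i => g i) x = g x := by
    intro x hx
    unfold ext0
    split_ifs with h
    · rfl
    · have hxr : x = r := by
        by_contra hne
        exact h (Finset.mem_erase.2 ⟨hne, hx⟩)
      subst hxr
      simp only [g]
      rw [dif_pos hx, if_pos (SimpleGraph.Reachable.refl _)]
  rw [← Matrix.exists_mulVec_eq_zero_iff]
  refine ⟨fun i => g i, ?_, ?_⟩
  · intro h0
    have hvr : (v : V) ≠ r := by
      intro h
      apply hv
      have : v = ⟨r, hr⟩ := Subtype.ext h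
      rw [this]
    have h1 := congrFun h0 ⟨v, Finset.mem_erase.2 ⟨hvr, v.2⟩⟩
    have h2 : g v = 1 := by
      simp only [g]
      rw [dif_pos (show (v : V) ∈ S from v.2), if_neg hv]
    simp only [Pi.zero_apply] at h1
    rw [h2] at h1
    exact one_ne_zero h1
  · funext i
    rw [lapM_mulVec, Pi.zero_apply]
    refine Finset.sum_eq_zero fun e he => ?_
    obtain ⟨e1, e2, e3⟩ := hA e he
    rw [hext _ e1, hext _ e2]
    have hadj : (pieceG S A).Adj ⟨(ep e).1, e1⟩ ⟨(ep e).2, e2⟩ := by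
      rw [pieceG_adj]; exact ⟨by rw [ep_eq]; exact he, e3⟩
    have h1 : g (ep e).1 = g (ep e).2 := by
      simp only [g]
      rw [dif_pos e1, dif_pos e2]
      by_cases h : (pieceG S A).Reachable ⟨(ep e).1, e1⟩ ⟨r, hr⟩
      · rw [if_pos h, if_pos (hadj.symm.reachable.trans h)]
      · rw [if_neg h, if_neg (fun h' => h (hadj.reachable.trans h'))]
    rw [h1, sub_self, mul_zero]

lemma lapM_cast (W : Finset V) (A : Finset (Sym2 V)) :
    det (lapM W A (fun _ => (1 : ℂ))) = ((det (lapM W A (fun _ => (1 : ℤ))) : ℤ) : ℂ) := by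
  have h1 := (Int.castRingHom ℂ).map_det (lapM W A (fun _ => (1 : ℤ)))
  rw [eq_intCast] at h1
  rw [h1]
  congr 1
  ext i j
  simp only [RingHom.mapMatrix_apply, Matrix.map_apply, lapM, Matrix.sum_apply, Matrix.smul_apply, Matrix.of_apply,
    smul_eq_mul, one_mul, map_sum, map_mul]
  refine Finset.sum_congr rfl fun e _ => ?_
  congr 1 <;> (unfold bvec; simp)

open Classical in
/-- weighted matrix-tree theorem -/
lemma matrix_tree (S : Finset V) (r : V) (hr : r ∈ S) (E : Finset (Sym2 V)) (hE : Inside S E) (z : Sym2 V → ℂ) :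
    det (lapM (S.erase r) E z)
      = ∑ A ∈ E.powerset, ((if (pieceG S A).IsTree then (1 : ℝ) else 0 : ℝ) : ℂ) * ∏ e ∈ A, z e := by
  rw [det_lapM]
  have h1 : ∑ A ∈ E.powersetCard (S.erase r).card, (∏ e ∈ A, z e) * det (lapM (S.erase r) A (fun _ => (1 : ℂ)))
      = ∑ A ∈ E.powersetCard (S.erase r).card,
        ((if (pieceG S A).IsTree then (1 : ℝ) else 0 : ℝ) : ℂ) * ∏ e ∈ A, z e := by
    refine Finset.sum_congr rfl fun A hA => ?_
    rw [Finset.mem_powersetCard] at hA
    rw [mul_comm, lapM_cast]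
    congr 1
    split_ifs with h
    · rw [det_tree S r hr A (hE.mono hA.1) h]; simp
    · rw [det_not_tree S r hr A (hE.mono hA.1) hA.2 h]; simp
  rw [h1]
  refine Finset.sum_subset (fun A hA => ?_) fun A hA hA' => ?_
  · rw [Finset.mem_powersetCard] at hA
    exact Finset.mem_powerset.2 hA.1
  · rw [Finset.mem_powerset] at hA
    rw [if_neg, Complex.ofReal_zero, zero_mul]
    intro ht
    apply hA'
    rw [Finset.mem_powersetCard]
    refine ⟨hA, ?_⟩
    have h1 := ((isTree_iff' S A (hE.mono hA)).1 ht).2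
    rw [Finset.card_erase_of_mem hr]
    omega

end Crest.Agent.H5
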