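import Mathlib
import Crest.Prelude.Def_SpanningTrees
import Crest.Agent.H5.Fold
import Crest.Agent.H5.TreeDet

set_option autoImplicit false

namespace Crest.Agent.H5

open Crest.ProbabilityR.SpanningTrees

variable {V : Type*}

lemma mem_edgesIn (G : SimpleGraph V) (S : Finset V) (e : Sym2 V) :
    e ∈ edgesIn G S ↔ (∀ v ∈ e, v ∈ S) ∧ e ∈ G.edgeSet := by
  classical
  unfold edgesIn
  simp [Finset.mem_sym2_iff]

lemma mk_mem_edgesIn (G : SimpleGraph V) (S : Finset V) (x y : V) :
    s(x, y) ∈ edgesIn G S ↔ (x ∈ S ∧ y ∈ S) ∧ G.Adj x y := by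
  rw [mem_edgesIn]
  simp

lemma edgesIn_mono (G : SimpleGraph V) {S S' : Finset V} (h : S ⊆ S') : edgesIn G S ⊆ edgesIn G S' := by
  intro e he
  rw [mem_edgesIn] at he ⊢
  exact ⟨fun v hv => h (he.1 v hv), he.2⟩

lemma inside_edgesIn (G : SimpleGraph V) (S : Finset V) : Inside S (edgesIn G S) := by
  intro e he
  rw [mem_edgesIn] at he
  have h1 : (ep e).1 ∈ s((ep e).1, (ep e).2) := Sym2.mem_mk_left _ _
  have h2 : (ep e).2 ∈ s((ep e).1, (ep e).2) := Sym2.mem_mk_right _ _
  rw [ep_eq] at h1 h2
  refine ⟨he.1 _ h1, he.1 _ h2, ?_⟩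
  have h3 := he.2
  rw [← ep_eq e, SimpleGraph.mem_edgeSet] at h3
  exact h3.ne

lemma pieceG_edgesIn (G : SimpleGraph V) (S : Finset V) :
    pieceG S (edgesIn G S) = G.induce (S : Set V) := by
  ext x y
  rw [pieceG_adj, mk_mem_edgesIn]
  simp only [SimpleGraph.comap_adj, Function.Embedding.subtype_apply]
  constructor
  · rintro ⟨⟨_, h⟩, _⟩; exact h
  · intro h
    exact ⟨⟨⟨x.2, y.2⟩, h⟩, h.ne⟩

open Classical in
/-- indicator of spanning trees -/
noncomputable def tmass (G : SimpleGraph V) (S : Finset V) (A : Finset (Sym2 V)) : ℝ :=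
  if IsSpanningTreeOn G S A then 1 else 0

lemma tmass_nonneg (G : SimpleGraph V) (S : Finset V) (A : Finset (Sym2 V)) : 0 ≤ tmass G S A := by
  unfold tmass; split_ifs <;> norm_num

variable [DecidableEq V]

/-- the uniform spanning tree is strongly Rayleigh -/
lemma srm_tree (G : SimpleGraph V) (S : Finset V) (hconn : (G.induce (S : Set V)).Connected) :
    SRm (edgesIn G S) (tmass G S) := by
  classical
  refine ⟨tmass_nonneg G S, fun z hz => ?_⟩
  obtain ⟨⟨r, hr⟩⟩ := hconn.nonempty
  have hr' : r ∈ S := hr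
  have h1 := matrix_tree S r hr' (edgesIn G S) (inside_edgesIn G S) z
  have h2 : gp (edgesIn G S) (tmass G S) z = (lapM (S.erase r) (edgesIn G S) z).det := by
    rw [h1]
    unfold gp
    refine Finset.sum_congr rfl fun A hA => ?_
    rw [Finset.mem_powerset] at hA
    congr 1
    unfold tmass IsSpanningTreeOn
    simp only [hA, true_and]
    rfl
  rw [h2]
  exact det_lapM_ne_zero S r hr' _ (by rw [pieceG_edgesIn]; exact hconn) z hz

lemma card_eq_up (G : SimpleGraph V) (S : Finset V) (F : Finset (Sym2 V))
    [DecidablePred fun A : Finset (Sym2 V) => IsSpanningTreeOn G S A ∧ F ⊆ A] :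
    ((((edgesIn G S).powerset.filter (fun A => IsSpanningTreeOn G S A ∧ F ⊆ A)).card : ℝ))
      = up (edgesIn G S) (tmass G S) F := by
  classical
  unfold up tmass
  rw [Finset.card_filter]
  push_cast
  refine Finset.sum_congr rfl fun A _ => ?_
  by_cases h1 : IsSpanningTreeOn G S A <;> by_cases h2 : F ⊆ A <;> simp [h1, h2]

lemma ust_eq (G : SimpleGraph V) (S : Finset V) (F : Finset (Sym2 V)) :
    ustContains G S F = up (edgesIn G S) (tmass G S) F / up (edgesIn G S) (tmass G S) ∅ := by
  classical
  unfold ustContains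
  rw [← card_eq_up, ← card_eq_up]
  congr!
  simp

/-- attaching a leaf -/
lemma attach_connected (S : Finset V) (v s0 : V) (hv : v ∉ S) (hs0 : s0 ∈ S) (T : Finset (Sym2 V))
    (hT : ∀ e ∈ T, ∀ x ∈ e, x ∈ S) :
    (pieceG (insert v S) (insert s(v, s0) T)).Connected ↔ (pieceG S T).Connected := by
  have hvs : v ≠ s0 := fun h => hv (h ▸ hs0)
  constructor
  · intro h
    let φ : ↥((insert v S : Finset V) : Set V) → ↥(S : Set V) := fun x =>
      if hx : (x : V) ∈ S then ⟨x, hx⟩ else ⟨s0, hs0⟩
    have h1 : ∀ x y, (pieceG (insert v S) (insert s(v, s0) T)).Adj x y →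
        (pieceG S T).connectedComponentMk (φ x) = (pieceG S T).connectedComponentMk (φ y) := by
      intro x y hxy
      rw [pieceG_adj, Finset.mem_insert] at hxy
      obtain ⟨h2 | h2, h3⟩ := hxy
      · have h4 : ∀ a : ((insert v S : Finset V) : Set V), ((a : V) = v ∨ (a : V) = s0) → φ a = ⟨s0, hs0⟩ := by
          rintro a (ha | ha)
          · simp only [φ]
            rw [dif_neg]; rw [ha]; exact hv
          · simp only [φ]
            rw [dif_pos (by rw [ha]; exact hs0)]
            exact Subtype.ext ha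
        rw [Sym2.eq_iff] at h2
        rcases h2 with ⟨h5, h6⟩ | ⟨h5, h6⟩
        · rw [h4 x (Or.inl h5), h4 y (Or.inr h6)]
        · rw [h4 x (Or.inr h5), h4 y (Or.inl h6)]
      · have hx : (x : V) ∈ S := hT _ h2 _ (by simp)
        have hy : (y : V) ∈ S := hT _ h2 _ (by simp)
        apply SimpleGraph.ConnectedComponent.eq.2
        apply SimpleGraph.Adj.reachable
        simp only [φ]
        rw [dif_pos hx, dif_pos hy, pieceG_adj]
        exact ⟨h2, h3⟩
    haveI : Nonempty (S : Set V) := ⟨⟨s0, hs0⟩⟩
    refine ⟨fun x y => ?_⟩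
    have hx' : (x : V) ∈ ((insert v S : Finset V) : Set V) := by
      simp only [Finset.coe_insert]; exact Or.inr x.2
    have hy' : (y : V) ∈ ((insert v S : Finset V) : Set V) := by
      simp only [Finset.coe_insert]; exact Or.inr y.2
    have h2 := eq_of_reachable _ h1 (h.preconnected ⟨x, hx'⟩ ⟨y, hy'⟩)
    have e1 : φ ⟨x, hx'⟩ = x := by
      simp only [φ]; rw [dif_pos (show (x : V) ∈ S from x.2)]
    have e2 : φ ⟨y, hy'⟩ = y := by
      simp only [φ]; rw [dif_pos (show (y : V) ∈ S from y.2)]
    rw [e1, e2] at h2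
    exact SimpleGraph.ConnectedComponent.eq.1 h2
  · intro h
    have hvm : v ∈ ((insert v S : Finset V) : Set V) := by simp
    have hsm : s0 ∈ ((insert v S : Finset V) : Set V) := by simp [hs0]
    let ψ : ↥(S : Set V) → ↥((insert v S : Finset V) : Set V) := fun x =>
      ⟨x, by simp only [Finset.coe_insert]; exact Or.inr x.2⟩
    have h1 : ∀ x y, (pieceG S T).Adj x y →
        (pieceG (insert v S) (insert s(v, s0) T)).connectedComponentMk (ψ x)
          = (pieceG (insert v S) (insert s(v, s0) T)).connectedComponentMk (ψ y) := by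
      intro x y hxy
      rw [pieceG_adj] at hxy
      apply SimpleGraph.ConnectedComponent.eq.2
      apply SimpleGraph.Adj.reachable
      rw [pieceG_adj]
      exact ⟨Finset.mem_insert_of_mem hxy.1, hxy.2⟩
    have h2 : ∀ x, (pieceG (insert v S) (insert s(v, s0) T)).Reachable x ⟨s0, hsm⟩ := by
      intro x
      have hx := x.2
      simp only [Finset.coe_insert, Set.mem_insert_iff, Finset.mem_coe] at hx
      rcases hx with hx | hx
      · apply SimpleGraph.Adj.reachable
        rw [pieceG_adj]
        refine ⟨?_, by rw [hx]; exact hvs⟩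
        rw [hx]
        exact Finset.mem_insert_self _ _
      · have h3 := eq_of_reachable _ h1 (h.preconnected ⟨x, hx⟩ ⟨s0, hs0⟩)
        exact SimpleGraph.ConnectedComponent.eq.1 h3
    haveI : Nonempty ((insert v S : Finset V) : Set V) := ⟨⟨s0, hsm⟩⟩
    exact ⟨fun x y => (h2 x).trans (h2 y).symm⟩

lemma attach_tree (G : SimpleGraph V) (S : Finset V) (v s0 : V) (hv : v ∉ S) (hs0 : s0 ∈ S)
    (hadj : G.Adj v s0) (T : Finset (Sym2 V)) (hT : T ⊆ edgesIn G S) :
    tmass G (insert v S) (insert s(v, s0) T) = tmass G S T := by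
  have hT' : ∀ e ∈ T, ∀ x ∈ e, x ∈ S := fun e he => ((mem_edgesIn G S e).1 (hT he)).1
  have hg : s(v, s0) ∉ T := fun h => hv (hT' _ h v (by simp))
  have hsub : insert s(v, s0) T ⊆ edgesIn G (insert v S) := by
    intro e he
    rcases Finset.mem_insert.1 he with rfl | he
    · rw [mk_mem_edgesIn]
      exact ⟨⟨Finset.mem_insert_self _ _, Finset.mem_insert_of_mem hs0⟩, hadj⟩
    · exact edgesIn_mono G (Finset.subset_insert _ _) (hT he)
  have hiff : IsSpanningTreeOn G (insert v S) (insert s(v, s0) T) ↔ IsSpanningTreeOn G S T := by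
    unfold IsSpanningTreeOn
    constructor
    · rintro ⟨_, h2⟩
      refine ⟨hT, ?_⟩
      have h3 := (isTree_iff' (insert v S) _ ((inside_edgesIn G _).mono hsub)).1 h2
      refine (isTree_iff' S T ((inside_edgesIn G _).mono hT)).2 ⟨(attach_connected S v s0 hv hs0 T hT').1 h3.1, ?_⟩
      have h4 := h3.2
      rw [Finset.card_insert_of_notMem hg, Finset.card_insert_of_notMem hv] at h4
      omega
    · rintro ⟨_, h2⟩
      refine ⟨hsub, ?_⟩
      have h3 := (isTree_iff' S T ((inside_edgesIn G _).mono hT)).1 h2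
      refine (isTree_iff' (insert v S) _ ((inside_edgesIn G _).mono hsub)).2
        ⟨(attach_connected S v s0 hv hs0 T hT').2 h3.1, ?_⟩
      rw [Finset.card_insert_of_notMem hg, Finset.card_insert_of_notMem hv]
      omega
  unfold tmass
  by_cases h : IsSpanningTreeOn G S T
  · rw [if_pos h, if_pos (hiff.2 h)]
  · rw [if_neg h, if_neg (fun h' => h (hiff.1 h'))]

lemma isolated_tree (G : SimpleGraph V) (S : Finset V) (v s0 : V) (hv : v ∉ S) (hs0 : s0 ∈ S)
    (T : Finset (Sym2 V)) (hT : T ⊆ edgesIn G S) : tmass G (insert v S) T = 0 := by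
  unfold tmass
  rw [if_neg]
  rintro ⟨_, h2⟩
  have hT' : ∀ e ∈ T, ∀ x ∈ e, x ∈ S := fun e he => ((mem_edgesIn G S e).1 (hT he)).1
  have hconn : (pieceG (insert v S) T).Connected := h2.connected
  have hvm : v ∈ ((insert v S : Finset V) : Set V) := by simp
  have hsm : s0 ∈ ((insert v S : Finset V) : Set V) := by simp [hs0]
  have h1 := eq_of_reachable (fun x : ((insert v S : Finset V) : Set V) => ((x : V) = v))
    (fun x y hxy => by
      rw [pieceG_adj] at hxy
      have hx : (x : V) ∈ S := hT' _ hxy.1 _ (by simp)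
      have hy : (y : V) ∈ S := hT' _ hxy.1 _ (by simp)
      apply propext
      exact ⟨fun h => absurd (h ▸ hx) hv, fun h => absurd (h ▸ hy) hv⟩)
    (hconn.preconnected ⟨v, hvm⟩ ⟨s0, hsm⟩)
  simp only [eq_iff_iff, true_iff] at h1
  exact hv (h1 ▸ hs0)

/-- one-vertex monotonicity step -/
lemma ust_step (G : SimpleGraph V) (S : Finset V) (v s0 : V) (hv : v ∉ S) (hs0 : s0 ∈ S)
    (hadj : G.Adj v s0) (hconn : (G.induce (S : Set V)).Connected) (F : Finset (Sym2 V))
    (hF : F ⊆ edgesIn G S) :
    (G.induce ((insert v S : Finset V) : Set V)).Connected ∧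
      ustContains G (insert v S) F ≤ ustContains G S F := by
  classical
  set g0 : Sym2 V := s(v, s0) with hg0
  set E := edgesIn G S with hE
  set E' := edgesIn G (insert v S) with hE'
  have hEE : E ⊆ E' := edgesIn_mono G (Finset.subset_insert _ _)
  have hg0E' : g0 ∈ E' := by
    rw [hE', hg0, mk_mem_edgesIn]
    exact ⟨⟨Finset.mem_insert_self _ _, Finset.mem_insert_of_mem hs0⟩, hadj⟩
  have hET : ∀ e ∈ E, ∀ x ∈ e, x ∈ S := fun e he => ((mem_edgesIn G S e).1 he).1
  have hg0E : g0 ∉ E := fun h => hv (hET _ h v (by simp [hg0]))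
  have hconn' : (G.induce ((insert v S : Finset V) : Set V)).Connected := by
    have h1 : (pieceG (insert v S) (insert g0 E)).Connected :=
      (attach_connected S v s0 hv hs0 E hET).2 (by rw [hE, pieceG_edgesIn]; exact hconn)
    rw [← pieceG_edgesIn]
    refine h1.mono ?_
    intro x y hxy
    rw [pieceG_adj] at hxy ⊢
    refine ⟨?_, hxy.2⟩
    rcases Finset.mem_insert.1 hxy.1 with h | h
    · rw [h]; exact hg0E'
    · exact hEE h
  refine ⟨hconn', ?_⟩
  set Q : Finset (Sym2 V) := E'.filter (fun e => v ∈ e ∧ e ≠ g0) with hQ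
  have hnc := (srm_tree G (insert v S) hconn').ncall
  have hdel : ∀ F' : Finset (Sym2 V), F' ⊆ E →
      up E' (fun A => if Disjoint Q A then tmass G (insert v S) A else 0) F' = up E (tmass G S) F' := by
    intro F' hF'
    unfold up
    have hsub : (insert g0 E).powerset ⊆ E'.powerset := by
      rw [Finset.powerset_mono]
      exact Finset.insert_subset hg0E' hEE
    rw [← Finset.sum_subset hsub]
    · rw [Finset.sum_powerset_insert hg0E, ← Finset.sum_add_distrib]
      refine Finset.sum_congr rfl fun T hT => ?_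
      rw [Finset.mem_powerset] at hT
      have h1 : tmass G (insert v S) T = 0 := isolated_tree G S v s0 hv hs0 T hT
      have h2 : tmass G (insert v S) (insert g0 T) = tmass G S T := attach_tree G S v s0 hv hs0 hadj T hT
      have h3 : Disjoint Q (insert g0 T) := by
        rw [Finset.disjoint_left]
        intro e he he'
        rw [hQ, Finset.mem_filter] at he
        rcases Finset.mem_insert.1 he' with h | h
        · exact he.2.2 h
        · exact hv (hET _ (hT h) v he.2.1)
      have h4 : F' ⊆ insert g0 T ↔ F' ⊆ T := by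
        rw [Finset.subset_insert_iff_of_notMem]
        exact fun h => hg0E (hF' h)
      dsimp only
      rw [h1, h2, if_pos h3]
      simp only [h4, ite_self, zero_add]
    · intro A hA hA'
      rw [Finset.mem_powerset] at hA hA'
      have : ¬ Disjoint Q A := by
        intro hd
        apply hA'
        intro e he
        rw [Finset.mem_insert]
        by_cases h1 : e = g0
        · exact Or.inl h1
        · right
          have h2 : v ∉ e := by
            intro h2
            have h3 : e ∈ Q := by
              rw [hQ, Finset.mem_filter]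
              exact ⟨hA he, h2, h1⟩
            exact (Finset.disjoint_left.1 hd) h3 he
          have h4 := (mem_edgesIn G _ e).1 (hA he)
          rw [hE, mem_edgesIn]
          refine ⟨fun x hx => ?_, h4.2⟩
          rcases Finset.mem_insert.1 (h4.1 x hx) with h5 | h5
          · exact absurd (h5 ▸ hx) h2
          · exact h5
      dsimp only
      rw [if_neg this, ite_self]
  have hFQ : Disjoint F Q := by
    rw [Finset.disjoint_left]
    intro e he he'
    rw [hQ, Finset.mem_filter] at he'
    exact hv (hET _ (hF he) v he'.2.1)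
  have hfold := hnc.foldDel F Q (hF.trans hEE) (Finset.filter_subset _ _) hFQ
  rw [hdel F hF, hdel ∅ (Finset.empty_subset _)] at hfold
  rw [ust_eq, ust_eq]
  have p1 := (srm_tree G (insert v S) hconn').pos
  have p2 := (srm_tree G S hconn).pos
  rw [div_le_div_iff₀ p1 p2]
  exact hfold

/-- monotonicity of the free uniform spanning tree marginals -/
lemma ust_mono (G : SimpleGraph V) (S' : Finset V) (hconn' : (G.induce (S' : Set V)).Connected) :
    ∀ (n : ℕ) (S : Finset V), S ⊆ S' → (S' \ S).card = n → (G.induce (S : Set V)).Connected →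
    ∀ F : Finset (Sym2 V), F ⊆ edgesIn G S → ustContains G S' F ≤ ustContains G S F := by
  intro n
  induction n with
  | zero =>
    intro S hSS hcard _ F _
    rw [Finset.card_eq_zero, Finset.sdiff_eq_empty_iff_subset] at hcard
    rw [Finset.Subset.antisymm hSS hcard]
  | succ n ih =>
    intro S hSS hcard hconn F hF
    -- find a boundary vertex
    obtain ⟨v, hvS', hvS, s0, hs0, hadj⟩ : ∃ v ∈ S', v ∉ S ∧ ∃ s0 ∈ S, G.Adj v s0 := by
      by_contra hno
      push Not at hno
      obtain ⟨⟨r, hr⟩⟩ := hconn.nonempty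
      have hrS : r ∈ S := hr
      have hne : (S' \ S).Nonempty := by
        rw [← Finset.card_pos]; omega
      obtain ⟨w, hw⟩ := hne
      rw [Finset.mem_sdiff] at hw
      have h1 := eq_of_reachable (fun x : (S' : Set V) => ((x : V) ∈ S))
        (fun x y hxy => by
          have hxy' : G.Adj (x : V) (y : V) := hxy
          apply propext
          constructor
          · intro hx
            by_contra hy
            exact hno y y.2 hy x hx hxy'.symm
          · intro hy
            by_contra hx
            exact hno x x.2 hx y hy hxy')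
        (hconn'.preconnected ⟨r, hSS hrS⟩ ⟨w, hw.1⟩)
      simp only [eq_iff_iff] at h1
      exact hw.2 (h1.1 hrS)
    obtain ⟨hc1, hle⟩ := ust_step G S v s0 hvS hs0 hadj hconn F hF
    refine le_trans (ih (insert v S) ?_ ?_ hc1 F (hF.trans (edgesIn_mono G (Finset.subset_insert _ _)))) hle
    · exact Finset.insert_subset hvS' hSS
    · have h1 : S' \ insert v S = (S' \ S).erase v := by
        ext x
        simp only [Finset.mem_sdiff, Finset.mem_insert, Finset.mem_erase]
        tauto
      rw [h1, Finset.card_erase_of_mem (Finset.mem_sdiff.2 ⟨hvS', hvS⟩)]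
      omega

end Crest.Agent.H5
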