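import Mathlib
import Crest.Prelude.Def_GraphTables
import Crest.Agent.H5.Mono

set_option autoImplicit false

namespace Crest.Agent.H5

open Crest.ProbabilityR.SpanningTrees Crest.ProbabilityR.GraphTables MeasureTheory

/-- balls in a graph -/
def reach (G : SimpleGraph ℕ) (v : ℕ) : ℕ → Set ℕ
  | 0 => {v}
  | n + 1 => reach G v n ∪ {w | ∃ w' ∈ reach G v n, G.Adj w' w}

lemma reach_succ (G : SimpleGraph ℕ) (v n w : ℕ) :
    w ∈ reach G v (n + 1) ↔ w ∈ reach G v n ∨ ∃ w' ∈ reach G v n, G.Adj w' w := Iff.rfl

lemma reach_mono (G : SimpleGraph ℕ) (v : ℕ) : Monotone (reach G v) :=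
  monotone_nat_of_le_succ fun _ => Set.subset_union_left

lemma self_mem_reach (G : SimpleGraph ℕ) (v n : ℕ) : v ∈ reach G v n :=
  reach_mono G v (Nat.zero_le n) rfl

lemma reach_finite {G : SimpleGraph ℕ} (hG : ∀ v, (G.neighborSet v).Finite) (v n : ℕ) :
    (reach G v n).Finite := by
  induction n with
  | zero => exact Set.finite_singleton v
  | succ n ih =>
    have : {w | ∃ w' ∈ reach G v n, G.Adj w' w} = ⋃ w' ∈ reach G v n, G.neighborSet w' := by
      ext w; simp
    refine ih.union ?_
    rw [this]
    exact ih.biUnion fun w' _ => hG w'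

lemma exists_reach_iff (G : SimpleGraph ℕ) (v w : ℕ) : (∃ n, w ∈ reach G v n) ↔ G.Reachable v w := by
  constructor
  · rintro ⟨n, hn⟩
    induction n generalizing w with
    | zero =>
      have : w = v := hn
      rw [this]
    | succ n ih =>
      rcases (reach_succ G v n w).1 hn with h | ⟨w', h1, h2⟩
      · exact ih w h
      · exact (ih w' h1).trans h2.reachable
  · rintro ⟨p⟩
    induction p with
    | nil => exact ⟨0, rfl⟩
    | @cons a b c hadj p ih =>
      obtain ⟨n, hn⟩ := ih
      refine ⟨n + 1, ?_⟩
      -- reach b n ⊆ reach a (n+1)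
      have key : ∀ n x, x ∈ reach G b n → x ∈ reach G a (n + 1) := by
        intro n
        induction n with
        | zero =>
          intro x hx
          have : x = b := hx
          rw [this, reach_succ]
          exact Or.inr ⟨a, rfl, hadj⟩
        | succ n ih =>
          intro x hx
          rcases (reach_succ G b n x).1 hx with h | ⟨w', h1, h2⟩
          · exact reach_mono G a (Nat.le_succ _) (ih x h)
          · exact (reach_succ G a (n + 1) x).2 (Or.inr ⟨w', ih w' h1, h2⟩)
      exact key n c hn

lemma reach_connected (G : SimpleGraph ℕ) (v n : ℕ) : (G.induce (reach G v n)).Connected := by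
  have key : ∀ m, m ≤ n → ∀ w (hw : w ∈ reach G v m) (hw' : w ∈ reach G v n),
      (G.induce (reach G v n)).Reachable ⟨v, self_mem_reach G v n⟩ ⟨w, hw'⟩ := by
    intro m
    induction m with
    | zero =>
      intro _ w hw hw'
      have : w = v := hw
      subst this
      exact SimpleGraph.Reachable.refl _
    | succ m ih =>
      intro hm w hw hw'
      rcases (reach_succ G v m w).1 hw with h | ⟨w', h1, h2⟩
      · exact ih (by omega) w h hw'
      · have h3 : w' ∈ reach G v n := reach_mono G v (by omega : m ≤ n) h1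
        refine (ih (by omega) w' h1 h3).trans ?_
        apply SimpleGraph.Adj.reachable
        exact h2
  haveI : Nonempty (reach G v n) := ⟨⟨v, self_mem_reach G v n⟩⟩
  exact ⟨fun x y => (key n le_rfl x x.2 x.2).symm.trans (key n le_rfl y y.2 y.2)⟩

/-- nice graphs -/
def Nice (G : SimpleGraph ℕ) : Prop := G.Connected ∧ ∀ v, (G.neighborSet v).Finite

lemma Nice.exists_exhaustion {G : SimpleGraph ℕ} (hG : Nice G) : ∃ S : ℕ → Finset ℕ, Monotone S ∧
    (∀ v : ℕ, ∃ n, v ∈ S n) ∧ ∀ n, (G.induce (S n : Set ℕ)).Connected := by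
  refine ⟨fun n => (reach_finite hG.2 0 n).toFinset, ?_, ?_, ?_⟩
  · intro m n hmn x hx
    rw [Set.Finite.mem_toFinset] at hx ⊢
    exact reach_mono G 0 hmn hx
  · intro v
    obtain ⟨n, hn⟩ := (exists_reach_iff G 0 v).2 (hG.1.preconnected 0 v)
    exact ⟨n, (Set.Finite.mem_toFinset _).2 hn⟩
  · intro n
    rw [Set.Finite.coe_toFinset]
    exact reach_connected G 0 n

/-! ### measurability in the table -/

lemma adj_table (A : ℕ → ℕ → Bool) (i j : ℕ) :
    (graphOfTable A).Adj i j ↔ i ≠ j ∧ (A i j = true ∨ A j i = true) := by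
  unfold graphOfTable
  rw [SimpleGraph.fromRel_adj]

lemma measurableSet_adj (i j : ℕ) : MeasurableSet {A : ℕ → ℕ → Bool | (graphOfTable A).Adj i j} := by
  simp_rw [adj_table]
  have h : ∀ i j : ℕ, MeasurableSet {A : ℕ → ℕ → Bool | A i j = true} := by
    intro i j
    have : Measurable (fun A : ℕ → ℕ → Bool => A i j) :=
      (measurable_pi_apply j).comp (measurable_pi_apply i)
    exact this (measurableSet_singleton true)
  by_cases hij : i = j
  · simp [hij]
  · have : {A : ℕ → ℕ → Bool | i ≠ j ∧ (A i j = true ∨ A j i = true)}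
        = {A | A i j = true} ∪ {A | A j i = true} := by
      ext A; simp [hij]
    rw [this]
    exact (h i j).union (h j i)

lemma measurableSet_edge (e : Sym2 ℕ) : MeasurableSet {A : ℕ → ℕ → Bool | e ∈ (graphOfTable A).edgeSet} := by
  induction e with
  | h x y => exact measurableSet_adj x y

lemma measurableSet_reach (v n w : ℕ) :
    MeasurableSet {A : ℕ → ℕ → Bool | w ∈ reach (graphOfTable A) v n} := by
  induction n generalizing w with
  | zero =>
    by_cases h : w = v
    · have : {A : ℕ → ℕ → Bool | w ∈ reach (graphOfTable A) v 0} = Set.univ := by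
        ext A; simp [reach, h]
      rw [this]; exact MeasurableSet.univ
    · have : {A : ℕ → ℕ → Bool | w ∈ reach (graphOfTable A) v 0} = ∅ := by
        ext A; simp [reach, h]
      rw [this]; exact MeasurableSet.empty
  | succ n ih =>
    have : {A : ℕ → ℕ → Bool | w ∈ reach (graphOfTable A) v (n + 1)}
        = {A | w ∈ reach (graphOfTable A) v n} ∪
          ⋃ w', ({A | w' ∈ reach (graphOfTable A) v n} ∩ {A | (graphOfTable A).Adj w' w}) := by
      ext A
      simp only [Set.mem_ofPred_eq, reach_succ, Set.mem_union, Set.mem_iUnion, Set.mem_inter_iff]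
    rw [this]
    exact (ih w).union (MeasurableSet.iUnion fun w' => (ih w').inter (measurableSet_adj w' w))

lemma measurableSet_nice : MeasurableSet {A : ℕ → ℕ → Bool | Nice (graphOfTable A)} := by
  have h1 : MeasurableSet {A : ℕ → ℕ → Bool | (graphOfTable A).Connected} := by
    have : {A : ℕ → ℕ → Bool | (graphOfTable A).Connected}
        = ⋂ v, ⋂ w, ⋃ n, {A | w ∈ reach (graphOfTable A) v n} := by
      ext A
      simp only [Set.mem_ofPred_eq, Set.mem_iInter, Set.mem_iUnion]
      constructor
      · intro h v w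
        exact (exists_reach_iff _ v w).2 (h.preconnected v w)
      · intro h
        exact ⟨fun v w => (exists_reach_iff _ v w).1 (h v w)⟩
    rw [this]
    exact MeasurableSet.iInter fun v => MeasurableSet.iInter fun w => MeasurableSet.iUnion fun n =>
      measurableSet_reach v n w
  have h2 : MeasurableSet {A : ℕ → ℕ → Bool | ∀ v, ((graphOfTable A).neighborSet v).Finite} := by
    have : {A : ℕ → ℕ → Bool | ∀ v, ((graphOfTable A).neighborSet v).Finite}
        = ⋂ v, ⋃ n, ⋂ w, {A | (graphOfTable A).Adj v w → w ≤ n} := by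
      ext A
      simp only [Set.mem_ofPred_eq, Set.mem_iInter, Set.mem_iUnion]
      refine forall_congr' fun v => ?_
      rw [Set.finite_iff_bddAbove]
      rfl
    rw [this]
    refine MeasurableSet.iInter fun v => MeasurableSet.iUnion fun n => MeasurableSet.iInter fun w => ?_
    by_cases hwn : w ≤ n
    · simp [hwn]
    · have : {A : ℕ → ℕ → Bool | (graphOfTable A).Adj v w → w ≤ n} = {A | (graphOfTable A).Adj v w}ᶜ := by
        ext A; simp [hwn]
      rw [this]
      exact (measurableSet_adj v w).compl
  exact h1.inter h2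

lemma measurable_of_edgesIn {β : Type*} [MeasurableSpace β] (S : Finset ℕ) (h : Finset (Sym2 ℕ) → β) :
    Measurable (fun A : ℕ → ℕ → Bool => h (edgesIn (graphOfTable A) S)) := by
  letI : MeasurableSpace (Finset (Sym2 ℕ)) := ⊤
  haveI : MeasurableSingletonClass (Finset (Sym2 ℕ)) := ⟨fun _ => trivial⟩
  have hN : Measurable (fun A : ℕ → ℕ → Bool => edgesIn (graphOfTable A) S) := by
    refine measurable_to_countable' fun J0 => ?_
    have : (fun A : ℕ → ℕ → Bool => edgesIn (graphOfTable A) S) ⁻¹' {J0}
        = ⋂ e, {A | e ∈ edgesIn (graphOfTable A) S ↔ e ∈ J0} := by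
      ext A
      simp only [Set.mem_preimage, Set.mem_singleton_iff, Set.mem_iInter, Set.mem_ofPred_eq, Finset.ext_iff]
    rw [this]
    refine MeasurableSet.iInter fun e => ?_
    have hi : MeasurableSet {A : ℕ → ℕ → Bool | e ∈ edgesIn (graphOfTable A) S} := by
      by_cases h : ∀ v ∈ e, v ∈ S
      · have : {A : ℕ → ℕ → Bool | e ∈ edgesIn (graphOfTable A) S}
            = {A | e ∈ (graphOfTable A).edgeSet} := by
          ext A
          simp only [Set.mem_ofPred_eq, mem_edgesIn]
          exact ⟨fun h => h.2, fun h' => ⟨h, h'⟩⟩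
        rw [this]
        exact measurableSet_edge e
      · have : {A : ℕ → ℕ → Bool | e ∈ edgesIn (graphOfTable A) S} = ∅ := by
          ext A
          simp only [Set.mem_ofPred_eq, mem_edgesIn, Set.mem_empty_iff_false, iff_false]
          exact fun h' => h h'.1
        rw [this]; exact MeasurableSet.empty
    by_cases h : e ∈ J0
    · have : {A : ℕ → ℕ → Bool | e ∈ edgesIn (graphOfTable A) S ↔ e ∈ J0}
          = {A | e ∈ edgesIn (graphOfTable A) S} := by ext A; simp [h]
      rw [this]; exact hi
    · have : {A : ℕ → ℕ → Bool | e ∈ edgesIn (graphOfTable A) S ↔ e ∈ J0}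
          = {A | e ∈ edgesIn (graphOfTable A) S}ᶜ := by ext A; simp [h]
      rw [this]; exact hi.compl
  exact (measurable_from_top (f := h)).comp hN

end Crest.Agent.H5
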