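import Mathlib
import Crest.Agent.H5.Bayes

set_option autoImplicit false

namespace Crest.Agent.H5

open MeasureTheory ProbabilityTheory unitInterval Set Filter Topology

variable {V : Type*}

/-- order of observations: by round, then by time label -/
def prec (t : V → I) (i j : V × ℕ) : Prop := i.2 < j.2 ∨ (i.2 = j.2 ∧ t i.1 < t j.1)

/-- exhaustion data -/
structure IsExh (E : Set V) (B : V → ℕ → Finset V) : Prop where
  sub : ∀ v ∈ E, ∀ n, ∀ w ∈ B v n, w ∈ E
  mono : ∀ v ∈ E, Monotone (B v)
  ex : ∀ v ∈ E, ∀ w ∈ E, ∃ n, w ∈ B v n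

/-- finite approximations of the past of a site -/
noncomputable def Jn (B : V → ℕ → Finset V) (t : V → I) (j : V × ℕ) (n : ℕ) : Finset (V × ℕ) :=
  haveI := Classical.decPred (fun i => prec t i j)
  ((B j.1 n) ×ˢ Finset.range (j.2 + 1)).filter (fun i => prec t i j)

lemma mem_Jn {B : V → ℕ → Finset V} {t : V → I} {j : V × ℕ} {n : ℕ} {i : V × ℕ} :
    i ∈ Jn B t j n ↔ i.1 ∈ B j.1 n ∧ prec t i j := by
  unfold Jn
  simp only [Finset.mem_filter, Finset.mem_product, Finset.mem_range]
  constructor
  · rintro ⟨⟨h1, _⟩, h3⟩; exact ⟨h1, h3⟩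
  · rintro ⟨h1, h3⟩
    refine ⟨⟨h1, ?_⟩, h3⟩
    rcases h3 with h | ⟨h, _⟩ <;> omega

lemma Jn_mono {E : Set V} {B : V → ℕ → Finset V} (hB : IsExh E B) (t : V → I) (j : V × ℕ) (hj : j.1 ∈ E) :
    Monotone (Jn B t j) := by
  intro m n hmn i hi
  rw [mem_Jn] at hi ⊢
  exact ⟨hB.mono _ hj hmn hi.1, hi.2⟩

lemma Jn_sub {E : Set V} {B : V → ℕ → Finset V} (hB : IsExh E B) (t : V → I) (j : V × ℕ) (hj : j.1 ∈ E)
    (n : ℕ) : ∀ i ∈ Jn B t j n, i.1 ∈ E := by
  intro i hi
  rw [mem_Jn] at hi
  exact hB.sub _ hj _ _ hi.1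

/-- past of a family of observations -/
noncomputable def past (t : V → I) (j : V × ℕ) (z : V × ℕ → I) : V × ℕ → I :=
  haveI := Classical.decPred (fun i => prec t i j)
  fun i => if prec t i j then z i else 0

lemma measurable_past (t : V → I) (j : V × ℕ) : Measurable (past t j) := by
  refine measurable_pi_iff.2 fun i => ?_
  unfold past
  split_ifs <;> fun_prop

/-- observation map -/
noncomputable def obsMap (E : Set V) (ω : (V → Bool) × (V × ℕ → I)) : V × ℕ → I := obs E ω.1 ω.2

lemma measurable_obsMap (E : Set V) : Measurable (obsMap E) := measurable_obs' E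

/-- sigma-algebra of the past -/
@[reducible] noncomputable def pastAlg (E : Set V) (t : V → I) (j : V × ℕ) :
    MeasurableSpace ((V → Bool) × (V × ℕ → I)) :=
  MeasurableSpace.comap (fun ω => past t j (obsMap E ω)) inferInstance

/-- sigma-algebra of finitely many observations -/
@[reducible] noncomputable def finAlg (E : Set V) (J : Finset (V × ℕ)) :
    MeasurableSpace ((V → Bool) × (V × ℕ → I)) :=
  MeasurableSpace.comap (fun ω => J.restrict (obsMap E ω)) inferInstance

lemma pastAlg_le (E : Set V) (t : V → I) (j : V × ℕ) :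
    pastAlg E t j ≤ (inferInstance : MeasurableSpace ((V → Bool) × (V × ℕ → I))) :=
  ((measurable_past t j).comp (measurable_obsMap E)).comap_le

lemma finAlg_le (E : Set V) (J : Finset (V × ℕ)) :
    finAlg E J ≤ (inferInstance : MeasurableSpace ((V → Bool) × (V × ℕ → I))) :=
  ((Finset.measurable_restrict J).comp (measurable_obsMap E)).comap_le

lemma finAlg_mono (E : Set V) {J K : Finset (V × ℕ)} (h : J ⊆ K) : finAlg E J ≤ finAlg E K := by
  unfold finAlg
  have : (fun ω : (V → Bool) × (V × ℕ → I) => J.restrict (obsMap E ω))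
      = (Finset.restrict₂ (π := fun _ => I) h) ∘ (fun ω => K.restrict (obsMap E ω)) := by
    funext ω; rfl
  rw [this, ← MeasurableSpace.comap_comp]
  exact MeasurableSpace.comap_mono (Finset.measurable_restrict₂ h).comap_le

/-- the filtration of finite approximations -/
noncomputable def filt {E : Set V} {B : V → ℕ → Finset V} (hB : IsExh E B) (t : V → I) (j : V × ℕ)
    (hj : j.1 ∈ E) : Filtration ℕ (inferInstance : MeasurableSpace ((V → Bool) × (V × ℕ → I))) where
  seq n := finAlg E (Jn B t j n)
  mono' _ _ hmn := finAlg_mono E (Jn_mono hB t j hj hmn)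
  le' _ := finAlg_le _ _

lemma iSup_filt {E : Set V} {B : V → ℕ → Finset V} (hB : IsExh E B) (t : V → I) (j : V × ℕ)
    (hj : j.1 ∈ E) : ⨆ n, (filt hB t j hj) n = pastAlg E t j := by
  apply le_antisymm
  · refine iSup_le fun n => ?_
    change finAlg E (Jn B t j n) ≤ pastAlg E t j
    unfold finAlg pastAlg
    have : (fun ω : (V → Bool) × (V × ℕ → I) => (Jn B t j n).restrict (obsMap E ω))
        = (Finset.restrict (π := fun _ => I) (Jn B t j n)) ∘ (fun ω => past t j (obsMap E ω)) := by
      funext ω i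
      simp only [Finset.restrict, Function.comp, past]
      rw [if_pos (mem_Jn.1 i.2).2]
    rw [this, ← MeasurableSpace.comap_comp]
    exact MeasurableSpace.comap_mono (Finset.measurable_restrict _).comap_le
  · unfold pastAlg
    rw [← measurable_iff_comap_le]
    refine @measurable_pi_iff _ _ _ (_) _ _ |>.2 fun i => ?_
    by_cases hp : prec t i j
    · by_cases hi : i.1 ∈ E
      · obtain ⟨n, hn⟩ := hB.ex _ hj _ hi
        have hmem : i ∈ Jn B t j n := mem_Jn.2 ⟨hn, hp⟩
        have h1 : Measurable[finAlg E (Jn B t j n)] (fun ω : (V → Bool) × (V × ℕ → I) =>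
            (Jn B t j n).restrict (obsMap E ω)) := comap_measurable _
        have h2 : Measurable[finAlg E (Jn B t j n)] (fun ω : (V → Bool) × (V × ℕ → I) =>
            ((Jn B t j n).restrict (obsMap E ω)) ⟨i, hmem⟩) :=
          (measurable_pi_apply (⟨i, hmem⟩ : Jn B t j n)).comp h1
        have h3 : (fun ω : (V → Bool) × (V × ℕ → I) => past t j (obsMap E ω) i)
            = fun ω => ((Jn B t j n).restrict (obsMap E ω)) ⟨i, hmem⟩ := by
          funext ω
          simp only [Finset.restrict, past]
          rw [if_pos hp]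
        rw [h3]
        exact h2.mono (le_iSup (fun n => (filt hB t j hj) n) n) le_rfl
      · have h3 : (fun ω : (V → Bool) × (V × ℕ → I) => past t j (obsMap E ω) i) = fun ω => 0 := by
          funext ω
          simp only [past, obsMap, obs]
          rw [if_pos hp, if_neg hi]
        rw [h3]
        exact @measurable_const _ _ _ (_) _
    · have h3 : (fun ω : (V → Bool) × (V × ℕ → I) => past t j (obsMap E ω) i) = fun ω => 0 := by
        funext ω
        simp only [past]
        rw [if_neg hp]
      rw [h3]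
      exact @measurable_const _ _ _ (_) _

/-- indicator of a spin -/
noncomputable def spinInd (v : V) (ω : (V → Bool) × (V × ℕ → I)) : ℝ := if ω.1 v = true then 1 else 0

lemma measurable_spinInd (v : V) : Measurable (spinInd (V := V) v) := by
  unfold spinInd
  exact Measurable.ite (meas_true (by fun_prop)) measurable_const measurable_const

lemma spinInd_mem (v : V) (ω : (V → Bool) × (V × ℕ → I)) : spinInd v ω ∈ Icc (0:ℝ) 1 := by
  unfold spinInd; split_ifs <;> simp

lemma integrable_spinInd (ν : Measure (V → Bool)) [IsProbabilityMeasure ν] (v : V) :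
    Integrable (spinInd v) (jointLaw ν) := by
  refine Integrable.of_bound (measurable_spinInd v).aestronglyMeasurable 1 ?_
  filter_upwards with ω
  rw [Real.norm_of_nonneg (spinInd_mem v ω).1]
  exact (spinInd_mem v ω).2

/-- Bayes formula -/
lemma bayes (ν : Measure (V → Bool)) [IsProbabilityMeasure ν] (E : Set V)
    (J : Finset (V × ℕ)) (hJ : ∀ j ∈ J, j.1 ∈ E) (v : V) :
    (fun ω => postJ ν J v (J.restrict (obsMap E ω))) =ᵐ[jointLaw ν] (jointLaw ν)[spinInd v | finAlg E J] := by
  have hle := finAlg_le E J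
  have hmeasJ : Measurable (fun ω : (V → Bool) × (V × ℕ → I) => J.restrict (obsMap E ω)) :=
    (Finset.measurable_restrict J).comp (measurable_obsMap E)
  have hint : Integrable (fun ω => postJ ν J v (J.restrict (obsMap E ω))) (jointLaw ν) := by
    refine Integrable.of_bound ((measurable_postJ ν J v).comp hmeasJ).aestronglyMeasurable 1 ?_
    filter_upwards with ω
    rw [Real.norm_of_nonneg (postJ_mem ν J v _).1]
    exact (postJ_mem ν J v _).2
  refine ae_eq_condExp_of_forall_setIntegral_eq hle (integrable_spinInd ν v)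
    (fun s _ _ => hint.integrableOn) ?_ ?_
  · intro s hs _
    obtain ⟨C, hC, rfl⟩ := hs
    have hs' : MeasurableSet ((fun ω : (V → Bool) × (V × ℕ → I) => J.restrict (obsMap E ω)) ⁻¹' C) := hmeasJ hC
    rw [integral_eq_lintegral_of_nonneg_ae (ae_of_all _ fun ω => (postJ_mem ν J v _).1)
        hint.integrableOn.aestronglyMeasurable,
      integral_eq_lintegral_of_nonneg_ae (ae_of_all _ fun ω => (spinInd_mem v ω).1)
        (integrable_spinInd ν v).integrableOn.aestronglyMeasurable]
    congr 1
    have h := bayes_set ν E J hJ v C hC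
    have hset : {ω : (V → Bool) × (V × ℕ → I) | J.restrict (obs E ω.1 ω.2) ∈ C}
        = (fun ω : (V → Bool) × (V × ℕ → I) => J.restrict (obsMap E ω)) ⁻¹' C := rfl
    rw [hset] at h
    refine h.trans ?_
    have h2 : ∀ ω : (V → Bool) × (V × ℕ → I), ENNReal.ofReal (spinInd v ω)
        = ({ω : (V → Bool) × (V × ℕ → I) | ω.1 v = true}).indicator 1 ω := by
      intro ω
      simp only [spinInd, indicator, mem_ofPred_eq]
      split_ifs <;> simp
    have hvm : MeasurableSet {ω : (V → Bool) × (V × ℕ → I) | ω.1 v = true} :=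
      meas_true (by fun_prop)
    simp_rw [h2]
    rw [lintegral_indicator_one hvm, Measure.restrict_apply hvm, inter_comm]
  · refine Measurable.aestronglyMeasurable ?_
    exact (measurable_postJ ν J v).comp (comap_measurable _)

/-- finite-volume posterior -/
noncomputable def postn (ν : Measure (V → Bool)) (B : V → ℕ → Finset V) (t : V → I) (j : V × ℕ) (n : ℕ)
    (z : V × ℕ → I) : ℝ := postJ ν (Jn B t j n) j.1 ((Jn B t j n).restrict z)

lemma measurable_postn (ν : Measure (V → Bool)) [IsProbabilityMeasure ν] (B : V → ℕ → Finset V)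
    (t : V → I) (j : V × ℕ) (n : ℕ) : Measurable (postn ν B t j n) :=
  (measurable_postJ _ _ _).comp (Finset.measurable_restrict _)

/-- limiting posterior -/
noncomputable def plim (ν : Measure (V → Bool)) (B : V → ℕ → Finset V) (t : V → I) (j : V × ℕ)
    (z : V × ℕ → I) : I :=
  Set.projIcc (0:ℝ) 1 zero_le_one (limsup (fun n => postn ν B t j n z) atTop)

lemma measurable_plim (ν : Measure (V → Bool)) [IsProbabilityMeasure ν] (B : V → ℕ → Finset V)
    (t : V → I) (j : V × ℕ) : Measurable (plim ν B t j) := by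
  unfold plim
  refine continuous_projIcc.measurable.comp ?_
  exact Measurable.limsup (fun n => measurable_postn ν B t j n)

lemma postn_past (ν : Measure (V → Bool)) (B : V → ℕ → Finset V) (t : V → I) (j : V × ℕ) (n : ℕ)
    (z : V × ℕ → I) : postn ν B t j n (past t j z) = postn ν B t j n z := by
  unfold postn
  congr 1
  funext i
  simp only [Finset.restrict, past]
  rw [if_pos (mem_Jn.1 i.2).2]

lemma plim_past (ν : Measure (V → Bool)) (B : V → ℕ → Finset V) (t : V → I) (j : V × ℕ)
    (z : V × ℕ → I) : plim ν B t j (past t j z) = plim ν B t j z := by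
  unfold plim
  simp_rw [postn_past]

lemma plim_of_tendsto (ν : Measure (V → Bool)) (B : V → ℕ → Finset V) (t : V → I)
    (j : V × ℕ) (z : V × ℕ → I) (p : I)
    (h : Tendsto (fun n => postn ν B t j n z) atTop (𝓝 (p : ℝ))) : plim ν B t j z = p := by
  unfold plim
  rw [h.limsup_eq, projIcc_val]

/-- Lévy's theorem -/
lemma levy (ν : Measure (V → Bool)) [IsProbabilityMeasure ν] {E : Set V} {B : V → ℕ → Finset V}
    (hB : IsExh E B) (t : V → I) (j : V × ℕ) (hj : j.1 ∈ E) :
    (∀ᵐ ω ∂(jointLaw ν), Tendsto (fun n => postn ν B t j n (obsMap E ω)) atTop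
      (𝓝 (plim ν B t j (obsMap E ω) : ℝ))) ∧
    (fun ω => (plim ν B t j (obsMap E ω) : ℝ)) =ᵐ[jointLaw ν]
      (jointLaw ν)[spinInd j.1 | pastAlg E t j] := by
  have h1 := MeasureTheory.tendsto_ae_condExp (μ := jointLaw ν) (ℱ := filt hB t j hj) (spinInd j.1)
  rw [iSup_filt hB t j hj] at h1
  have h2 : ∀ᵐ ω ∂(jointLaw ν), ∀ n, postn ν B t j n (obsMap E ω)
      = ((jointLaw ν)[spinInd j.1 | (filt hB t j hj) n]) ω := by
    rw [ae_all_iff]
    intro n
    exact bayes ν E (Jn B t j n) (Jn_sub hB t j hj n) j.1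
  have key : ∀ᵐ ω ∂(jointLaw ν), Tendsto (fun n => postn ν B t j n (obsMap E ω)) atTop
      (𝓝 (((jointLaw ν)[spinInd j.1 | pastAlg E t j]) ω)) := by
    filter_upwards [h1, h2] with ω h1 h2
    exact h1.congr fun n => (h2 n).symm
  have key2 : ∀ᵐ ω ∂(jointLaw ν), (plim ν B t j (obsMap E ω) : ℝ)
      = ((jointLaw ν)[spinInd j.1 | pastAlg E t j]) ω := by
    filter_upwards [key] with ω hω
    have hmem : ((jointLaw ν)[spinInd j.1 | pastAlg E t j]) ω ∈ Icc (0:ℝ) 1 :=
      isClosed_Icc.mem_of_tendsto hω (Eventually.of_forall fun n => postJ_mem _ _ _ _)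
    have := plim_of_tendsto ν B t j (obsMap E ω) ⟨_, hmem⟩ hω
    rw [this]
  refine ⟨?_, key2⟩
  filter_upwards [key, key2] with ω h1 h2
  rw [h2]
  exact h1

end Crest.Agent.H5
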