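import Mathlib
import Crest.Agent.H5.Levy

set_option autoImplicit false

namespace Crest.Agent.H5

open MeasureTheory ProbabilityTheory unitInterval Set Filter Topology

variable {V : Type*}

/-- exponential tilt weight -/
noncomputable def tw (F : Finset V) (Y : V → ℝ) (x : V → Bool) : ℝ :=
  ∏ w ∈ F, (if x w = true then Real.exp (Y w) else 1)

/-- tilted mean of a spin -/
noncomputable def tmean (ν : Measure (V → Bool)) (F : Finset V) (v : V) (Y : V → ℝ) : ℝ :=
  (∫ x, (if x v = true then tw F Y x else 0) ∂ν) / ∫ x, tw F Y x ∂ν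

/-- Lipschitz dependence of tilted means on the tilts, uniformly in the volume -/
def TiltLip (ν : Measure (V → Bool)) (E : Set V) (K : ℝ) : Prop :=
  ∀ (F : Finset V) (v : V), v ∈ E → (∀ w ∈ F, w ∈ E) → ∀ (Y Y' : V → ℝ) (δ : ℝ),
    0 ≤ δ → (∀ w ∈ F, |Y w - Y' w| ≤ δ) → |tmean ν F v Y - tmean ν F v Y'| ≤ K * δ

/-- accumulated tilt -/
noncomputable def tilt [DecidableEq V] (J : Finset (V × ℕ)) (z : V × ℕ → I) (w : V) : ℝ :=
  ∑ j ∈ J with j.1 = w, Real.log ((z j : ℝ) + 1/2)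

lemma dens_eq (b : Bool) (z : I) : dens b z = if b = true then Real.exp (Real.log ((z : ℝ) + 1/2)) else 1 := by
  unfold dens
  split_ifs
  · rw [Real.exp_log]
    have := z.2.1; linarith
  · rfl

lemma wt_restrict (J : Finset (V × ℕ)) (x : V → Bool) (z : V × ℕ → I) :
    wt J x (J.restrict z) = ∏ j ∈ J, dens (x j.1) (z j) := by
  unfold wt
  rw [← Finset.prod_coe_sort J (fun j => dens (x j.1) (z j))]
  rfl

lemma wt_eq_tw [DecidableEq V] (J : Finset (V × ℕ)) (x : V → Bool) (z : V × ℕ → I) :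
    wt J x (J.restrict z) = tw (J.image Prod.fst) (tilt J z) x := by
  rw [wt_restrict, tw, ← Finset.prod_fiberwise_of_maps_to (s := J) (t := J.image Prod.fst) (g := Prod.fst)
    (fun i hi => Finset.mem_image_of_mem _ hi)]
  refine Finset.prod_congr rfl fun w _ => ?_
  unfold tilt
  by_cases hx : x w = true
  · rw [if_pos hx, Real.exp_sum]
    refine Finset.prod_congr rfl fun j hj => ?_
    rw [Finset.mem_filter] at hj
    rw [dens_eq, hj.2, if_pos hx]
  · rw [if_neg hx]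
    refine Finset.prod_eq_one fun j hj => ?_
    rw [Finset.mem_filter] at hj
    rw [dens_eq, hj.2, if_neg hx]

lemma postJ_eq_tmean [DecidableEq V] (ν : Measure (V → Bool)) (J : Finset (V × ℕ)) (v : V) (z : V × ℕ → I) :
    postJ ν J v (J.restrict z) = tmean ν (J.image Prod.fst) v (tilt J z) := by
  unfold postJ tmean
  simp_rw [wt_eq_tw]

/-- log is 2-Lipschitz in the relevant range -/
lemma log_lip {x y : ℝ} (hx : x ∈ Icc (0:ℝ) 1) (hy : y ∈ Icc (0:ℝ) 1) :
    |Real.log (x + 1/2) - Real.log (y + 1/2)| ≤ 2 * |x - y| := by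
  wlog h : y ≤ x generalizing x y
  · rw [abs_sub_comm, abs_sub_comm x y]
    exact this hy hx (le_of_not_ge h)
  have hy0 : 0 < y + 1/2 := by linarith [hy.1]
  have hx0 : 0 < x + 1/2 := by linarith [hx.1]
  rw [abs_of_nonneg (sub_nonneg.2 (Real.log_le_log hy0 (by linarith))), abs_of_nonneg (sub_nonneg.2 h),
    ← Real.log_div hx0.ne' hy0.ne']
  have h1 := Real.log_le_sub_one_of_pos (div_pos hx0 hy0)
  have h2 : (x + 1/2) / (y + 1/2) - 1 = (x - y) / (y + 1/2) := by
    rw [div_sub_one hy0.ne']; congr 1; ring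
  rw [h2] at h1
  refine h1.trans ?_
  rw [div_le_iff₀ hy0]
  nlinarith [hy.1]

/-- stability of the inverse cdf -/
lemma cdf_stab {p p' x y : ℝ} (hp : p ∈ Icc (0:ℝ) 1)
    (hx : x ∈ Icc (0:ℝ) 1) (hy : y ∈ Icc (0:ℝ) 1) (h : cdfFun p x = cdfFun p' y) :
    |x - y| ≤ |p - p'| / 4 := by
  have key : (x - y) * (1 + p / 2 * (x + y - 1)) = (p' - p) / 2 * (y ^ 2 - y) := by
    unfold cdfFun at h
    nlinarith
  have hpos : 1/2 ≤ 1 + p / 2 * (x + y - 1) := by
    obtain ⟨hp0, hp1⟩ := hp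
    obtain ⟨hx0, hx1⟩ := hx
    obtain ⟨hy0, hy1⟩ := hy
    nlinarith
  have h1 : |x - y| * (1/2) ≤ |x - y| * (1 + p / 2 * (x + y - 1)) :=
    mul_le_mul_of_nonneg_left hpos (abs_nonneg _)
  have h2 : |x - y| * (1 + p / 2 * (x + y - 1)) = |(p' - p) / 2 * (y ^ 2 - y)| := by
    rw [← key, abs_mul, abs_of_pos (a := 1 + p / 2 * (x + y - 1)) (by linarith)]
  have h3 : |(p' - p) / 2 * (y ^ 2 - y)| ≤ |p - p'| / 2 * (1/4) := by
    rw [abs_mul, abs_div, abs_sub_comm p' p, abs_two]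
    refine mul_le_mul_of_nonneg_left ?_ (by positivity)
    rw [abs_le]
    obtain ⟨hy0, hy1⟩ := hy
    constructor
    · nlinarith [sq_nonneg (y - 1/2)]
    · nlinarith
  linarith

end Crest.Agent.H5
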