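import Mathlib
import Crest.Agent.H5.SR
import Crest.Agent.H5.Tilt

set_option autoImplicit false

namespace Crest.Agent.H5

open MeasureTheory ProbabilityTheory unitInterval Set Filter Topology

variable {V : Type*}

/-- cylinder event -/
def cyl (F S : Finset V) : Set (V → Bool) := {ω | ∀ i ∈ F, (ω i = true ↔ i ∈ S)}

/-- cylinder masses -/
noncomputable def mass (ν : Measure (V → Bool)) (F S : Finset V) : ℝ := (ν (cyl F S)).toReal

lemma measurableSet_cyl (F S : Finset V) : MeasurableSet (cyl F S) := by
  have : cyl F S = ⋂ i ∈ F, {ω : V → Bool | ω i = true ↔ i ∈ S} := by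
    ext ω; simp [cyl]
  rw [this]
  refine Finset.measurableSet_biInter _ fun i _ => ?_
  by_cases h : i ∈ S
  · have : {ω : V → Bool | ω i = true ↔ i ∈ S} = {ω | ω i = true} := by ext ω; simp [h]
    rw [this]
    exact meas_true (measurable_pi_apply i)
  · have : {ω : V → Bool | ω i = true ↔ i ∈ S} = {ω | ω i = true}ᶜ := by ext ω; simp [h]
    rw [this]
    exact (meas_true (measurable_pi_apply i)).compl

lemma integral_cyl [DecidableEq V] (ν : Measure (V → Bool)) [IsProbabilityMeasure ν] (F : Finset V)
    (f : (V → Bool) → ℝ) (hf : ∀ x y : V → Bool, (∀ i ∈ F, x i = y i) → f x = f y) :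
    ∫ x, f x ∂ν = ∑ S ∈ F.powerset, mass ν F S * f (fun i => decide (i ∈ S)) := by
  have h1 : ∀ x, f x = ∑ S ∈ F.powerset, (cyl F S).indicator (fun _ => f (fun i => decide (i ∈ S))) x := by
    intro x
    rw [Finset.sum_eq_single (F.filter (fun i => x i = true))]
    · rw [indicator_of_mem]
      · refine hf _ _ fun i hi => ?_
        simp [hi]
      · intro i hi
        simp [hi]
    · intro S hS hne
      rw [indicator_of_notMem]
      intro hx
      apply hne
      ext i
      rw [Finset.mem_filter]
      constructor
      · intro hi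
        have hiF := Finset.mem_powerset.1 hS hi
        exact ⟨hiF, (hx i hiF).2 hi⟩
      · rintro ⟨hiF, hi⟩
        exact (hx i hiF).1 hi
    · intro h
      exact absurd (Finset.mem_powerset.2 (Finset.filter_subset _ _)) h
  rw [integral_congr_ae (ae_of_all _ h1)]
  rw [integral_finsetSum _ (fun S _ => (integrable_const _).indicator (measurableSet_cyl F S))]
  refine Finset.sum_congr rfl fun S hS => ?_
  rw [integral_indicator_const _ (measurableSet_cyl F S)]
  rfl

/-- tilted mean in terms of cylinder masses -/
lemma tmean_eq_fmean' [DecidableEq V] (ν : Measure (V → Bool)) [IsProbabilityMeasure ν] (F : Finset V) (v : V)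
    (E : Finset V) (hE : insert v F ⊆ E) (Y : V → ℝ) :
    tmean ν F v Y = fmean E (mass ν E) v (fun w => if w ∈ F then Y w else 0) := by
  have htw : ∀ S ∈ E.powerset, tw F Y (fun i => decide (i ∈ S))
      = ∏ w ∈ S, Real.exp (if w ∈ F then Y w else 0) := by
    intro S hS
    unfold tw
    have h1 : ∀ w, Real.exp (if w ∈ F then Y w else 0) = if w ∈ F then Real.exp (Y w) else 1 := by
      intro w; split_ifs <;> simp
    simp_rw [h1]
    rw [Finset.prod_ite_mem, ← Finset.prod_filter]
    · refine Finset.prod_congr ?_ fun _ _ => rfl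
      ext w
      simp [and_comm]
  have htwF : ∀ x y : V → Bool, (∀ i ∈ E, x i = y i) → tw F Y x = tw F Y y := by
    intro x y hxy
    unfold tw
    refine Finset.prod_congr rfl fun w hw => ?_
    rw [hxy w (hE (Finset.mem_insert_of_mem hw))]
  unfold tmean fmean
  congr 1
  · rw [integral_cyl ν E]
    · unfold up tm
      refine Finset.sum_congr rfl fun S hS => ?_
      by_cases hv : v ∈ S
      · simp only [hv, decide_true, if_true, Finset.singleton_subset_iff]
        rw [htw S hS]
      · simp [hv]
    · intro x y hxy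
      rw [hxy v (hE (Finset.mem_insert_self _ _)), htwF x y hxy]
  · rw [integral_cyl ν E _ htwF]
    unfold up tm
    refine Finset.sum_congr rfl fun S hS => ?_
    simp only [Finset.empty_subset, if_true]
    rw [htw S hS]

/-- tilted mean in terms of cylinder masses -/
lemma tmean_eq_fmean [DecidableEq V] (ν : Measure (V → Bool)) [IsProbabilityMeasure ν] (F : Finset V) (v : V)
    (Y : V → ℝ) :
    tmean ν F v Y = fmean (insert v F) (mass ν (insert v F)) v (fun w => if w ∈ F then Y w else 0) :=
  tmean_eq_fmean' ν F v _ (Finset.Subset.refl _) Y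

/-- Lipschitz property from strongly Rayleigh marginals -/
lemma tiltLip_of_SRm [DecidableEq V] (ν : Measure (V → Bool)) [IsProbabilityMeasure ν] (E : Set V)
    (h : ∀ F : Finset V, (∀ v ∈ F, v ∈ E) → SRm F (mass ν F)) : TiltLip ν E (5/4) := by
  intro F v hv hF Y Y' δ hδ hY
  rw [tmean_eq_fmean, tmean_eq_fmean]
  refine SRm.lip (h (insert v F) ?_) (Finset.mem_insert_self _ _) _ _ δ ?_
  · intro w hw
    rcases Finset.mem_insert.1 hw with h1 | h1
    · rwa [h1]
    · exact hF w h1
  · intro w _
    split_ifs with h1
    · exact hY w h1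
    · simpa using hδ

end Crest.Agent.H5
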