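import Mathlib
import Crest.Agent.H5.Reach
import Crest.Agent.H5.TiltSR

set_option autoImplicit false

namespace Crest.Agent.H5

open MeasureTheory ProbabilityTheory Set Filter Topology
open Crest.ProbabilityR.SpanningTrees

section generic

variable {V : Type*}

/-- increasing cylinder events -/
def upSet (F : Finset V) : Set (V → Bool) := {x | ∀ e ∈ F, x e = true}

lemma measurableSet_upSet (F : Finset V) : MeasurableSet (upSet F) := by
  have : upSet F = ⋂ i ∈ F, {ω : V → Bool | ω i = true} := by
    ext ω; simp [upSet]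
  rw [this]
  exact Finset.measurableSet_biInter _ fun i _ => meas_true (measurable_pi_apply i)

lemma isClopen_upSet (F : Finset V) : IsClopen (upSet F) := by
  have : upSet F = ⋂ i ∈ F, (fun ω : V → Bool => ω i) ⁻¹' {true} := by
    ext ω; simp [upSet]
  rw [this]
  exact isClopen_biInter_finset fun i _ => (isClopen_discrete {true}).preimage (continuous_apply i)

/-- laws are determined by increasing cylinder events -/
lemma ext_upSet (μ ν : Measure (V → Bool)) [IsProbabilityMeasure μ] [IsProbabilityMeasure ν]
    (h : ∀ F : Finset V, μ (upSet F) = ν (upSet F)) : μ = ν := by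
  classical
  have hgen : (inferInstance : MeasurableSpace (V → Bool))
      = MeasurableSpace.generateFrom (range (upSet (V := V))) := by
    apply le_antisymm
    · refine iSup_le fun v => ?_
      rw [← measurable_iff_comap_le]
      refine @measurable_to_bool _ (_) _ ?_
      have : (fun a : V → Bool => a v) ⁻¹' {true} = upSet {v} := by
        ext x; simp [upSet]
      rw [this]
      exact MeasurableSpace.measurableSet_generateFrom ⟨{v}, rfl⟩
    · refine MeasurableSpace.generateFrom_le ?_
      rintro _ ⟨F, rfl⟩
      exact measurableSet_upSet F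
  refine ext_of_generate_finite _ hgen ?_ ?_ (by simp)
  · rintro _ ⟨F, rfl⟩ _ ⟨F', rfl⟩ _
    refine ⟨F ∪ F', ?_⟩
    ext x
    simp only [upSet, mem_ofPred_eq, mem_inter_iff, Finset.mem_union]
    constructor
    · intro h; exact ⟨fun e he => h e (Or.inl he), fun e he => h e (Or.inr he)⟩
    · rintro ⟨h1, h2⟩ e (he | he)
      · exact h1 e he
      · exact h2 e he
  · rintro _ ⟨F, rfl⟩
    exact h F

/-- law with given masses -/
noncomputable def mOf (E : Finset V) (m : Finset V → ℝ) (Z : ℝ) : Measure (V → Bool) :=
  haveI := Classical.decEq V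
  ∑ A ∈ E.powerset, ENNReal.ofReal (m A / Z) • Measure.dirac (fun i => decide (i ∈ A))

variable [DecidableEq V]

lemma mOf_upSet (E : Finset V) (m : Finset V → ℝ) (hm : ∀ S, 0 ≤ m S) (hZ : 0 < up E m ∅)
    (F : Finset V) : mOf E m (up E m ∅) (upSet F) = ENNReal.ofReal (up E m F / up E m ∅) := by
  unfold mOf
  rw [Measure.finset_sum_apply]
  simp only [Measure.smul_apply, smul_eq_mul]
  have h1 : ∀ A : Finset V, Measure.dirac (fun i => decide (i ∈ A)) (upSet F) = if F ⊆ A then 1 else 0 := by
    intro A
    rw [Measure.dirac_apply' _ (measurableSet_upSet F)]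
    unfold upSet indicator
    simp only [mem_ofPred_eq, decide_eq_true_eq, Pi.one_apply]
    congr 1
  have h2 : up E m F / up E m ∅ = ∑ A ∈ E.powerset, (if F ⊆ A then m A / up E m ∅ else 0) := by
    conv_lhs => rw [show up E m F = ∑ S ∈ E.powerset, if F ⊆ S then m S else 0 from rfl]
    rw [Finset.sum_div]
    refine Finset.sum_congr rfl fun A _ => ?_
    split_ifs <;> simp
  rw [h2, ENNReal.ofReal_sum_of_nonneg]
  · refine Finset.sum_congr rfl fun A _ => ?_
    have h3 := h1 A
    split_ifs with h4
    · rw [if_pos h4] at h3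
      convert mul_one _
      convert h3
    · rw [if_neg h4] at h3
      rw [ENNReal.ofReal_zero]
      convert mul_zero _
      convert h3
  · intro A _
    split_ifs
    · exact div_nonneg (hm A) hZ.le
    · exact le_rfl

lemma upSet_empty : upSet (∅ : Finset V) = univ := by
  ext x; simp [upSet]

lemma isProb_mOf (E : Finset V) (m : Finset V → ℝ) (hm : ∀ S, 0 ≤ m S) (hZ : 0 < up E m ∅) :
    IsProbabilityMeasure (mOf E m (up E m ∅)) := by
  refine ⟨?_⟩
  rw [← upSet_empty, mOf_upSet E m hm hZ, div_self hZ.ne', ENNReal.ofReal_one]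

lemma mass_mOf (E : Finset V) (m : Finset V → ℝ) (hm : ∀ S, 0 ≤ m S) (hZ : 0 < up E m ∅)
    (S : Finset V) (hS : S ∈ E.powerset) : mass (mOf E m (up E m ∅)) E S = m S / up E m ∅ := by
  have h1 : ∀ A ∈ E.powerset, Measure.dirac (fun i => decide (i ∈ A)) (cyl E S) = if A = S then 1 else 0 := by
    intro A hA
    rw [Measure.dirac_apply' _ (measurableSet_cyl E S)]
    unfold cyl indicator
    simp only [mem_ofPred_eq, decide_eq_true_eq, Pi.one_apply]
    have : (∀ i ∈ E, (i ∈ A ↔ i ∈ S)) ↔ A = S := by
      constructor
      · intro h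
        ext i
        constructor
        · intro hi; exact (h i (Finset.mem_powerset.1 hA hi)).1 hi
        · intro hi; exact (h i (Finset.mem_powerset.1 hS hi)).2 hi
      · rintro rfl; simp
    by_cases h : A = S
    · rw [if_pos (this.2 h), if_pos h]
    · rw [if_neg (fun h' => h (this.1 h')), if_neg h]
  have h2 : mOf E m (up E m ∅) (cyl E S) = ENNReal.ofReal (m S / up E m ∅) := by
    unfold mOf
    rw [Measure.finset_sum_apply, Finset.sum_eq_single S]
    · rw [Measure.smul_apply, smul_eq_mul]
      have h3 := h1 S hS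
      rw [if_pos rfl] at h3
      convert mul_one _
      convert h3
    · intro A hA hne
      rw [Measure.smul_apply, smul_eq_mul]
      have h3 := h1 A hA
      rw [if_neg hne] at h3
      convert mul_zero _
      convert h3
    · intro h
      exact absurd hS h
  unfold mass
  rw [h2, ENNReal.toReal_ofReal (div_nonneg (hm S) hZ.le)]

lemma up_div (E : Finset V) (m : Finset V → ℝ) (c : ℝ) (T : Finset V) :
    up E (fun S => m S / c) T = up E m T / c := by
  unfold up
  rw [Finset.sum_div]
  refine Finset.sum_congr rfl fun S _ => ?_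
  split_ifs <;> simp

/-- Lipschitz property for laws with strongly Rayleigh masses -/
lemma tmean_lip_mOf (E : Finset V) (m : Finset V → ℝ) (h : SRm E m) (F : Finset V) (v : V)
    (hF : insert v F ⊆ E) (Y Y' : V → ℝ) (δ : ℝ) (hδ : 0 ≤ δ) (hY : ∀ w ∈ F, |Y w - Y' w| ≤ δ) :
    |tmean (mOf E m (up E m ∅)) F v Y - tmean (mOf E m (up E m ∅)) F v Y'| ≤ 5/4 * δ := by
  haveI := isProb_mOf E m h.1 h.pos
  have key : ∀ Y : V → ℝ, tmean (mOf E m (up E m ∅)) F v Y = fmean E m v (fun w => if w ∈ F then Y w else 0) := by
    intro Y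
    rw [tmean_eq_fmean' _ F v E hF Y]
    unfold fmean
    have h1 : ∀ T, up E (tm E (mass (mOf E m (up E m ∅)) E) (fun w => if w ∈ F then Y w else 0)) T
        = up E (tm E m (fun w => if w ∈ F then Y w else 0)) T / up E m ∅ := by
      intro T
      rw [← up_div]
      have hpt : ∀ S ∈ E.powerset, tm E (mass (mOf E m (up E m ∅)) E) (fun w => if w ∈ F then Y w else 0) S
          = tm E m (fun w => if w ∈ F then Y w else 0) S / up E m ∅ := by
        intro S hS
        unfold tm
        rw [mass_mOf E m h.1 h.pos S hS]
        ring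
      refine Finset.sum_congr rfl fun S hS => ?_
      rw [hpt S hS]
    rw [h1, h1, div_div_div_cancel_right₀ h.pos.ne']
  rw [key, key]
  refine h.lip (hF (Finset.mem_insert_self _ _)) _ _ δ ?_
  intro w _
  split_ifs with h1
  · exact hY w h1
  · simpa using hδ

/-- continuity of the tilt weights -/
lemma continuous_tw (F : Finset V) (Y : V → ℝ) : Continuous (tw F Y) := by
  unfold tw
  refine continuous_finsetProd _ fun w _ => ?_
  have : (fun x : V → Bool => if x w = true then Real.exp (Y w) else 1)
      = (fun b : Bool => if b = true then Real.exp (Y w) else 1) ∘ (fun x => x w) := rfl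
  rw [this]
  exact continuous_of_discreteTopology.comp (continuous_apply w)

lemma continuous_ite_tw (F : Finset V) (v : V) (Y : V → ℝ) :
    Continuous (fun x : V → Bool => if x v = true then tw F Y x else 0) := by
  have : (fun x : V → Bool => if x v = true then tw F Y x else 0)
      = fun x => (if x v = true then (1:ℝ) else 0) * tw F Y x := by
    funext x; split_ifs <;> simp
  rw [this]
  refine Continuous.mul ?_ (continuous_tw F Y)
  have : (fun x : V → Bool => if x v = true then (1:ℝ) else 0)
      = (fun b : Bool => if b = true then (1:ℝ) else 0) ∘ (fun x => x v) := rfl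
  rw [this]
  exact continuous_of_discreteTopology.comp (continuous_apply v)

lemma tw_pos (F : Finset V) (Y : V → ℝ) (x : V → Bool) : 0 < tw F Y x := by
  unfold tw
  refine Finset.prod_pos fun w _ => ?_
  split_ifs
  · exact Real.exp_pos _
  · exact one_pos

variable [Countable V]

lemma integral_tw_pos (ν : Measure (V → Bool)) [IsProbabilityMeasure ν] (F : Finset V) (Y : V → ℝ) :
    0 < ∫ x, tw F Y x ∂ν := by
  have hint : Integrable (tw F Y) ν := (BoundedContinuousFunction.mkOfCompact ⟨tw F Y, continuous_tw F Y⟩).integrable ν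
  rw [integral_pos_iff_support_of_nonneg (fun x => (tw_pos F Y x).le) hint]
  have : Function.support (tw F Y) = univ := by
    ext x; simp [(tw_pos F Y x).ne']
  rw [this]; simp

lemma tendsto_tmean {γ : Type*} {L : Filter γ} {μs : γ → ProbabilityMeasure (V → Bool)}
    {μ : ProbabilityMeasure (V → Bool)} (h : Tendsto μs L (𝓝 μ)) (F : Finset V) (v : V) (Y : V → ℝ) :
    Tendsto (fun i => tmean (μs i : Measure (V → Bool)) F v Y) L (𝓝 (tmean (μ : Measure (V → Bool)) F v Y)) := by
  rw [ProbabilityMeasure.tendsto_iff_forall_integral_tendsto] at h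
  unfold tmean
  refine Tendsto.div ?_ ?_ (integral_tw_pos _ F Y).ne'
  · exact h (BoundedContinuousFunction.mkOfCompact ⟨_, continuous_ite_tw F v Y⟩)
  · exact h (BoundedContinuousFunction.mkOfCompact ⟨_, continuous_tw F Y⟩)

end generic

end Crest.Agent.H5
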