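import Mathlib
import Crest.Agent.H5.Ust

set_option autoImplicit false

namespace Crest.Agent.H5

open MeasureTheory ProbabilityTheory Set Filter Topology
open Crest.ProbabilityR.SpanningTrees Crest.ProbabilityR.GraphTables

open Classical in
/-- terms of the infimum -/
noncomputable def cTerm (G : SimpleGraph ℕ) (F : Finset (Sym2 ℕ)) (S : Finset ℕ) : ℝ :=
  if (G.induce (S : Set ℕ)).Connected ∧ F ⊆ edgesIn G S then ustContains G S F else 1

/-- infimum of the marginals over finite connected pieces -/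
noncomputable def cG (G : SimpleGraph ℕ) (F : Finset (Sym2 ℕ)) : ℝ := ⨅ S : Finset ℕ, cTerm G F S

open Classical in
/-- marginals of the free uniform spanning forest -/
noncomputable def qG (G : SimpleGraph ℕ) (F : Finset (Sym2 ℕ)) : ℝ :=
  if (F : Set (Sym2 ℕ)) ⊆ G.edgeSet then cG G F else 0

lemma ust_nonneg (G : SimpleGraph ℕ) (S : Finset ℕ) (F : Finset (Sym2 ℕ)) : 0 ≤ ustContains G S F := by
  unfold ustContains
  positivity

lemma ust_le_one (G : SimpleGraph ℕ) (S : Finset ℕ) (F : Finset (Sym2 ℕ)) : ustContains G S F ≤ 1 := by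
  rw [ust_eq]
  exact div_le_one_of_le₀ (up_anti (tmass_nonneg G S) (Finset.empty_subset F)) (up_nonneg' (tmass_nonneg G S) _)

lemma cTerm_nonneg (G : SimpleGraph ℕ) (F : Finset (Sym2 ℕ)) (S : Finset ℕ) : 0 ≤ cTerm G F S := by
  unfold cTerm
  split_ifs
  · exact ust_nonneg G S F
  · exact zero_le_one

lemma bddBelow_cTerm (G : SimpleGraph ℕ) (F : Finset (Sym2 ℕ)) : BddBelow (range (cTerm G F)) :=
  ⟨0, by rintro _ ⟨S, rfl⟩; exact cTerm_nonneg G F S⟩

lemma ust_zero (G : SimpleGraph ℕ) (S : Finset ℕ) (F : Finset (Sym2 ℕ)) (hF : ¬ F ⊆ edgesIn G S) :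
    ustContains G S F = 0 := by
  rw [ust_eq]
  have : up (edgesIn G S) (tmass G S) F = 0 := by
    unfold up
    refine Finset.sum_eq_zero fun A hA => ?_
    rw [if_neg]
    exact fun h => hF (h.trans (Finset.mem_powerset.1 hA))
  rw [this, zero_div]

lemma eventually_subset {S : ℕ → Finset ℕ} (hm : Monotone S) (hx : ∀ v : ℕ, ∃ n, v ∈ S n) (T : Finset ℕ) :
    ∀ᶠ n in atTop, T ⊆ S n := by
  induction T using Finset.induction_on with
  | empty => exact Eventually.of_forall fun _ => Finset.empty_subset _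
  | insert a T _ ih =>
    obtain ⟨n, hn⟩ := hx a
    filter_upwards [ih, eventually_ge_atTop n] with k hk hk'
    exact Finset.insert_subset (hm hk' hn) hk

lemma eventually_edges (G : SimpleGraph ℕ) {S : ℕ → Finset ℕ} (hm : Monotone S)
    (hx : ∀ v : ℕ, ∃ n, v ∈ S n) (F : Finset (Sym2 ℕ)) (hF : (F : Set (Sym2 ℕ)) ⊆ G.edgeSet) :
    ∀ᶠ n in atTop, F ⊆ edgesIn G (S n) := by
  have h1 : ∀ e ∈ F, ∀ᶠ n in atTop, e ∈ edgesIn G (S n) := by
    intro e he
    have he' := hF he
    filter_upwards [eventually_subset hm hx {(ep e).1, (ep e).2}] with n hn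
    rw [← ep_eq e, mk_mem_edgesIn]
    rw [← ep_eq e, SimpleGraph.mem_edgeSet] at he'
    exact ⟨⟨hn (by simp), hn (by simp)⟩, he'⟩
  filter_upwards [(Finset.eventually_all F).2 h1] with n hn e he
  exact hn e he

/-- convergence of the marginals -/
lemma tendsto_ust (G : SimpleGraph ℕ) {S : ℕ → Finset ℕ} (hm : Monotone S) (hx : ∀ v : ℕ, ∃ n, v ∈ S n)
    (hc : ∀ n, (G.induce (S n : Set ℕ)).Connected) (F : Finset (Sym2 ℕ)) :
    Tendsto (fun n => ustContains G (S n) F) atTop (𝓝 (qG G F)) := by
  classical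
  by_cases hF : (F : Set (Sym2 ℕ)) ⊆ G.edgeSet
  · unfold qG
    rw [if_pos hF]
    rw [Metric.tendsto_atTop']
    intro ε hε
    have hex : ∃ T, cTerm G F T < cG G F + ε := by
      apply exists_lt_of_ciInf_lt
      unfold cG
      linarith
    obtain ⟨T, hT⟩ := hex
    have hev : ∀ᶠ n in atTop, F ⊆ edgesIn G (S n) ∧ T ⊆ S n :=
      (eventually_edges G hm hx F hF).and (eventually_subset hm hx T)
    obtain ⟨N, hN⟩ := eventually_atTop.1 hev
    refine ⟨N, fun n hn => ?_⟩
    obtain ⟨h1, h2⟩ := hN n hn.le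
    have hlow : cG G F ≤ ustContains G (S n) F := by
      have h3 := ciInf_le (bddBelow_cTerm G F) (S n)
      have h4 : cTerm G F (S n) = ustContains G (S n) F := by
        unfold cTerm
        rw [if_pos ⟨hc n, h1⟩]
      rw [h4] at h3
      exact h3
    have hupp : ustContains G (S n) F ≤ cTerm G F T := by
      unfold cTerm
      split_ifs with h3
      · exact ust_mono G (S n) (hc n) _ T h2 rfl h3.1 F h3.2
      · exact ust_le_one _ _ _
    rw [Real.dist_eq, abs_lt]
    constructor <;> linarith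
  · unfold qG
    rw [if_neg hF]
    have : (fun n => ustContains G (S n) F) = fun _ => 0 := by
      funext n
      apply ust_zero
      intro h
      exact hF fun e he => ((mem_edgesIn G _ e).1 (h he)).2
    rw [this]
    exact tendsto_const_nhds

/-- existence of the free uniform spanning forest law -/
theorem exists_fusf {G : SimpleGraph ℕ} (hG : Nice G) : ∃ ν : Measure (Sym2 ℕ → Bool),
    IsProbabilityMeasure ν ∧ (∀ F, ν (upSet F) = ENNReal.ofReal (qG G F)) ∧ TiltLip ν G.edgeSet (5/4) := by
  obtain ⟨S, hm, hx, hc⟩ := hG.exists_exhaustion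
  have hsr := fun n => srm_tree G (S n) (hc n)
  let μs : ℕ → ProbabilityMeasure (Sym2 ℕ → Bool) := fun n =>
    ⟨mOf (edgesIn G (S n)) (tmass G (S n)) (up (edgesIn G (S n)) (tmass G (S n)) ∅),
      isProb_mOf _ _ (hsr n).1 (hsr n).pos⟩
  obtain ⟨μ, -, hμ⟩ := (isCompact_univ (X := ProbabilityMeasure (Sym2 ℕ → Bool))).ultrafilter_le_nhds
    ((hyperfilter ℕ).map μs) (by simp)
  have hlim : Tendsto μs (hyperfilter ℕ : Filter ℕ) (𝓝 μ) := hμ
  have hle : (hyperfilter ℕ : Filter ℕ) ≤ atTop := by
    rw [← Nat.cofinite_eq_atTop]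
    exact hyperfilter_le_cofinite
  refine ⟨(μ : Measure (Sym2 ℕ → Bool)), inferInstance, fun F => ?_, ?_⟩
  · have h1 := ProbabilityMeasure.tendsto_measure_of_isClopen_of_tendsto hlim (isClopen_upSet F)
    have h2 : Tendsto (fun n => ((μs n (upSet F) : NNReal) : ℝ)) (hyperfilter ℕ : Filter ℕ)
        (𝓝 ((μ (upSet F) : NNReal) : ℝ)) := NNReal.tendsto_coe.2 h1
    have h3 : ∀ n, ((μs n (upSet F) : NNReal) : ℝ) = ustContains G (S n) F := by
      intro n
      have h4 := mOf_upSet (edgesIn G (S n)) (tmass G (S n)) (hsr n).1 (hsr n).pos F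
      rw [← ust_eq] at h4
      have h5 : ((μs n : Measure (Sym2 ℕ → Bool)) (upSet F)) = ENNReal.ofReal (ustContains G (S n) F) := h4
      show ((μs n : Measure (Sym2 ℕ → Bool)) (upSet F)).toNNReal.toReal = _
      rw [h5]
      exact ENNReal.toReal_ofReal (ust_nonneg _ _ _)
    have h4 : Tendsto (fun n => ((μs n (upSet F) : NNReal) : ℝ)) (hyperfilter ℕ : Filter ℕ) (𝓝 (qG G F)) := by
      simp_rw [h3]
      exact (tendsto_ust G hm hx hc F).mono_left hle
    have h5 := tendsto_nhds_unique h2 h4
    have h6 : (μ : Measure (Sym2 ℕ → Bool)) (upSet F) = ENNReal.ofReal ((μ (upSet F) : NNReal) : ℝ) := by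
      rw [ENNReal.ofReal_coe_nnreal]
      exact (ProbabilityMeasure.ennreal_coeFn_eq_coeFn_toMeasure μ (upSet F)).symm
    rw [h6, h5]
  · intro F v hv hF Y Y' δ hδ hY
    have hFv : ((insert v F : Finset (Sym2 ℕ)) : Set (Sym2 ℕ)) ⊆ G.edgeSet := by
      intro e he
      rw [Finset.mem_coe, Finset.mem_insert] at he
      rcases he with rfl | he
      · exact hv
      · exact hF e he
    have h1 : Tendsto (fun n => |tmean (μs n : Measure (Sym2 ℕ → Bool)) F v Y
        - tmean (μs n : Measure (Sym2 ℕ → Bool)) F v Y'|) (hyperfilter ℕ : Filter ℕ)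
        (𝓝 |tmean (μ : Measure (Sym2 ℕ → Bool)) F v Y - tmean (μ : Measure (Sym2 ℕ → Bool)) F v Y'|) :=
      ((tendsto_tmean hlim F v Y).sub (tendsto_tmean hlim F v Y')).abs
    refine le_of_tendsto h1 ?_
    apply hle
    filter_upwards [eventually_edges G hm hx (insert v F) hFv] with n hn
    exact tmean_lip_mOf _ _ (hsr n) F v hn Y Y' δ hδ hY

open Classical in
/-- the free uniform spanning forest law (a point mass when the graph is not nice) -/
noncomputable def fusf (G : SimpleGraph ℕ) : Measure (Sym2 ℕ → Bool) :=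
  if h : Nice G then (exists_fusf h).choose else Measure.dirac (fun _ => false)

instance isProb_fusf (G : SimpleGraph ℕ) : IsProbabilityMeasure (fusf G) := by
  unfold fusf
  split_ifs with h
  · exact (exists_fusf h).choose_spec.1
  · infer_instance

lemma fusf_upSet {G : SimpleGraph ℕ} (h : Nice G) (F : Finset (Sym2 ℕ)) :
    fusf G (upSet F) = ENNReal.ofReal (qG G F) := by
  unfold fusf
  rw [dif_pos h]
  exact (exists_fusf h).choose_spec.2.1 F

lemma fusf_tiltLip {G : SimpleGraph ℕ} (h : Nice G) : TiltLip (fusf G) G.edgeSet (5/4) := by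
  unfold fusf
  rw [dif_pos h]
  exact (exists_fusf h).choose_spec.2.2

/-- measurability of the marginals in the table -/
lemma measurable_qG (F : Finset (Sym2 ℕ)) :
    Measurable (fun A : ℕ → ℕ → Bool => qG (graphOfTable A) F) := by
  classical
  unfold qG
  refine Measurable.ite ?_ ?_ measurable_const
  · have : {A : ℕ → ℕ → Bool | (F : Set (Sym2 ℕ)) ⊆ (graphOfTable A).edgeSet}
        = ⋂ e ∈ F, {A | e ∈ (graphOfTable A).edgeSet} := by
      ext A
      simp only [mem_ofPred_eq, mem_iInter]
      exact Iff.rfl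
    rw [this]
    exact Finset.measurableSet_biInter _ fun e _ => measurableSet_edge e
  · unfold cG
    refine Measurable.iInf fun S => ?_
    let h : Finset (Sym2 ℕ) → ℝ := fun E => if (pieceG S E).Connected ∧ F ⊆ E then
            up E (fun A' => if A' ⊆ E ∧ (pieceG S A').IsTree then (1:ℝ) else 0) F
              / up E (fun A' => if A' ⊆ E ∧ (pieceG S A').IsTree then (1:ℝ) else 0) ∅ else 1
    have : (fun A : ℕ → ℕ → Bool => cTerm (graphOfTable A) F S)
        = fun A => h (edgesIn (graphOfTable A) S) := by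
      funext A
      have htm : tmass (graphOfTable A) S
          = fun A' => if A' ⊆ edgesIn (graphOfTable A) S ∧ (pieceG S A').IsTree then (1:ℝ) else 0 := by
        funext A'
        unfold tmass IsSpanningTreeOn pieceG
        congr
      simp only [h]
      unfold cTerm
      rw [ust_eq, pieceG_edgesIn, htm]
      congr
    rw [this]
    exact measurable_of_edgesIn S h

lemma measurable_fusf : Measurable (fun A : ℕ → ℕ → Bool => fusf (graphOfTable A)) := by
  classical
  have hgen : (inferInstance : MeasurableSpace (Sym2 ℕ → Bool))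
      = MeasurableSpace.generateFrom (range (upSet (V := Sym2 ℕ))) := by
    apply le_antisymm
    · refine iSup_le fun v => ?_
      rw [← measurable_iff_comap_le]
      refine @measurable_to_bool _ (_) _ ?_
      have : (fun a : Sym2 ℕ → Bool => a v) ⁻¹' {true} = upSet {v} := by
        ext x; simp [upSet]
      rw [this]
      exact MeasurableSpace.measurableSet_generateFrom ⟨{v}, rfl⟩
    · refine MeasurableSpace.generateFrom_le ?_
      rintro _ ⟨F, rfl⟩
      exact measurableSet_upSet F
  refine Measurable.measure_of_isPiSystem_of_isProbabilityMeasure hgen ?_ ?_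
  · rintro _ ⟨F, rfl⟩ _ ⟨F', rfl⟩ _
    refine ⟨F ∪ F', ?_⟩
    ext x
    simp only [upSet, mem_ofPred_eq, mem_inter_iff, Finset.mem_union]
    constructor
    · intro h; exact ⟨fun e he => h e (Or.inl he), fun e he => h e (Or.inr he)⟩
    · rintro ⟨h1, h2⟩ e (he | he)
      · exact h1 e he
      · exact h2 e he
  · rintro _ ⟨F, rfl⟩
    have : (fun A : ℕ → ℕ → Bool => fusf (graphOfTable A) (upSet F))
        = fun A => if Nice (graphOfTable A) then ENNReal.ofReal (qG (graphOfTable A) F)
          else (Measure.dirac (fun _ => false) : Measure (Sym2 ℕ → Bool)) (upSet F) := by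
      funext A
      split_ifs with h
      · exact fusf_upSet h F
      · unfold fusf
        rw [dif_neg h]
    rw [this]
    exact Measurable.ite measurableSet_nice (measurable_qG F).ennreal_ofReal measurable_const

end Crest.Agent.H5
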