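import Mathlib
import Crest.Agent.H5.Fusf

set_option autoImplicit false

namespace Crest.Agent.H5

open MeasureTheory ProbabilityTheory Set Filter Topology
open Crest.ProbabilityR.SpanningTrees Crest.ProbabilityR.GraphTables

/-- action on pairs -/
def symE (σ : Equiv.Perm ℕ) : Sym2 ℕ ≃ Sym2 ℕ where
  toFun := Sym2.map σ
  invFun := Sym2.map σ.symm
  left_inv e := by rw [Sym2.map_map]; simp
  right_inv e := by rw [Sym2.map_map]; simp

@[simp] lemma symE_mk (σ : Equiv.Perm ℕ) (x y : ℕ) : symE σ s(x, y) = s(σ x, σ y) := rfl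

lemma mem_edgeSet_comap (σ : Equiv.Perm ℕ) (G : SimpleGraph ℕ) (e : Sym2 ℕ) :
    e ∈ (G.comap ⇑σ).edgeSet ↔ symE σ e ∈ G.edgeSet := by
  induction e with
  | h x y => exact Iff.rfl

lemma comap_symm (σ : Equiv.Perm ℕ) (G : SimpleGraph ℕ) : (G.comap ⇑σ).comap ⇑σ.symm = G := by
  ext x y; simp

lemma mem_reach_comap (σ : Equiv.Perm ℕ) (G : SimpleGraph ℕ) (v n w : ℕ) :
    w ∈ reach (G.comap ⇑σ) v n ↔ σ w ∈ reach G (σ v) n := by
  induction n generalizing w with
  | zero =>
    show w ∈ ({v} : Set ℕ) ↔ σ w ∈ ({σ v} : Set ℕ)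
    simp
  | succ n ih =>
    rw [reach_succ, reach_succ, ih]
    refine or_congr Iff.rfl ?_
    constructor
    · rintro ⟨w', h1, h2⟩
      exact ⟨σ w', (ih w').1 h1, h2⟩
    · rintro ⟨w', h1, h2⟩
      refine ⟨σ.symm w', (ih _).2 (by simpa using h1), ?_⟩
      simpa using h2

lemma nice_comap_of (σ : Equiv.Perm ℕ) (G : SimpleGraph ℕ) (h : Nice G) : Nice (G.comap ⇑σ) := by
  refine ⟨⟨fun v w => ?_⟩, fun v => ?_⟩
  · rw [← exists_reach_iff]
    obtain ⟨n, hn⟩ := (exists_reach_iff G (σ v) (σ w)).2 (h.1.preconnected _ _)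
    exact ⟨n, (mem_reach_comap σ G v n w).2 hn⟩
  · have : (G.comap ⇑σ).neighborSet v = σ ⁻¹' G.neighborSet (σ v) := by
      ext w; simp
    rw [this]
    exact (h.2 (σ v)).preimage σ.injective.injOn

lemma nice_comap (σ : Equiv.Perm ℕ) (G : SimpleGraph ℕ) : Nice (G.comap ⇑σ) ↔ Nice G := by
  constructor
  · intro h
    have := nice_comap_of σ.symm _ h
    rwa [comap_symm] at this
  · exact nice_comap_of σ G

lemma edgesIn_comap (σ : Equiv.Perm ℕ) (G : SimpleGraph ℕ) (S : Finset ℕ) :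
    (edgesIn (G.comap ⇑σ) S).map (symE σ).toEmbedding = edgesIn G (S.map σ.toEmbedding) := by
  ext e
  rw [Finset.mem_map_equiv]
  obtain ⟨f, rfl⟩ := (symE σ).surjective e
  rw [Equiv.symm_apply_apply]
  induction f with
  | h x y =>
    rw [mk_mem_edgesIn, symE_mk, mk_mem_edgesIn]
    simp

/-- isomorphism of pieces -/
def pieceIso (σ : Equiv.Perm ℕ) (S : Finset ℕ) (A : Finset (Sym2 ℕ)) :
    pieceG S A ≃g pieceG (S.map σ.toEmbedding) (A.map (symE σ).toEmbedding) where
  toFun x := ⟨σ x, by simpa using x.2⟩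
  invFun x := ⟨σ.symm x, by
    have := x.2
    rw [Finset.mem_coe, Finset.mem_map_equiv] at this
    exact this⟩
  left_inv x := by simp
  right_inv x := by simp
  map_rel_iff' := by
    intro x y
    rw [pieceG_adj, pieceG_adj, Finset.mem_map_equiv]
    have : (symE σ).symm s((σ x : ℕ), (σ y : ℕ)) = s((x : ℕ), (y : ℕ)) := by
      rw [Equiv.symm_apply_eq]; rfl
    simp only [Equiv.coe_fn_mk]
    rw [this]
    simp

lemma connected_comap (σ : Equiv.Perm ℕ) (G : SimpleGraph ℕ) (S : Finset ℕ) :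
    ((G.comap ⇑σ).induce (S : Set ℕ)).Connected ↔ (G.induce ((S.map σ.toEmbedding : Finset ℕ) : Set ℕ)).Connected := by
  rw [← pieceG_edgesIn, ← pieceG_edgesIn, ← edgesIn_comap]
  exact (pieceIso σ S (edgesIn (G.comap ⇑σ) S)).connected_iff

lemma tmass_comap (σ : Equiv.Perm ℕ) (G : SimpleGraph ℕ) (S : Finset ℕ) (A : Finset (Sym2 ℕ)) :
    tmass (G.comap ⇑σ) S A = tmass G (S.map σ.toEmbedding) (A.map (symE σ).toEmbedding) := by
  have h : IsSpanningTreeOn (G.comap ⇑σ) S A
      ↔ IsSpanningTreeOn G (S.map σ.toEmbedding) (A.map (symE σ).toEmbedding) := by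
    unfold IsSpanningTreeOn
    rw [← edgesIn_comap, Finset.map_subset_map]
    exact and_congr Iff.rfl (pieceIso σ S A).isTree_iff
  unfold tmass
  by_cases h1 : IsSpanningTreeOn (G.comap ⇑σ) S A
  · rw [if_pos h1, if_pos (h.1 h1)]
  · rw [if_neg h1, if_neg (fun h' => h1 (h.2 h'))]

lemma up_comap (σ : Equiv.Perm ℕ) (G : SimpleGraph ℕ) (S : Finset ℕ) (F : Finset (Sym2 ℕ)) :
    up (edgesIn (G.comap ⇑σ) S) (tmass (G.comap ⇑σ) S) F
      = up (edgesIn G (S.map σ.toEmbedding)) (tmass G (S.map σ.toEmbedding)) (F.map (symE σ).toEmbedding) := by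
  unfold up
  rw [← edgesIn_comap]
  refine Finset.sum_equiv (Equiv.finsetCongr (symE σ)) ?_ ?_
  · intro A
    rw [Finset.mem_powerset, Finset.mem_powerset, Equiv.finsetCongr_apply, Finset.map_subset_map]
  · intro A _
    rw [Equiv.finsetCongr_apply, tmass_comap]
    simp only [Finset.map_subset_map]

lemma ust_comap (σ : Equiv.Perm ℕ) (G : SimpleGraph ℕ) (S : Finset ℕ) (F : Finset (Sym2 ℕ)) :
    ustContains (G.comap ⇑σ) S F = ustContains G (S.map σ.toEmbedding) (F.map (symE σ).toEmbedding) := by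
  rw [ust_eq, ust_eq, up_comap, up_comap]
  simp

lemma cTerm_comap (σ : Equiv.Perm ℕ) (G : SimpleGraph ℕ) (F : Finset (Sym2 ℕ)) (S : Finset ℕ) :
    cTerm (G.comap ⇑σ) F S = cTerm G (F.map (symE σ).toEmbedding) (S.map σ.toEmbedding) := by
  unfold cTerm
  rw [ust_comap]
  have h : ((G.comap ⇑σ).induce (S : Set ℕ)).Connected ∧ F ⊆ edgesIn (G.comap ⇑σ) S
      ↔ (G.induce ((S.map σ.toEmbedding : Finset ℕ) : Set ℕ)).Connected ∧
        F.map (symE σ).toEmbedding ⊆ edgesIn G (S.map σ.toEmbedding) := by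
    rw [connected_comap, ← edgesIn_comap, Finset.map_subset_map]
  by_cases h1 : ((G.comap ⇑σ).induce (S : Set ℕ)).Connected ∧ F ⊆ edgesIn (G.comap ⇑σ) S
  · rw [if_pos h1, if_pos (h.1 h1)]
  · rw [if_neg h1, if_neg (fun h' => h1 (h.2 h'))]

lemma qG_comap (σ : Equiv.Perm ℕ) (G : SimpleGraph ℕ) (F : Finset (Sym2 ℕ)) :
    qG (G.comap ⇑σ) F = qG G (F.map (symE σ).toEmbedding) := by
  have h1 : cG (G.comap ⇑σ) F = cG G (F.map (symE σ).toEmbedding) := by
    unfold cG
    exact (Equiv.finsetCongr σ).iInf_congr fun S => (cTerm_comap σ G F S).symm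
  have h2 : (F : Set (Sym2 ℕ)) ⊆ (G.comap ⇑σ).edgeSet
      ↔ ((F.map (symE σ).toEmbedding : Finset (Sym2 ℕ)) : Set (Sym2 ℕ)) ⊆ G.edgeSet := by
    constructor
    · intro h e he
      rw [Finset.mem_coe, Finset.mem_map_equiv] at he
      have := (mem_edgeSet_comap σ G _).1 (h he)
      simpa using this
    · intro h e he
      rw [mem_edgeSet_comap]
      apply h
      rw [Finset.mem_coe, Finset.mem_map_equiv]
      simpa using he
  unfold qG
  rw [h1]
  by_cases h3 : (F : Set (Sym2 ℕ)) ⊆ (G.comap ⇑σ).edgeSet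
  · rw [if_pos h3, if_pos (h2.1 h3)]
  · rw [if_neg h3, if_neg (fun h' => h3 (h2.2 h'))]

/-- equivariance of the forest law -/
lemma fusf_comap (σ : Equiv.Perm ℕ) (G : SimpleGraph ℕ) :
    fusf (G.comap ⇑σ) = (fusf G).map (fun x => x ∘ symE σ) := by
  have hmeas : Measurable (fun x : Sym2 ℕ → Bool => x ∘ symE σ) :=
    measurable_pi_iff.2 fun e => measurable_pi_apply _
  haveI : IsProbabilityMeasure ((fusf G).map (fun x => x ∘ symE σ)) :=
    Measure.isProbabilityMeasure_map hmeas.aemeasurable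
  by_cases h : Nice G
  · refine ext_upSet _ _ fun F => ?_
    rw [Measure.map_apply hmeas (measurableSet_upSet F), fusf_upSet ((nice_comap σ G).2 h), qG_comap]
    have : (fun x : Sym2 ℕ → Bool => x ∘ symE σ) ⁻¹' upSet F = upSet (F.map (symE σ).toEmbedding) := by
      ext x
      simp only [upSet, mem_preimage, mem_ofPred_eq, Function.comp]
      constructor
      · intro h e he
        rw [Finset.mem_map_equiv] at he
        have := h _ he
        simpa using this
      · intro h e he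
        apply h
        rw [Finset.mem_map_equiv]
        simpa using he
    rw [this, fusf_upSet h]
  · unfold fusf
    rw [dif_neg h, dif_neg (fun h' => h ((nice_comap σ G).1 h')), Measure.map_dirac' hmeas]
    rfl

end Crest.Agent.H5
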