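import Mathlib
import Crest.Agent.H5.Levy

set_option autoImplicit false

namespace Crest.Agent.H5

open MeasureTheory ProbabilityTheory unitInterval Set Filter Topology

variable {V : Type*}

lemma prec_trans {t : V → I} {i j k : V × ℕ} (h1 : prec t i j) (h2 : prec t j k) : prec t i k := by
  unfold prec at *
  rcases h1 with h1 | ⟨h1, h1'⟩ <;> rcases h2 with h2 | ⟨h2, h2'⟩
  · left; omega
  · left; omega
  · left; omega
  · right; exact ⟨by omega, h1'.trans h2'⟩

lemma not_prec_self (t : V → I) (j : V × ℕ) : ¬ prec t j j := by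
  unfold prec; simp

/-- resampling one coordinate -/
lemma map_update_noise [DecidableEq V] (a : V × ℕ) :
    ((noise V).prod (volume : Measure I)).map (fun q => Function.update q.1 a q.2) = noise V := by
  unfold noise
  refine Measure.eq_infinitePi _ fun s A hA => ?_
  have hm : Measurable (fun q : (V × ℕ → I) × I => Function.update q.1 a q.2) := by
    refine measurable_pi_iff.2 fun i => ?_
    by_cases h : i = a
    · subst h; simpa using measurable_snd
    · simp only [Function.update_of_ne h]; fun_prop
  rw [Measure.map_apply hm (MeasurableSet.pi s.countable_toSet fun i _ => hA i)]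
  by_cases has : a ∈ s
  · have hset : (fun q : (V × ℕ → I) × I => Function.update q.1 a q.2) ⁻¹' (s : Set (V × ℕ)).pi A
        = (((s.erase a : Finset (V × ℕ)) : Set (V × ℕ)).pi A) ×ˢ A a := by
      ext q
      simp only [mem_preimage, Set.mem_pi, Finset.mem_coe, mem_prod, Finset.mem_erase]
      constructor
      · intro h
        refine ⟨fun i hi => ?_, ?_⟩
        · have := h i hi.2
          rwa [Function.update_of_ne hi.1] at this
        · have := h a has
          rwa [Function.update_self] at this
      · rintro ⟨h1, h2⟩ i hi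
        by_cases hia : i = a
        · subst hia; rwa [Function.update_self]
        · rw [Function.update_of_ne hia]; exact h1 i ⟨hia, hi⟩
    rw [hset, Measure.prod_prod, Measure.infinitePi_pi _ (fun i _ => hA i), mul_comm,
      Finset.mul_prod_erase s (fun i => (volume : Measure I) (A i)) has]
  · have hset : (fun q : (V × ℕ → I) × I => Function.update q.1 a q.2) ⁻¹' (s : Set (V × ℕ)).pi A
        = ((s : Set (V × ℕ)).pi A) ×ˢ univ := by
      ext q
      simp only [mem_preimage, Set.mem_pi, Finset.mem_coe, mem_prod, mem_univ, and_true]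
      constructor
      · intro h i hi
        have hia : i ≠ a := fun h => has (h ▸ hi)
        have := h i hi
        rwa [Function.update_of_ne hia] at this
      · intro h i hi
        have hia : i ≠ a := fun h => has (h ▸ hi)
        rw [Function.update_of_ne hia]; exact h i hi
    rw [hset, Measure.prod_prod, Measure.infinitePi_pi _ (fun i _ => hA i), measure_univ, mul_one]

lemma obs_update [DecidableEq V] (E : Set V) (x : V → Bool) (ξ : V × ℕ → I) (a : V × ℕ) (u : I)
    (i : V × ℕ) (h : i ≠ a) : obs E x (Function.update ξ a u) i = obs E x ξ i := by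
  unfold obs
  rw [Function.update_of_ne h]

lemma past_obs_update [DecidableEq V] (E : Set V) (t : V → I) (x : V → Bool) (ξ : V × ℕ → I)
    (a : V × ℕ) (u : I) : past t a (obs E x (Function.update ξ a u)) = past t a (obs E x ξ) := by
  funext i
  unfold past
  by_cases h : prec t i a
  · rw [if_pos h, if_pos h, obs_update]
    rintro rfl
    exact not_prec_self t i h
  · rw [if_neg h, if_neg h]

lemma lintegral_resample [DecidableEq V] (ν : Measure (V → Bool)) [IsProbabilityMeasure ν] (a : V × ℕ)
    (H : (V → Bool) × (V × ℕ → I) → ENNReal) (hH : Measurable H) :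
    ∫⁻ ω, H ω ∂(jointLaw ν) = ∫⁻ ω, ∫⁻ u, H (ω.1, Function.update ω.2 a u) ∂(volume : Measure I) ∂(jointLaw ν) := by
  unfold jointLaw
  have hm : Measurable (fun q : (V × ℕ → I) × I => Function.update q.1 a q.2) := by
    refine measurable_pi_iff.2 fun i => ?_
    by_cases h : i = a
    · subst h; simpa using measurable_snd
    · simp only [Function.update_of_ne h]; fun_prop
  have hm2 : Measurable (fun q : ((V → Bool) × (V × ℕ → I)) × I => H (q.1.1, Function.update q.1.2 a q.2)) := by
    refine hH.comp ?_
    refine Measurable.prodMk (by fun_prop) ?_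
    exact hm.comp (by fun_prop : Measurable (fun q : ((V → Bool) × (V × ℕ → I)) × I => (q.1.2, q.2)))
  rw [lintegral_prod _ hH.aemeasurable, lintegral_prod _ (hm2.lintegral_prod_right').aemeasurable]
  refine lintegral_congr fun x => ?_
  have hHx : Measurable (fun ξ => H (x, ξ)) := hH.comp (measurable_const.prodMk measurable_id)
  have h1 : ∫⁻ ξ, H (x, ξ) ∂(noise V)
      = ∫⁻ q, H (x, Function.update q.1 a q.2) ∂((noise V).prod (volume : Measure I)) := by
    conv_lhs => rw [← map_update_noise (V := V) a]
    exact lintegral_map hHx hm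
  have h2 : Measurable (fun q : (V × ℕ → I) × I => H (x, Function.update q.1 a q.2)) := hHx.comp hm
  rw [h1, lintegral_prod _ h2.aemeasurable]

lemma integral_pull (ν : Measure (V → Bool)) [IsProbabilityMeasure ν] {E : Set V} {B : V → ℕ → Finset V}
    (hB : IsExh E B) (t : V → I) (a : V × ℕ) (ha : a.1 ∈ E)
    (W : (V → Bool) × (V × ℕ → I) → ℝ) (hW : Measurable[pastAlg E t a] W) (c : ℝ)
    (hb : ∀ ω, |W ω| ≤ c) :
    ∫ ω, W ω * spinInd a.1 ω ∂(jointLaw ν)
      = ∫ ω, W ω * (plim ν B t a (obsMap E ω) : ℝ) ∂(jointLaw ν) := by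
  have hle := pastAlg_le E t a
  have h1 := condExp_stronglyMeasurable_mul_of_bound (μ := jointLaw ν) hle (f := W) (g := spinInd a.1)
    hW.stronglyMeasurable (integrable_spinInd ν a.1) c (ae_of_all _ hb)
  have h2 : ∫ ω, (W * spinInd a.1) ω ∂(jointLaw ν)
      = ∫ ω, ((jointLaw ν)[W * spinInd a.1 | pastAlg E t a]) ω ∂(jointLaw ν) := by
    rw [integral_condExp hle]
  calc ∫ ω, W ω * spinInd a.1 ω ∂(jointLaw ν) = ∫ ω, (W * spinInd a.1) ω ∂(jointLaw ν) := rfl
    _ = _ := h2
    _ = ∫ ω, W ω * (plim ν B t a (obsMap E ω) : ℝ) ∂(jointLaw ν) := by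
        refine integral_congr_ae ?_
        filter_upwards [h1, (levy ν hB t a ha).2] with ω h1 h3
        rw [h1, Pi.mul_apply, ← h3]

/-- the innovations -/
noncomputable def innov (ν : Measure (V → Bool)) (E : Set V) (B : V → ℕ → Finset V) (t : V → I)
    (ω : (V → Bool) × (V × ℕ → I)) (j : V × ℕ) : I :=
  haveI := Classical.dec (j.1 ∈ E)
  if j.1 ∈ E then Fmap (plim ν B t j (obsMap E ω)) (obsMap E ω j) else 0

lemma measurable_Fmap_comp {α : Type*} [MeasurableSpace α] {f g : α → I}
    (hf : Measurable f) (hg : Measurable g) : Measurable (fun a => Fmap (f a) (g a)) :=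
  measurable_Fmap.comp (hf.prodMk hg)

lemma measurable_innov (ν : Measure (V → Bool)) [IsProbabilityMeasure ν] (E : Set V)
    (B : V → ℕ → Finset V) (t : V → I) (j : V × ℕ) : Measurable (fun ω => innov ν E B t ω j) := by
  unfold innov
  split_ifs
  · exact measurable_Fmap_comp ((measurable_plim ν B t j).comp (measurable_obsMap E))
      ((measurable_pi_apply j).comp (measurable_obsMap E))
  · fun_prop

lemma past_past {t : V → I} {i a : V × ℕ} (h : prec t i a) (z : V × ℕ → I) :
    past t i (past t a z) = past t i z := by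
  funext k
  unfold past
  by_cases hk : prec t k i
  · rw [if_pos hk, if_pos hk, if_pos (prec_trans hk h)]
  · rw [if_neg hk, if_neg hk]

/-- earlier innovations are measurable w.r.t. the past -/
lemma measurable_innov_past (ν : Measure (V → Bool)) [IsProbabilityMeasure ν] (E : Set V)
    (B : V → ℕ → Finset V) (t : V → I) (i a : V × ℕ) (h : i.1 ∈ E → prec t i a) :
    Measurable[pastAlg E t a] (fun ω => innov ν E B t ω i) := by
  by_cases hi : i.1 ∈ E
  · have hp := h hi
    have h1 : (fun ω => innov ν E B t ω i)
        = (fun z : V × ℕ → I => Fmap (plim ν B t i z) (z i)) ∘ (fun ω => past t a (obsMap E ω)) := by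
      funext ω
      simp only [innov, Function.comp]
      rw [if_pos hi, ← plim_past ν B t i (past t a (obsMap E ω)), past_past hp, plim_past]
      congr 1
      unfold past
      rw [if_pos hp]
    rw [h1]
    exact (measurable_Fmap_comp (measurable_plim ν B t i) (measurable_pi_apply i)).comp
      (comap_measurable _)
  · have h1 : (fun ω => innov ν E B t ω i) = fun ω => 0 := by
      funext ω
      simp only [innov]
      rw [if_neg hi]
    rw [h1]
    exact @measurable_const _ _ _ (_) _

lemma measurable_chLaw_preimage {A : Set I} (hA : MeasurableSet A) (b : Bool) :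
    Measurable (fun p : I => chLaw b (Fmap p ⁻¹' A)) := by
  have : (fun p : I => chLaw b (Fmap p ⁻¹' A))
      = fun p => chLaw b (Prod.mk p ⁻¹' ((fun q : I × I => Fmap q.1 q.2) ⁻¹' A)) := rfl
  rw [this]
  exact measurable_measure_prodMk_left (measurable_Fmap hA)

/-- conditional uniformity of an innovation given the past -/
lemma innov_uniform (ν : Measure (V → Bool)) [IsProbabilityMeasure ν] {E : Set V} {B : V → ℕ → Finset V}
    (hB : IsExh E B) (t : V → I) (a : V × ℕ) (ha : a.1 ∈ E)
    (S : Set ((V → Bool) × (V × ℕ → I))) (hS : MeasurableSet[pastAlg E t a] S)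
    (A : Set I) (hA : MeasurableSet A) :
    jointLaw ν (S ∩ {ω | innov ν E B t ω a ∈ A}) = jointLaw ν S * volume A := by
  classical
  obtain ⟨C, hC, rfl⟩ := hS
  set S : Set ((V → Bool) × (V × ℕ → I)) := (fun ω => past t a (obsMap E ω)) ⁻¹' C with hSdef
  have hSm : MeasurableSet S := ((measurable_past t a).comp (measurable_obsMap E)) hC
  have hAm : MeasurableSet {ω | innov ν E B t ω a ∈ A} := (measurable_innov ν E B t a) hA
  rw [← lintegral_indicator_one (hSm.inter hAm),
    lintegral_resample ν a _ (measurable_one.indicator (hSm.inter hAm))]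
  have hinner : ∀ ω : (V → Bool) × (V × ℕ → I),
      ∫⁻ u, (S ∩ {ω | innov ν E B t ω a ∈ A}).indicator (1 : (V → Bool) × (V × ℕ → I) → ENNReal) (ω.1, Function.update ω.2 a u)
        ∂(volume : Measure I)
      = S.indicator (fun ω => chLaw (ω.1 a.1) (Fmap (plim ν B t a (obsMap E ω)) ⁻¹' A)) ω := by
    intro ω
    have hpast : ∀ u, past t a (obsMap E (ω.1, Function.update ω.2 a u)) = past t a (obsMap E ω) :=
      fun u => past_obs_update E t ω.1 ω.2 a u
    have hmem : ∀ u, ((ω.1, Function.update ω.2 a u) : (V → Bool) × (V × ℕ → I)) ∈ S ↔ ω ∈ S := by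
      intro u
      simp only [hSdef, mem_preimage, hpast]
    by_cases hω : ω ∈ S
    · rw [indicator_of_mem hω]
      have h1 : ∀ u, (S ∩ {ω | innov ν E B t ω a ∈ A}).indicator (1 : (V → Bool) × (V × ℕ → I) → ENNReal)
          (ω.1, Function.update ω.2 a u)
          = (hmap (ω.1 a.1) ⁻¹' (Fmap (plim ν B t a (obsMap E ω)) ⁻¹' A)).indicator 1 u := by
        intro u
        have h2 : innov ν E B t (ω.1, Function.update ω.2 a u) a
            = Fmap (plim ν B t a (obsMap E ω)) (hmap (ω.1 a.1) u) := by
          simp only [innov]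
          rw [if_pos ha, ← plim_past, hpast, plim_past]
          congr 1
          simp only [obsMap, obs]
          rw [if_pos ha, Function.update_self]
        simp only [indicator, mem_inter_iff, hmem, hω, true_and, mem_ofPred_eq, h2, mem_preimage,
          Pi.one_apply]
      simp_rw [h1]
      have hmF : Measurable (Fmap (plim ν B t a (obsMap E ω))) :=
        measurable_Fmap_comp measurable_const measurable_id
      rw [lintegral_indicator_one ((measurable_hmap _) (hmF hA)), ← map_hmap,
        Measure.map_apply (measurable_hmap _) (hmF hA)]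
    · rw [indicator_of_notMem hω]
      have h1 : ∀ u, (S ∩ {ω | innov ν E B t ω a ∈ A}).indicator (1 : (V → Bool) × (V × ℕ → I) → ENNReal)
          (ω.1, Function.update ω.2 a u) = 0 := by
        intro u
        rw [indicator_of_notMem]
        intro h
        exact hω ((hmem u).1 h.1)
      simp_rw [h1]
      simp
  simp_rw [hinner]
  -- now real integrals
  set θ : Bool → (V → Bool) × (V × ℕ → I) → ENNReal :=
    fun b ω => chLaw b (Fmap (plim ν B t a (obsMap E ω)) ⁻¹' A) with hθ
  have hθle : ∀ b ω, θ b ω ≤ 1 := fun b ω => prob_le_one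
  have hθm' : ∀ b, Measurable[pastAlg E t a] (θ b) := by
    intro b
    have : θ b = (fun z => chLaw b (Fmap (plim ν B t a z) ⁻¹' A)) ∘ (fun ω => past t a (obsMap E ω)) := by
      funext ω
      simp only [hθ, Function.comp, plim_past]
    rw [this]
    exact ((measurable_chLaw_preimage hA b).comp (measurable_plim ν B t a)).comp
      (comap_measurable _)
  have hSm' : MeasurableSet[pastAlg E t a] S := ⟨C, hC, rfl⟩
  have hθm : ∀ b, Measurable (θ b) := fun b => (hθm' b).mono (pastAlg_le E t a) le_rfl
  set P := jointLaw ν with hP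
  set p : (V → Bool) × (V × ℕ → I) → ℝ := fun ω => (plim ν B t a (obsMap E ω) : ℝ) with hp
  have hpm : Measurable p := measurable_subtype_coe.comp ((measurable_plim ν B t a).comp (measurable_obsMap E))
  have hp01 : ∀ ω, p ω ∈ Icc (0:ℝ) 1 := fun ω => (plim ν B t a (obsMap E ω)).2
  let g : Bool → (V → Bool) × (V × ℕ → I) → ℝ := fun b ω => S.indicator (fun ω => (θ b ω).toReal) ω
  have hg01 : ∀ b ω, g b ω ∈ Icc (0:ℝ) 1 := by
    intro b ω
    simp only [g, indicator]
    split_ifs
    · exact ⟨ENNReal.toReal_nonneg, ENNReal.toReal_le_of_le_ofReal zero_le_one (by simpa using hθle b ω)⟩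
    · simp
  have hgm' : ∀ b, Measurable[pastAlg E t a] (g b) := fun b =>
    ((ENNReal.measurable_toReal).comp (hθm' b)).indicator hSm'
  have hgm : ∀ b, Measurable (g b) := fun b => (hgm' b).mono (pastAlg_le E t a) le_rfl
  have hint : ∀ (f : (V → Bool) × (V × ℕ → I) → ℝ), Measurable f → (∀ ω, |f ω| ≤ 1) → Integrable f P := by
    intro f hf hb
    exact Integrable.of_bound hf.aestronglyMeasurable 1 (ae_of_all _ fun ω => by simpa using hb ω)
  have hmul1 : ∀ {x y : ℝ}, x ∈ Icc (0:ℝ) 1 → y ∈ Icc (0:ℝ) 1 → |x * y| ≤ 1 := by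
    intro x y hx hy
    rw [abs_of_nonneg (mul_nonneg hx.1 hy.1)]
    nlinarith [hx.1, hx.2, hy.1, hy.2]
  -- left side as a real integral
  have hL : ∀ ω, S.indicator (fun ω => chLaw (ω.1 a.1) (Fmap (plim ν B t a (obsMap E ω)) ⁻¹' A)) ω
      = ENNReal.ofReal (g true ω * spinInd a.1 ω + (g false ω - g false ω * spinInd a.1 ω)) := by
    intro ω
    simp only [g, indicator, spinInd]
    by_cases hω : ω ∈ S
    · simp only [hω, if_true]
      cases hx : ω.1 a.1
      · simp [hθ, ENNReal.ofReal_toReal (measure_ne_top _ _)]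
      · simp [hθ, ENNReal.ofReal_toReal (measure_ne_top _ _)]
    · simp [hω]
  have hR : ∀ ω, S.indicator (fun _ => volume A) ω
      = ENNReal.ofReal (g true ω * p ω + (g false ω - g false ω * p ω)) := by
    intro ω
    simp only [g, indicator]
    by_cases hω : ω ∈ S
    · simp only [hω, if_true]
      have := chLaw_mix (plim ν B t a (obsMap E ω)) hA
      rw [← this]
      have e : (θ true ω).toReal * p ω + ((θ false ω).toReal - (θ false ω).toReal * p ω)
          = p ω * (θ true ω).toReal + (1 - p ω) * (θ false ω).toReal := by ring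
      rw [e, ENNReal.ofReal_add (mul_nonneg (hp01 ω).1 ENNReal.toReal_nonneg)
        (mul_nonneg (by linarith [(hp01 ω).2]) ENNReal.toReal_nonneg),
        ENNReal.ofReal_mul (hp01 ω).1, ENNReal.ofReal_mul (by linarith [(hp01 ω).2]),
        ENNReal.ofReal_toReal (measure_ne_top _ _), ENNReal.ofReal_toReal (measure_ne_top _ _)]
    · simp [hω]
  have hL' : ∫⁻ ω, S.indicator (fun ω => chLaw (ω.1 a.1) (Fmap (plim ν B t a (obsMap E ω)) ⁻¹' A)) ω ∂P
      = ENNReal.ofReal (∫ ω, (g true ω * spinInd a.1 ω + (g false ω - g false ω * spinInd a.1 ω)) ∂P) := by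
    rw [ofReal_integral_eq_lintegral_ofReal]
    · exact lintegral_congr hL
    · refine Integrable.add (hint _ ((hgm true).mul (measurable_spinInd _)) fun ω => hmul1 (hg01 _ _) (spinInd_mem _ _)) ?_
      refine Integrable.sub (hint _ (hgm false) fun ω => ?_)
        (hint _ ((hgm false).mul (measurable_spinInd _)) fun ω => hmul1 (hg01 _ _) (spinInd_mem _ _))
      rw [abs_of_nonneg (hg01 _ _).1]; exact (hg01 _ _).2
    · refine ae_of_all _ fun ω => ?_
      have h1 := hg01 true ω
      have h2 := hg01 false ω
      have h3 := spinInd_mem a.1 ω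
      have : 0 ≤ g false ω * (1 - spinInd a.1 ω) := mul_nonneg h2.1 (by linarith [h3.2])
      have h4 : 0 ≤ g true ω * spinInd a.1 ω := mul_nonneg h1.1 h3.1
      show 0 ≤ g true ω * spinInd a.1 ω + (g false ω - g false ω * spinInd a.1 ω)
      linarith
  have hR' : P S * volume A
      = ENNReal.ofReal (∫ ω, (g true ω * p ω + (g false ω - g false ω * p ω)) ∂P) := by
    rw [ofReal_integral_eq_lintegral_ofReal]
    · rw [← lintegral_congr hR, lintegral_indicator_const hSm, mul_comm]
    · refine Integrable.add (hint _ ((hgm true).mul hpm) fun ω => hmul1 (hg01 _ _) (hp01 _)) ?_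
      refine Integrable.sub (hint _ (hgm false) fun ω => ?_)
        (hint _ ((hgm false).mul hpm) fun ω => hmul1 (hg01 _ _) (hp01 _))
      rw [abs_of_nonneg (hg01 _ _).1]; exact (hg01 _ _).2
    · refine ae_of_all _ fun ω => ?_
      have h1 := hg01 true ω
      have h2 := hg01 false ω
      have h3 := hp01 ω
      have : 0 ≤ g false ω * (1 - p ω) := mul_nonneg h2.1 (by linarith [h3.2])
      have h4 : 0 ≤ g true ω * p ω := mul_nonneg h1.1 h3.1
      show 0 ≤ g true ω * p ω + (g false ω - g false ω * p ω)
      linarith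
  rw [hL', hR']
  congr 1
  have hI1 : Integrable (fun ω => g true ω * spinInd a.1 ω) P :=
    hint _ ((hgm true).mul (measurable_spinInd _)) fun ω => hmul1 (hg01 _ _) (spinInd_mem _ _)
  have hI2 : Integrable (fun ω => g false ω) P :=
    hint _ (hgm false) fun ω => by rw [abs_of_nonneg (hg01 _ _).1]; exact (hg01 _ _).2
  have hI3 : Integrable (fun ω => g false ω * spinInd a.1 ω) P :=
    hint _ ((hgm false).mul (measurable_spinInd _)) fun ω => hmul1 (hg01 _ _) (spinInd_mem _ _)
  have hI4 : Integrable (fun ω => g true ω * p ω) P :=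
    hint _ ((hgm true).mul hpm) fun ω => hmul1 (hg01 _ _) (hp01 _)
  have hI5 : Integrable (fun ω => g false ω * p ω) P :=
    hint _ ((hgm false).mul hpm) fun ω => hmul1 (hg01 _ _) (hp01 _)
  have hI23 : Integrable (fun ω => g false ω - g false ω * spinInd a.1 ω) P := hI2.sub hI3
  have hI25 : Integrable (fun ω => g false ω - g false ω * p ω) P := hI2.sub hI5
  rw [integral_add hI1 hI23, integral_sub hI2 hI3, integral_add hI4 hI25,
    integral_sub hI2 hI5]
  have e1 := integral_pull ν hB t a ha (g true) (hgm' true) 1 (fun ω => by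
    rw [abs_of_nonneg (hg01 _ _).1]; exact (hg01 _ _).2)
  have e2 := integral_pull ν hB t a ha (g false) (hgm' false) 1 (fun ω => by
    rw [abs_of_nonneg (hg01 _ _).1]; exact (hg01 _ _).2)
  rw [e1, e2]

/-- label law with inactive sites switched off -/
noncomputable def siteLaw (E : Set V) (v : V) : Measure I :=
  haveI := Classical.dec (v ∈ E)
  if v ∈ E then volume else Measure.dirac 0

instance (E : Set V) (v : V) : IsProbabilityMeasure (siteLaw E v) := by
  unfold siteLaw; split_ifs <;> infer_instance

/-- the innovations are i.i.d. uniform on active sites -/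
lemma map_innov (ν : Measure (V → Bool)) [IsProbabilityMeasure ν] {E : Set V} {B : V → ℕ → Finset V}
    (hB : IsExh E B) (t : V → I) (ht : InjOn t E) :
    (jointLaw ν).map (fun ω => innov ν E B t ω) = Measure.infinitePi (fun j : V × ℕ => siteLaw E j.1) := by
  classical
  refine Measure.eq_infinitePi _ fun s A hA => ?_
  have hm : Measurable (fun ω => innov ν E B t ω) := measurable_pi_iff.2 (measurable_innov ν E B t)
  rw [Measure.map_apply hm (MeasurableSet.pi s.countable_toSet fun i _ => hA i)]
  have hpre : (fun ω => innov ν E B t ω) ⁻¹' (s : Set (V × ℕ)).pi A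
      = {ω | ∀ i ∈ s, innov ν E B t ω i ∈ A i} := by
    ext ω; simp [Set.mem_pi]
  rw [hpre]
  let key : V × ℕ → ℕ ×ₗ I := fun j => toLex (j.2, t j.1)
  induction s using Finset.induction_on_max_value key with
  | empty => simp
  | insert a s has hmax ih =>
    have ih' := ih (by
      ext ω; simp [Set.mem_pi])
    have hset : {ω | ∀ i ∈ insert a s, innov ν E B t ω i ∈ A i}
        = {ω | ∀ i ∈ s, innov ν E B t ω i ∈ A i} ∩ {ω | innov ν E B t ω a ∈ A a} := by
      ext ω
      simp only [Finset.mem_insert, forall_eq_or_imp, mem_ofPred_eq, mem_inter_iff]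
      tauto
    rw [hset, Finset.prod_insert has]
    by_cases ha : a.1 ∈ E
    · rw [innov_uniform ν hB t a ha _ _ (A a) (hA a), ih', mul_comm]
      · congr 1
        unfold siteLaw
        rw [if_pos ha]
      · have : {ω | ∀ i ∈ s, innov ν E B t ω i ∈ A i}
            = ⋂ i ∈ s, (fun ω => innov ν E B t ω i) ⁻¹' (A i) := by
          ext ω; simp
        rw [this]
        refine Finset.measurableSet_biInter _ fun i hi => ?_
        refine measurable_innov_past ν E B t i a (fun hiE => ?_) (hA i)
        have hne : i ≠ a := fun h => has (h ▸ hi)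
        have hle := hmax i hi
        simp only [key, Prod.Lex.toLex_le_toLex] at hle
        rcases hle with h | ⟨h1, h2⟩
        · left; exact h
        · right
          refine ⟨h1, lt_of_le_of_ne h2 fun h => hne ?_⟩
          exact Prod.ext (ht hiE ha h) h1
    · have h1 : ∀ ω, innov ν E B t ω a = 0 := by
        intro ω; simp only [innov]; rw [if_neg ha]
      by_cases h0 : (0 : I) ∈ A a
      · have : {ω | innov ν E B t ω a ∈ A a} = univ := by
          ext ω; simp [h1, h0]
        rw [this, inter_univ, ih']
        unfold siteLaw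
        rw [if_neg ha]
        simp [h0, hA a]
      · have : {ω | innov ν E B t ω a ∈ A a} = ∅ := by
          ext ω; simp [h1, h0]
        rw [this, inter_empty, measure_empty]
        unfold siteLaw
        rw [if_neg ha]
        simp [h0, hA a]

end Crest.Agent.H5
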