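import Mathlib
import Crest.Agent.H5.Innov
import Crest.Agent.H5.Tilt

set_option autoImplicit false

namespace Crest.Agent.H5

open MeasureTheory ProbabilityTheory unitInterval Set Filter Topology

variable {V : Type*}

/-- bit extraction -/
noncomputable def gbit (ζ : ℕ → I) : Bool :=
  decide (13/24 < limsup (fun n : ℕ => (∑ i ∈ Finset.range n, (ζ i : ℝ)) / n) atTop)

lemma measurable_gbit : Measurable gbit := by
  unfold gbit
  have h : Measurable (fun ζ : ℕ → I => limsup (fun n : ℕ => (∑ i ∈ Finset.range n, (ζ i : ℝ)) / n) atTop) := by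
    refine Measurable.limsup fun n => ?_
    fun_prop
  refine measurable_to_bool ?_
  have h2 : (fun ζ : ℕ → I => decide (13/24 < limsup (fun n : ℕ => (∑ i ∈ Finset.range n, (ζ i : ℝ)) / n) atTop)) ⁻¹' {true}
      = {ζ | 13/24 < limsup (fun n : ℕ => (∑ i ∈ Finset.range n, (ζ i : ℝ)) / n) atTop} := by
    ext ζ; simp
  rw [h2]
  exact measurableSet_lt measurable_const h

/-- the deterministic relation between innovations and observations -/
structure Sol (ν : Measure (V → Bool)) (E : Set V) (B : V → ℕ → Finset V) (t : V → I) (U : V × ℕ → I)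
    (x : V → Bool) (z : V × ℕ → I) : Prop where
  obs : ∀ j : V × ℕ, j.1 ∈ E → Tendsto (fun n => postn ν B t j n z) atTop (𝓝 (plim ν B t j z : ℝ)) ∧
    U j = Fmap (plim ν B t j z) (z j)
  off : ∀ j : V × ℕ, j.1 ∉ E → z j = 0
  bit : ∀ v ∈ E, x v = gbit (fun k => z (v, k))
  bitoff : ∀ v ∉ E, x v = false

lemma tilt_diff [DecidableEq V] {B : V → ℕ → Finset V} {t : V → I} {v : V} {k n : ℕ} {z z' : V × ℕ → I}
    {w : V} {Δ : ℝ} (hΔ : |Real.log ((z (w, k) : ℝ) + 1/2) - Real.log ((z' (w, k) : ℝ) + 1/2)| ≤ Δ)
    (hlow : ∀ l < k, z (w, l) = z' (w, l)) :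
    |tilt (Jn B t (v, k) n) z w - tilt (Jn B t (v, k) n) z' w| ≤ Δ := by
  have h0 : 0 ≤ Δ := (abs_nonneg _).trans hΔ
  unfold tilt
  rw [← Finset.sum_sub_distrib]
  by_cases hmem : (w, k) ∈ Jn B t (v, k) n
  · rw [Finset.sum_eq_single (w, k)]
    · exact hΔ
    · rintro ⟨a, l⟩ hal hne
      simp only [Finset.mem_filter] at hal
      obtain ⟨h1, h2⟩ := hal
      subst h2
      rw [mem_Jn] at h1
      have hlk : l ≠ k := fun h => hne (by rw [h])
      have : l < k := by
        rcases h1.2 with h | ⟨h, _⟩
        · exact h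
        · exact absurd h hlk
      rw [hlow l this, sub_self]
    · intro h
      exact absurd (by simp [hmem]) h
  · rw [Finset.sum_eq_zero]
    · simpa using h0
    · rintro ⟨a, l⟩ hal
      simp only [Finset.mem_filter] at hal
      obtain ⟨h1, h2⟩ := hal
      subst h2
      have hlk : l ≠ k := fun h => hmem (by subst h; exact h1)
      rw [mem_Jn] at h1
      have : l < k := by
        rcases h1.2 with h | ⟨h, _⟩
        · exact h
        · exact absurd h hlk
      rw [hlow l this, sub_self]

/-- uniqueness of solutions -/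
lemma sol_unique {ν : Measure (V → Bool)} {E : Set V} {B : V → ℕ → Finset V} (hB : IsExh E B)
    {K : ℝ} (hK0 : 0 ≤ K) (hK : K < 2) (hL : TiltLip ν E K) {t : V → I} {U : V × ℕ → I}
    {x x' : V → Bool} {z z' : V × ℕ → I} (h : Sol ν E B t U x z) (h' : Sol ν E B t U x' z') :
    x = x' ∧ z = z' := by
  classical
  have key : ∀ k, ∀ w ∈ E, z (w, k) = z' (w, k) := by
    intro k
    induction k using Nat.strong_induction_on with
    | _ k ih =>
      have step : ∀ m : ℕ, ∀ w ∈ E,
          |Real.log ((z (w, k) : ℝ) + 1/2) - Real.log ((z' (w, k) : ℝ) + 1/2)| ≤ 2 * (K/2)^m := by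
        intro m
        induction m with
        | zero =>
          intro w _
          refine (log_lip (z _).2 (z' _).2).trans ?_
          have h1 := (z (w, k)).2
          have h2 := (z' (w, k)).2
          have : |(z (w, k) : ℝ) - z' (w, k)| ≤ 1 := by
            rw [abs_le]; constructor <;> linarith [h1.1, h1.2, h2.1, h2.2]
          simpa using this
        | succ m ihm =>
          intro v hv
          obtain ⟨hp, hU⟩ := h.obs (v, k) hv
          obtain ⟨hp', hU'⟩ := h'.obs (v, k) hv
          have hpp : |(plim ν B t (v, k) z : ℝ) - plim ν B t (v, k) z'| ≤ K * (2 * (K/2)^m) := by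
            refine le_of_tendsto ((hp.sub hp').abs) (Eventually.of_forall fun n => ?_)
            unfold postn
            rw [postJ_eq_tmean, postJ_eq_tmean]
            refine hL _ _ hv ?_ _ _ _ (by positivity) ?_
            · intro w hw
              rw [Finset.mem_image] at hw
              obtain ⟨i, hi, rfl⟩ := hw
              exact Jn_sub hB t (v, k) hv n i hi
            · intro w hw
              rw [Finset.mem_image] at hw
              obtain ⟨i, hi, rfl⟩ := hw
              have hiE : i.1 ∈ E := Jn_sub hB t (v, k) hv n i hi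
              exact tilt_diff (ihm _ hiE) (fun l hl => ih l hl _ hiE)
          have hF : cdfFun (plim ν B t (v, k) z) (z (v, k)) = cdfFun (plim ν B t (v, k) z') (z' (v, k)) := by
            rw [← coe_Fmap, ← coe_Fmap, ← hU, ← hU']
          have h1 := cdf_stab (plim ν B t (v, k) z).2 (z (v, k)).2 (z' (v, k)).2 hF
          have h2 := log_lip (z (v, k)).2 (z' (v, k)).2
          calc _ ≤ 2 * |(z (v, k) : ℝ) - z' (v, k)| := h2
            _ ≤ 2 * (|(plim ν B t (v, k) z : ℝ) - plim ν B t (v, k) z'| / 4) := by gcongr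
            _ ≤ 2 * ((K * (2 * (K/2)^m)) / 4) := by gcongr
            _ = 2 * (K/2)^(m+1) := by ring
      intro w hw
      have hlim : Tendsto (fun m : ℕ => 2 * (K/2)^m) atTop (𝓝 (2 * 0)) :=
        (tendsto_pow_atTop_nhds_zero_of_lt_one (by linarith) (by linarith)).const_mul 2
      have h0 : |Real.log ((z (w, k) : ℝ) + 1/2) - Real.log ((z' (w, k) : ℝ) + 1/2)| ≤ 2 * 0 :=
        ge_of_tendsto hlim (Eventually.of_forall fun m => step m w hw)
      rw [mul_zero] at h0
      have h1 : Real.log ((z (w, k) : ℝ) + 1/2) = Real.log ((z' (w, k) : ℝ) + 1/2) := by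
        have := abs_nonpos_iff.1 h0
        linarith
      have hz := (z (w, k)).2.1
      have hz' := (z' (w, k)).2.1
      have h2 := Real.log_injOn_pos (show (z (w, k) : ℝ) + 1/2 ∈ Ioi (0:ℝ) by simp only [mem_Ioi]; linarith)
        (show (z' (w, k) : ℝ) + 1/2 ∈ Ioi (0:ℝ) by simp only [mem_Ioi]; linarith) h1
      exact Subtype.ext (by linarith)
  have hz : z = z' := by
    funext j
    by_cases hj : j.1 ∈ E
    · exact key j.2 j.1 hj
    · rw [h.off j hj, h'.off j hj]
  refine ⟨?_, hz⟩
  subst hz
  funext v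
  by_cases hv : v ∈ E
  · rw [h.bit v hv, h'.bit v hv]
  · rw [h.bitoff v hv, h'.bitoff v hv]

end Crest.Agent.H5
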