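import Mathlib
import Crest.Agent.H5.Sol

set_option autoImplicit false

namespace Crest.Agent.H5

open MeasureTheory ProbabilityTheory unitInterval Set Filter Topology

variable {V : Type*}

/-- measurably parametrised data -/
structure MDat (Ω : Type*) [MeasurableSpace Ω] (V : Type*) where
  ν : Ω → Measure (V → Bool)
  E : Ω → Set V
  B : Ω → V → ℕ → Finset V
  prob : ∀ ω, IsProbabilityMeasure (ν ω)
  meas_ν : Measurable ν
  meas_E : ∀ v, MeasurableSet {ω | v ∈ E ω}
  meas_B : ∀ v n w, MeasurableSet {ω | w ∈ B ω v n}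

namespace MDat

variable {Ω : Type*} [MeasurableSpace Ω]

/-- the kernel -/
def ker (D : MDat Ω V) : Kernel Ω (V → Bool) := ⟨D.ν, D.meas_ν⟩

instance (D : MDat Ω V) : IsMarkovKernel D.ker := ⟨D.prob⟩

lemma measurable_postJ_param (D : MDat Ω V) (J : Finset (V × ℕ)) (v : V) :
    Measurable (fun p : Ω × (J → I) => postJ (D.ν p.1) J v p.2) := by
  let κ : Kernel (Ω × (J → I)) (V → Bool) := D.ker.comap Prod.fst measurable_fst
  have hκ : ∀ p, κ p = D.ν p.1 := fun p => rfl
  unfold postJ
  refine Measurable.div ?_ ?_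
  · have h1 : Measurable (fun q : (Ω × (J → I)) × (V → Bool) => if q.2 v = true then wt J q.2 q.1.2 else 0) :=
      (measurable_ite_wt J v).comp (by fun_prop : Measurable (fun q : (Ω × (J → I)) × (V → Bool) => (q.2, q.1.2)))
    exact (h1.stronglyMeasurable.integral_kernel_prod_right' (κ := κ)).measurable
  · have h1 : Measurable (fun q : (Ω × (J → I)) × (V → Bool) => wt J q.2 q.1.2) :=
      (measurable_wt J).comp (by fun_prop : Measurable (fun q : (Ω × (J → I)) × (V → Bool) => (q.2, q.1.2)))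
    exact (h1.stronglyMeasurable.integral_kernel_prod_right' (κ := κ)).measurable

lemma measurableSet_prec (i j : V × ℕ) : MeasurableSet {t : V → I | prec t i j} := by
  unfold prec
  by_cases h1 : i.2 < j.2
  · simp [h1]
  · by_cases h2 : i.2 = j.2
    · simp only [h1, h2, lt_irrefl, true_and, false_or]
      exact measurableSet_lt (measurable_pi_apply _) (measurable_pi_apply _)
    · simp [h1, h2]

variable [Countable V]

lemma measurable_postn_param (D : MDat Ω V) (j : V × ℕ) (n : ℕ) :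
    Measurable (fun a : Ω × (V → I) × (V × ℕ → I) => postn (D.ν a.1) (D.B a.1) a.2.1 j n a.2.2) := by
  letI : MeasurableSpace (Finset (V × ℕ)) := ⊤
  haveI : MeasurableSingletonClass (Finset (V × ℕ)) := ⟨fun _ => trivial⟩
  have hN : Measurable (fun a : Ω × (V → I) × (V × ℕ → I) => Jn (D.B a.1) a.2.1 j n) := by
    refine measurable_to_countable' fun J0 => ?_
    have : (fun a : Ω × (V → I) × (V × ℕ → I) => Jn (D.B a.1) a.2.1 j n) ⁻¹' {J0}
        = ⋂ i, {a | i ∈ Jn (D.B a.1) a.2.1 j n ↔ i ∈ J0} := by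
      ext a
      simp only [mem_preimage, mem_singleton_iff, mem_iInter, mem_ofPred_eq, Finset.ext_iff]
    rw [this]
    refine MeasurableSet.iInter fun i => ?_
    have hi : MeasurableSet {a : Ω × (V → I) × (V × ℕ → I) | i ∈ Jn (D.B a.1) a.2.1 j n} := by
      have : {a : Ω × (V → I) × (V × ℕ → I) | i ∈ Jn (D.B a.1) a.2.1 j n}
          = (Prod.fst ⁻¹' {ω | i.1 ∈ D.B ω j.1 n}) ∩ ((fun a => a.2.1) ⁻¹' {t : V → I | prec t i j}) := by
        ext a
        simp only [mem_ofPred_eq, mem_Jn, mem_inter_iff, mem_preimage]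
      rw [this]
      exact (measurable_fst (D.meas_B _ _ _)).inter
        ((by fun_prop : Measurable (fun a : Ω × (V → I) × (V × ℕ → I) => a.2.1)) (measurableSet_prec i j))
    by_cases h : i ∈ J0
    · have : {a : Ω × (V → I) × (V × ℕ → I) | i ∈ Jn (D.B a.1) a.2.1 j n ↔ i ∈ J0}
          = {a | i ∈ Jn (D.B a.1) a.2.1 j n} := by ext a; simp [h]
      rw [this]; exact hi
    · have : {a : Ω × (V → I) × (V × ℕ → I) | i ∈ Jn (D.B a.1) a.2.1 j n ↔ i ∈ J0}
          = {a | i ∈ Jn (D.B a.1) a.2.1 j n}ᶜ := by ext a; simp [h]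
      rw [this]; exact hi.compl
  have hf : Measurable (fun q : Finset (V × ℕ) × (Ω × (V → I) × (V × ℕ → I)) =>
      postJ (D.ν q.2.1) q.1 j.1 (q.1.restrict q.2.2.2)) := by
    refine measurable_from_prod_countable_right fun J => ?_
    have h2 : Measurable (fun a : Ω × (V → I) × (V × ℕ → I) => (a.1, J.restrict a.2.2)) := by
      fun_prop
    exact (D.measurable_postJ_param J j.1).comp h2
  exact hf.comp (hN.prodMk measurable_id)

lemma measurable_plim_param (D : MDat Ω V) (j : V × ℕ) :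
    Measurable (fun a : Ω × (V → I) × (V × ℕ → I) => plim (D.ν a.1) (D.B a.1) a.2.1 j a.2.2) := by
  unfold plim
  refine continuous_projIcc.measurable.comp ?_
  exact Measurable.limsup (fun n => D.measurable_postn_param j n)

/-- the solution set -/
def solSet (D : MDat Ω V) : Set ((Ω × (V → I) × (V × ℕ → I)) × ((V → Bool) × (V × ℕ → I))) :=
  {q | Sol (D.ν q.1.1) (D.E q.1.1) (D.B q.1.1) q.1.2.1 q.1.2.2 q.2.1 q.2.2}

lemma sol_iff {ν : Measure (V → Bool)} {E : Set V} {B : V → ℕ → Finset V} {t : V → I} {U : V × ℕ → I}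
    {x : V → Bool} {z : V × ℕ → I} : Sol ν E B t U x z ↔
      (∀ j : V × ℕ, j.1 ∈ E → Tendsto (fun n => postn ν B t j n z) atTop (𝓝 (plim ν B t j z : ℝ)) ∧
        U j = Fmap (plim ν B t j z) (z j)) ∧
      (∀ j : V × ℕ, j.1 ∉ E → z j = 0) ∧ (∀ v ∈ E, x v = gbit (fun k => z (v, k))) ∧
      (∀ v ∉ E, x v = false) :=
  ⟨fun h => ⟨h.obs, h.off, h.bit, h.bitoff⟩, fun h => ⟨h.1, h.2.1, h.2.2.1, h.2.2.2⟩⟩

lemma measurableSet_imp {α : Type*} [MeasurableSpace α] {p q : α → Prop} (hp : MeasurableSet {a | p a})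
    (hq : MeasurableSet {a | q a}) : MeasurableSet {a | p a → q a} := by
  have : {a | p a → q a} = {a | p a}ᶜ ∪ {a | q a} := by
    ext a; simp only [mem_ofPred_eq, mem_union, mem_compl_iff]; tauto
  rw [this]
  exact hp.compl.union hq

lemma measurableSet_solSet (D : MDat Ω V) : MeasurableSet D.solSet := by
  have e : D.solSet =
      (⋂ j : V × ℕ, {q | j.1 ∈ D.E q.1.1 →
        (Tendsto (fun n => postn (D.ν q.1.1) (D.B q.1.1) q.1.2.1 j n q.2.2) atTop
          (𝓝 (plim (D.ν q.1.1) (D.B q.1.1) q.1.2.1 j q.2.2 : ℝ)) ∧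
          q.1.2.2 j = Fmap (plim (D.ν q.1.1) (D.B q.1.1) q.1.2.1 j q.2.2) (q.2.2 j))}) ∩
      (⋂ j : V × ℕ, {q | j.1 ∉ D.E q.1.1 → q.2.2 j = 0}) ∩
      (⋂ v : V, {q | v ∈ D.E q.1.1 → q.2.1 v = gbit (fun k => q.2.2 (v, k))}) ∩
      (⋂ v : V, {q | v ∉ D.E q.1.1 → q.2.1 v = false}) := by
    ext q
    simp only [solSet, mem_ofPred_eq, sol_iff, mem_inter_iff, mem_iInter, and_assoc]
  rw [e]
  have hE : ∀ v, MeasurableSet {q : (Ω × (V → I) × (V × ℕ → I)) × ((V → Bool) × (V × ℕ → I)) | v ∈ D.E q.1.1} :=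
    fun v => (by fun_prop : Measurable (fun q : (Ω × (V → I) × (V × ℕ → I)) × ((V → Bool) × (V × ℕ → I)) => q.1.1)) (D.meas_E v)
  have hproj : Measurable (fun q : (Ω × (V → I) × (V × ℕ → I)) × ((V → Bool) × (V × ℕ → I)) =>
      ((q.1.1, q.1.2.1, q.2.2) : Ω × (V → I) × (V × ℕ → I))) := by fun_prop
  refine ((MeasurableSet.iInter fun j => ?_).inter (MeasurableSet.iInter fun j => ?_) |>.inter
    (MeasurableSet.iInter fun v => ?_)).inter (MeasurableSet.iInter fun v => ?_)
  · refine measurableSet_imp (hE j.1) ?_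
    have hpn : ∀ n, Measurable (fun q : (Ω × (V → I) × (V × ℕ → I)) × ((V → Bool) × (V × ℕ → I)) =>
        postn (D.ν q.1.1) (D.B q.1.1) q.1.2.1 j n q.2.2) :=
      fun n => (D.measurable_postn_param j n).comp hproj
    have hpl : Measurable (fun q : (Ω × (V → I) × (V × ℕ → I)) × ((V → Bool) × (V × ℕ → I)) =>
        plim (D.ν q.1.1) (D.B q.1.1) q.1.2.1 j q.2.2) := by
      have := (D.measurable_plim_param j).comp hproj
      simp only [Function.comp_def] at this
      exact this
    have hplr : Measurable (fun q : (Ω × (V → I) × (V × ℕ → I)) × ((V → Bool) × (V × ℕ → I)) =>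
        (plim (D.ν q.1.1) (D.B q.1.1) q.1.2.1 j q.2.2 : ℝ)) := by
      have := measurable_subtype_coe.comp hpl
      simp only [Function.comp_def] at this
      exact this
    have hq : Measurable (fun q : (Ω × (V → I) × (V × ℕ → I)) × ((V → Bool) × (V × ℕ → I)) =>
        q.2.2 j) := by fun_prop
    have hU : Measurable (fun q : (Ω × (V → I) × (V × ℕ → I)) × ((V → Bool) × (V × ℕ → I)) =>
        q.1.2.2 j) := by fun_prop
    have h1 : MeasurableSet {q : (Ω × (V → I) × (V × ℕ → I)) × ((V → Bool) × (V × ℕ → I)) |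
        Tendsto (fun n => postn (D.ν q.1.1) (D.B q.1.1) q.1.2.1 j n q.2.2) atTop
          (𝓝 (plim (D.ν q.1.1) (D.B q.1.1) q.1.2.1 j q.2.2 : ℝ))} :=
      measurableSet_tendsto_fun hpn hplr
    have h2 : MeasurableSet {q : (Ω × (V → I) × (V × ℕ → I)) × ((V → Bool) × (V × ℕ → I)) |
        q.1.2.2 j = Fmap (plim (D.ν q.1.1) (D.B q.1.1) q.1.2.1 j q.2.2) (q.2.2 j)} :=
      measurableSet_eq_fun hU (measurable_Fmap_comp hpl hq)
    exact h1.inter h2
  · exact measurableSet_imp (hE j.1).compl (measurableSet_eq_fun (by fun_prop) measurable_const)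
  · refine measurableSet_imp (hE v) (measurableSet_eq_fun (by fun_prop) ?_)
    exact measurable_gbit.comp (by fun_prop)
  · exact measurableSet_imp (hE v).compl (measurableSet_eq_fun (by fun_prop) measurable_const)

end MDat

/-- Lusin-Souslin: a function with measurable graph-like set is measurable -/
lemma measurable_of_unique {X Y Z : Type*} [MeasurableSpace X] [StandardBorelSpace X]
    [MeasurableSpace Y] [StandardBorelSpace Y] [MeasurableSpace Z]
    (S : Set (X × Y)) (hS : MeasurableSet S) (huniq : ∀ x y y', (x, y) ∈ S → (x, y') ∈ S → y = y')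
    (π : Y → Z) (hπ : Measurable π) (f : X → Z) (z0 : Z) (hf : ∀ x y, (x, y) ∈ S → f x = π y)
    (hf0 : ∀ x, (∀ y, (x, y) ∉ S) → f x = z0) : Measurable f := by
  have him : ∀ C : Set Z, MeasurableSet C →
      MeasurableSet (Prod.fst '' (S ∩ {p : X × Y | π p.2 ∈ C})) := by
    intro C hC
    refine MeasurableSet.image_of_measurable_injOn (hS.inter ((hπ.comp measurable_snd) hC)) measurable_fst ?_
    rintro ⟨x, y⟩ h1 ⟨x', y'⟩ h2 (h : x = x')
    subst h
    rw [huniq x y y' h1.1 h2.1]
  have hdom : MeasurableSet (Prod.fst '' S) := by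
    have := him univ MeasurableSet.univ
    simpa using this
  intro C hC
  by_cases h0 : z0 ∈ C
  · have : f ⁻¹' C = Prod.fst '' (S ∩ {p : X × Y | π p.2 ∈ C}) ∪ (Prod.fst '' S)ᶜ := by
      ext x
      simp only [mem_preimage, mem_union, mem_image, mem_inter_iff, mem_ofPred_eq, Prod.exists,
        exists_and_right, exists_eq_right, mem_compl_iff, not_exists]
      constructor
      · intro h
        by_cases hx : ∃ y, (x, y) ∈ S
        · obtain ⟨y, hy⟩ := hx
          left; exact ⟨y, hy, by rwa [← hf x y hy]⟩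
        · right; exact fun y hy => hx ⟨y, hy⟩
      · rintro (⟨y, hy, h⟩ | h)
        · rwa [hf x y hy]
        · rwa [hf0 x h]
    rw [this]
    exact (him C hC).union hdom.compl
  · have : f ⁻¹' C = Prod.fst '' (S ∩ {p : X × Y | π p.2 ∈ C}) := by
      ext x
      simp only [mem_preimage, mem_image, mem_inter_iff, mem_ofPred_eq, Prod.exists,
        exists_and_right, exists_eq_right]
      constructor
      · intro h
        by_cases hx : ∃ y, (x, y) ∈ S
        · obtain ⟨y, hy⟩ := hx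
          exact ⟨y, hy, by rwa [← hf x y hy]⟩
        · exfalso
          rw [hf0 x (fun y hy => hx ⟨y, hy⟩)] at h
          exact h0 h
      · rintro ⟨y, hy, h⟩
        rwa [hf x y hy]
    rw [this]
    exact him C hC

end Crest.Agent.H5
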