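import Mathlib
import Crest.Agent.H5.Meas

set_option autoImplicit false

namespace Crest.Agent.H5

open MeasureTheory ProbabilityTheory unitInterval Set Filter Topology Function

variable {V : Type*}

/-- mean of an observation given the spin -/
noncomputable def chMean (b : Bool) : ℝ := if b = true then 7/12 else 1/2

lemma integral_chLaw (b : Bool) : ∫ z : I, (z : ℝ) ∂(chLaw b) = chMean b := by
  have h1 : (Iic (1 : I)) = univ := by ext z; simp [unitInterval.le_one']
  rw [integral_eq_lintegral_of_nonneg_ae (ae_of_all _ fun z => z.2.1) (by fun_prop)]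
  have h2 : ∫⁻ z : I, ENNReal.ofReal (z : ℝ) ∂(chLaw b)
      = ∫⁻ z : I, ENNReal.ofReal (dens b z * z) ∂(volume : Measure I) := by
    unfold chLaw
    rw [lintegral_withDensity_eq_lintegral_mul _ (by fun_prop) (by fun_prop)]
    refine lintegral_congr fun z => ?_
    rw [Pi.mul_apply, ← ENNReal.ofReal_mul (dens_pos b z).le]
  rw [h2]
  cases b
  · have h3 : ∀ z : I, dens false z * z = (fun z : ℝ => z) z := by intro z; simp [dens]
    simp_rw [h3]
    have := setLIntegral_Iic_I (fun z => z) (by fun_prop) (fun z hz => hz.1) 1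
    rw [h1, Measure.restrict_univ] at this
    rw [this, ENNReal.toReal_ofReal]
    · simp [chMean]
    · simp
  · have h3 : ∀ z : I, dens true z * z = (fun z : ℝ => (z + 1/2) * z) z := by intro z; simp [dens]
    simp_rw [h3]
    have := setLIntegral_Iic_I (fun z => (z + 1/2) * z) (by fun_prop)
      (fun z hz => mul_nonneg (by linarith [hz.1]) hz.1) 1
    rw [h1, Measure.restrict_univ] at this
    have h4 : ∫ z in (0:ℝ)..((1 : I) : ℝ), (z + 1/2) * z = 7/12 := by
      have : ∀ z : ℝ, (z + 1/2) * z = z^2 + z * (1/2) := by intro z; ring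
      simp_rw [this]
      rw [intervalIntegral.integral_add (by apply Continuous.intervalIntegrable; fun_prop)
        (by apply Continuous.intervalIntegrable; fun_prop), integral_pow]
      simp
      norm_num
    rw [this, h4, ENNReal.toReal_ofReal]
    · simp [chMean]
    · norm_num

lemma gbit_of_tendsto (ζ : ℕ → I) (b : Bool)
    (h : Tendsto (fun n : ℕ => (∑ i ∈ Finset.range n, (ζ i : ℝ)) / n) atTop (𝓝 (chMean b))) :
    gbit ζ = b := by
  unfold gbit
  rw [h.limsup_eq]
  cases b
  · simp only [chMean]; norm_num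
  · simp only [chMean]; norm_num

/-- the spin can be read off the observations -/
lemma ae_gbit (E : Set V) (x : V → Bool) (v : V) (hv : v ∈ E) :
    ∀ᵐ ξ ∂(noise V), gbit (fun k => obs E x ξ (v, k)) = x v := by
  let X : ℕ → (V × ℕ → I) → ℝ := fun k ξ => (hmap (x v) (ξ (v, k)) : ℝ)
  have hm : ∀ k, Measurable (X k) := by
    intro k
    have h1 : Measurable (fun ξ : V × ℕ → I => hmap (x v) (ξ (v, k))) :=
      (measurable_hmap _).comp (measurable_pi_apply _)
    exact measurable_subtype_coe.comp h1
  have hmap_eq : ∀ k, (noise V).map (X k) = (volume : Measure I).map (fun u => (hmap (x v) u : ℝ)) := by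
    intro k
    have h1 : X k = (fun u : I => (hmap (x v) u : ℝ)) ∘ (fun ξ : V × ℕ → I => ξ (v, k)) := rfl
    have h2 : Measurable (fun u : I => (hmap (x v) u : ℝ)) :=
      measurable_subtype_coe.comp (measurable_hmap _)
    rw [h1, ← Measure.map_map h2 (measurable_pi_apply (v, k))]
    unfold noise
    rw [Measure.infinitePi_map_eval]
  have hbd : ∀ k ξ, ‖X k ξ‖ ≤ 1 := by
    intro k ξ
    rw [Real.norm_of_nonneg (hmap (x v) (ξ (v, k))).2.1]
    exact (hmap (x v) (ξ (v, k))).2.2
  have hint : Integrable (X 0) (noise V) :=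
    Integrable.of_bound (hm 0).aestronglyMeasurable 1 (ae_of_all _ (hbd 0))
  have hindep : Pairwise ((fun f g => f ⟂ᵢ[noise V] g) on X) := by
    intro k l hkl
    have h1 : iIndepFun (fun (j : V × ℕ) (ξ : V × ℕ → I) => (hmap (x v) (ξ j) : ℝ)) (noise V) := by
      unfold noise
      exact iIndepFun_infinitePi (X := fun (j : V × ℕ) (u : I) => (hmap (x v) u : ℝ))
        (fun j => measurable_subtype_coe.comp (measurable_hmap _))
    exact h1.indepFun (show ((v, k) : V × ℕ) ≠ (v, l) from fun h => hkl (by simpa using h))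
  have hident : ∀ i, IdentDistrib (X i) (X 0) (noise V) (noise V) := by
    intro i
    exact ⟨(hm i).aemeasurable, (hm 0).aemeasurable, by rw [hmap_eq, hmap_eq]⟩
  have hmean : ∫ ξ, X 0 ξ ∂(noise V) = chMean (x v) := by
    have h1 : ∫ ξ, X 0 ξ ∂(noise V) = ∫ r, r ∂((noise V).map (X 0)) := by
      rw [integral_map (hm 0).aemeasurable (by fun_prop)]
    have h2 : ∫ z : I, (z : ℝ) ∂(chLaw (x v)) = ∫ r, r ∂((volume : Measure I).map (fun u => (hmap (x v) u : ℝ))) := by
      have h3 : Measurable (fun u : I => (hmap (x v) u : ℝ)) :=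
        measurable_subtype_coe.comp (measurable_hmap _)
      rw [← map_hmap, integral_map (measurable_hmap _).aemeasurable (by fun_prop),
        integral_map h3.aemeasurable (by fun_prop)]
    rw [h1, hmap_eq, ← h2, integral_chLaw]
  have := strong_law_ae_real X hint hindep hident
  rw [hmean] at this
  filter_upwards [this] with ξ hξ
  refine gbit_of_tendsto _ _ ?_
  refine hξ.congr fun n => ?_
  congr 1
  refine Finset.sum_congr rfl fun k _ => ?_
  simp only [X, obs]
  rw [if_pos hv]

lemma ae_sol (ν : Measure (V → Bool)) [IsProbabilityMeasure ν] [Countable V] {E : Set V}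
    {B : V → ℕ → Finset V} (hB : IsExh E B) (hoff : ∀ v ∉ E, ν {x | x v = true} = 0) (t : V → I) :
    ∀ᵐ ω ∂(jointLaw ν), Sol ν E B t (innov ν E B t ω) ω.1 (obsMap E ω) := by
  have h1 : ∀ᵐ ω ∂(jointLaw ν), ∀ j : V × ℕ, j.1 ∈ E → Tendsto (fun n => postn ν B t j n (obsMap E ω)) atTop
      (𝓝 (plim ν B t j (obsMap E ω) : ℝ)) := by
    rw [ae_all_iff]
    intro j
    by_cases hj : j.1 ∈ E
    · filter_upwards [(levy ν hB t j hj).1] with ω hω _ using hω
    · exact ae_of_all _ fun ω h => absurd h hj
  have h2 : ∀ᵐ ω ∂(jointLaw ν), ∀ v ∈ E, ω.1 v = gbit (fun k => obsMap E ω (v, k)) := by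
    rw [ae_all_iff]
    intro v
    by_cases hv : v ∈ E
    · have hm : MeasurableSet {ω : (V → Bool) × (V × ℕ → I) | ω.1 v = gbit (fun k => obsMap E ω (v, k))} := by
        refine measurableSet_eq_fun (by fun_prop) (measurable_gbit.comp ?_)
        exact measurable_pi_iff.2 fun k => (measurable_pi_apply (v, k)).comp (measurable_obsMap E)
      have h3 : ∀ᵐ ω ∂(jointLaw ν), ω.1 v = gbit (fun k => obsMap E ω (v, k)) := by
        unfold jointLaw
        rw [Measure.ae_prod_iff_ae_ae hm]
        refine ae_of_all _ fun x => ?_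
        filter_upwards [ae_gbit E x v hv] with ξ hξ using hξ.symm
      filter_upwards [h3] with ω hω _ using hω
    · exact ae_of_all _ fun ω h => absurd h hv
  have h3 : ∀ᵐ ω ∂(jointLaw ν), ∀ v, v ∉ E → ω.1 v = false := by
    rw [ae_all_iff]
    intro v
    by_cases hv : v ∈ E
    · exact ae_of_all _ fun ω h => absurd hv h
    · have hm : MeasurableSet {ω : (V → Bool) × (V × ℕ → I) | ω.1 v = false} :=
        measurableSet_eq_fun (by fun_prop) measurable_const
      have h4 : ∀ᵐ ω ∂(jointLaw ν), ω.1 v = false := by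
        unfold jointLaw
        rw [Measure.ae_prod_iff_ae_ae hm]
        have h5 : ∀ᵐ x ∂ν, x v = false := by
          rw [ae_iff]
          simpa using hoff v hv
        filter_upwards [h5] with x hx
        exact ae_of_all _ fun _ => hx
      filter_upwards [h4] with ω hω _ using hω
  filter_upwards [h1, h2, h3] with ω h1 h2 h3
  refine ⟨fun j hj => ⟨h1 j hj, ?_⟩, fun j hj => ?_, h2, h3⟩
  · simp only [innov]
    rw [if_pos hj]
  · simp only [obsMap, obs]
    rw [if_neg hj]

/-- times are a.s. distinct -/
lemma ae_injOn [Countable V] (E : Set V) :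
    ∀ᵐ t ∂(Measure.infinitePi (siteLaw E)), InjOn t E := by
  have h : ∀ᵐ t ∂(Measure.infinitePi (siteLaw E)), ∀ v w : V, v ∈ E → w ∈ E → v ≠ w → t v ≠ t w := by
    rw [ae_all_iff]; intro v
    rw [ae_all_iff]; intro w
    by_cases hv : v ∈ E
    · by_cases hw : w ∈ E
      · by_cases hvw : v = w
        · exact ae_of_all _ fun t _ _ h => absurd hvw h
        · have h1 := Measure.infinitePi_map_eval_prod (P := siteLaw E) hvw
          have h2 : siteLaw E v = volume := by unfold siteLaw; rw [if_pos hv]
          have h3 : siteLaw E w = volume := by unfold siteLaw; rw [if_pos hw]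
          rw [h2, h3] at h1
          have h4 : ((volume : Measure I).prod (volume : Measure I)) {p | p.1 = p.2} = 0 := by
            rw [Measure.measure_prod_null (measurableSet_eq_fun measurable_fst measurable_snd)]
            refine ae_of_all _ fun a => ?_
            have : (Prod.mk a ⁻¹' {p : I × I | p.1 = p.2}) = {a} := by
              ext b; simp [eq_comm]
            show ((volume : Measure I)) (Prod.mk a ⁻¹' {p : I × I | p.1 = p.2}) = 0
            rw [this]
            simp
          rw [← h1, Measure.map_apply (by fun_prop) (measurableSet_eq_fun measurable_fst measurable_snd)] at h4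
          have h5 : ∀ᵐ t ∂(Measure.infinitePi (siteLaw E)), ¬ (t v = t w) := by
            rw [ae_iff]
            simpa using h4
          filter_upwards [h5] with t ht _ _ _ using ht
      · exact ae_of_all _ fun t _ h => absurd h hw
    · exact ae_of_all _ fun t h => absurd h hv
  filter_upwards [h] with t ht v hv w hw hvw
  by_contra hne
  exact ht v w hv hw hne hvw

end Crest.Agent.H5
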