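import Mathlib
import Crest.Agent.H5.Exist

set_option autoImplicit false

namespace Crest.Agent.H5

open MeasureTheory ProbabilityTheory unitInterval Set Filter Topology Function

variable {V : Type*}

section transport

variable (e : V ≃ V)

/-- the induced permutation of observations -/
def eobs (e : V ≃ V) : V × ℕ ≃ V × ℕ := Equiv.prodCongr e (Equiv.refl ℕ)

@[simp] lemma eobs_apply (e : V ≃ V) (j : V × ℕ) : eobs e j = (e j.1, j.2) := rfl

lemma wt_transport {J J' : Finset (V × ℕ)} (hJ : ∀ i, i ∈ J' ↔ eobs e i ∈ J) (x : V → Bool) (z : V × ℕ → I) :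
    wt J' (x ∘ e) (J'.restrict (z ∘ eobs e)) = wt J x (J.restrict z) := by
  rw [wt_restrict, wt_restrict]
  refine Finset.prod_equiv (eobs e) (fun i => hJ i) fun i _ => ?_
  rfl

lemma measurable_comp_equiv {β : Type*} [MeasurableSpace β] (e : V ≃ V) :
    Measurable (fun x : V → β => x ∘ e) :=
  measurable_pi_iff.2 fun v => measurable_pi_apply (e v)

lemma postJ_transport {ν ν' : Measure (V → Bool)} (hν : ν' = ν.map (fun x => x ∘ e))
    {J J' : Finset (V × ℕ)} (hJ : ∀ i, i ∈ J' ↔ eobs e i ∈ J) (v : V) (z : V × ℕ → I) :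
    postJ ν' J' v (J'.restrict (z ∘ eobs e)) = postJ ν J (e v) (J.restrict z) := by
  unfold postJ
  rw [hν]
  congr 1
  · rw [integral_map (measurable_comp_equiv e).aemeasurable]
    · simp_rw [wt_transport e hJ]
      rfl
    · exact ((measurable_ite_wt J' v).comp (measurable_id.prodMk measurable_const)).aestronglyMeasurable
  · rw [integral_map (measurable_comp_equiv e).aemeasurable]
    · simp_rw [wt_transport e hJ]
    · exact (measurable_wt_left J' _).aestronglyMeasurable

lemma Jn_transport {B B' : V → ℕ → Finset V} (hB : ∀ v n w, w ∈ B' v n ↔ e w ∈ B (e v) n)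
    (t : V → I) (j : V × ℕ) (n : ℕ) (i : V × ℕ) :
    i ∈ Jn B' (t ∘ e) j n ↔ eobs e i ∈ Jn B t (eobs e j) n := by
  rw [mem_Jn, mem_Jn, hB]
  rfl

lemma postn_transport {ν ν' : Measure (V → Bool)} (hν : ν' = ν.map (fun x => x ∘ e))
    {B B' : V → ℕ → Finset V} (hB : ∀ v n w, w ∈ B' v n ↔ e w ∈ B (e v) n)
    (t : V → I) (j : V × ℕ) (n : ℕ) (z : V × ℕ → I) :
    postn ν' B' (t ∘ e) j n (z ∘ eobs e) = postn ν B t (eobs e j) n z := by
  unfold postn
  exact postJ_transport e hν (Jn_transport e hB t j n) j.1 z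

lemma plim_transport {ν ν' : Measure (V → Bool)} (hν : ν' = ν.map (fun x => x ∘ e))
    {B B' : V → ℕ → Finset V} (hB : ∀ v n w, w ∈ B' v n ↔ e w ∈ B (e v) n)
    (t : V → I) (j : V × ℕ) (z : V × ℕ → I) :
    plim ν' B' (t ∘ e) j (z ∘ eobs e) = plim ν B t (eobs e j) z := by
  unfold plim
  simp_rw [postn_transport e hν hB]

lemma sol_transport {ν ν' : Measure (V → Bool)} (hν : ν' = ν.map (fun x => x ∘ e))
    {E E' : Set V} (hE : ∀ v, v ∈ E' ↔ e v ∈ E)
    {B B' : V → ℕ → Finset V} (hB : ∀ v n w, w ∈ B' v n ↔ e w ∈ B (e v) n)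
    {t : V → I} {U : V × ℕ → I} {x : V → Bool} {z : V × ℕ → I} (h : Sol ν E B t U x z) :
    Sol ν' E' B' (t ∘ e) (U ∘ eobs e) (x ∘ e) (z ∘ eobs e) := by
  refine ⟨fun j hj => ?_, fun j hj => ?_, fun v hv => ?_, fun v hv => ?_⟩
  · have := h.obs (eobs e j) ((hE _).1 hj)
    simp_rw [postn_transport e hν hB, plim_transport e hν hB]
    exact this
  · exact h.off (eobs e j) (fun h => hj ((hE _).2 h))
  · exact h.bit (e v) ((hE _).1 hv)
  · exact h.bitoff (e v) (fun h => hv ((hE _).2 h))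

end transport

variable {Ω : Type*} [MeasurableSpace Ω]

/-- admissible data -/
structure Good (D : MDat Ω V) (K : ℝ) : Prop where
  K0 : 0 ≤ K
  K2 : K < 2
  lip : ∀ ω, TiltLip (D.ν ω) (D.E ω) K
  exh : ∀ ω, IsExh (D.E ω) (D.B ω)
  off : ∀ ω, ∀ v ∉ D.E ω, D.ν ω {x | x v = true} = 0

open Classical in
/-- the factor map -/
noncomputable def facMap (D : MDat Ω V) (q : Ω × (V → I) × (V × ℕ → I)) : V → Bool :=
  if h : ∃ y : (V → Bool) × (V × ℕ → I), (q, y) ∈ D.solSet then h.choose.1 else fun _ => false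

lemma Good.unique {D : MDat Ω V} {K : ℝ} (hD : Good D K) (q : Ω × (V → I) × (V × ℕ → I))
    (y y' : (V → Bool) × (V × ℕ → I)) (h : (q, y) ∈ D.solSet) (h' : (q, y') ∈ D.solSet) : y = y' := by
  have := sol_unique (hD.exh q.1) hD.K0 hD.K2 (hD.lip q.1) h h'
  exact Prod.ext this.1 this.2

lemma facMap_eq {D : MDat Ω V} {K : ℝ} (hD : Good D K) (q : Ω × (V → I) × (V × ℕ → I))
    (y : (V → Bool) × (V × ℕ → I)) (h : (q, y) ∈ D.solSet) : facMap D q = y.1 := by
  unfold facMap
  have hex : ∃ y : (V → Bool) × (V × ℕ → I), (q, y) ∈ D.solSet := ⟨y, h⟩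
  rw [dif_pos hex, hD.unique q _ _ hex.choose_spec h]

lemma facMap_eq_false (D : MDat Ω V) (q : Ω × (V → I) × (V × ℕ → I))
    (h : ∀ y, (q, y) ∉ D.solSet) : facMap D q = fun _ => false := by
  unfold facMap
  rw [dif_neg]
  push Not
  exact h

lemma measurable_facMap [Countable V] [StandardBorelSpace Ω] {D : MDat Ω V} {K : ℝ} (hD : Good D K) :
    Measurable (facMap D) :=
  measurable_of_unique D.solSet D.measurableSet_solSet hD.unique Prod.fst measurable_fst _
    (fun _ => false) (facMap_eq hD) (facMap_eq_false D)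

/-- equivariance on every input -/
lemma facMap_equivariant {D : MDat Ω V} {K : ℝ} (hD : Good D K) (e : V ≃ V) {ω ω' : Ω}
    (hν : D.ν ω' = (D.ν ω).map (fun x => x ∘ e)) (hE : ∀ v, v ∈ D.E ω' ↔ e v ∈ D.E ω)
    (hB : ∀ v n w, w ∈ D.B ω' v n ↔ e w ∈ D.B ω (e v) n) (t : V → I) (U : V × ℕ → I) :
    facMap D (ω', t ∘ e, U ∘ eobs e) = facMap D (ω, t, U) ∘ e := by
  by_cases h : ∃ y, ((ω, t, U), y) ∈ D.solSet
  · obtain ⟨y, hy⟩ := h
    rw [facMap_eq hD _ y hy]
    have h1 : Sol (D.ν ω) (D.E ω) (D.B ω) t U y.1 y.2 := hy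
    have h2 := sol_transport e hν hE hB h1
    exact facMap_eq hD (ω', t ∘ e, U ∘ eobs e) (y.1 ∘ e, y.2 ∘ eobs e) h2
  · push Not at h
    rw [facMap_eq_false D _ h, facMap_eq_false]
    · rfl
    · intro y hy
      have h1 : Sol (D.ν ω') (D.E ω') (D.B ω') (t ∘ e) (U ∘ eobs e) y.1 y.2 := hy
      have hν' : D.ν ω = (D.ν ω').map (fun x => x ∘ e.symm) := by
        rw [hν, Measure.map_map (measurable_comp_equiv _) (measurable_comp_equiv _)]
        have : ((fun x : V → Bool => x ∘ e.symm) ∘ fun x => x ∘ e) = id := by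
          funext x v; simp
        rw [this, Measure.map_id]
      have h2 := sol_transport e.symm hν' (E' := D.E ω) (fun v => by rw [hE]; simp)
        (B' := D.B ω) (fun v n w => by rw [hB]; simp) h1
      have ht : (t ∘ e) ∘ e.symm = t := by funext v; simp
      have hU : (U ∘ eobs e) ∘ eobs e.symm = U := by funext v; simp
      rw [ht, hU] at h2
      exact h (y.1 ∘ e.symm, y.2 ∘ eobs e.symm) h2

/-- mask irrelevance: only the active part of the inputs matters -/
lemma prec_congr {E : Set V} {t t' : V → I} (h : ∀ v ∈ E, t v = t' v) {i j : V × ℕ} (hi : i.1 ∈ E)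
    (hj : j.1 ∈ E) : prec t i j ↔ prec t' i j := by
  unfold prec
  rw [h _ hi, h _ hj]

lemma Jn_congr {E : Set V} {B : V → ℕ → Finset V} (hB : IsExh E B) {t t' : V → I}
    (h : ∀ v ∈ E, t v = t' v) (j : V × ℕ) (hj : j.1 ∈ E) (n : ℕ) : Jn B t j n = Jn B t' j n := by
  ext i
  rw [mem_Jn, mem_Jn]
  constructor
  · rintro ⟨h1, h2⟩
    exact ⟨h1, (prec_congr h (hB.sub _ hj _ _ h1) hj).1 h2⟩
  · rintro ⟨h1, h2⟩
    exact ⟨h1, (prec_congr h (hB.sub _ hj _ _ h1) hj).2 h2⟩

lemma sol_congr {ν : Measure (V → Bool)} {E : Set V} {B : V → ℕ → Finset V} (hB : IsExh E B)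
    {t t' : V → I} {U U' : V × ℕ → I} (ht : ∀ v ∈ E, t v = t' v) (hU : ∀ j : V × ℕ, j.1 ∈ E → U j = U' j)
    {x : V → Bool} {z : V × ℕ → I} (h : Sol ν E B t U x z) : Sol ν E B t' U' x z := by
  refine ⟨fun j hj => ?_, h.off, h.bit, h.bitoff⟩
  have h1 : ∀ n, postn ν B t' j n z = postn ν B t j n z := by
    intro n
    unfold postn
    rw [Jn_congr hB ht j hj n]
  have h2 : plim ν B t' j z = plim ν B t j z := by
    unfold plim
    simp_rw [h1]
  rw [← hU j hj, h2]
  simp_rw [h1]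
  exact h.obs j hj

lemma facMap_congr {D : MDat Ω V} {K : ℝ} (hD : Good D K) (ω : Ω) {t t' : V → I} {U U' : V × ℕ → I}
    (ht : ∀ v ∈ D.E ω, t v = t' v) (hU : ∀ j : V × ℕ, j.1 ∈ D.E ω → U j = U' j) :
    facMap D (ω, t, U) = facMap D (ω, t', U') := by
  by_cases h : ∃ y, ((ω, t, U), y) ∈ D.solSet
  · obtain ⟨y, hy⟩ := h
    rw [facMap_eq hD _ y hy]
    have h1 : Sol (D.ν ω) (D.E ω) (D.B ω) t U y.1 y.2 := hy
    have h2 := sol_congr (hD.exh ω) ht hU h1
    exact (facMap_eq hD (ω, t', U') y h2).symm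
  · push Not at h
    rw [facMap_eq_false D _ h, facMap_eq_false]
    intro y hy
    have h1 : Sol (D.ν ω) (D.E ω) (D.B ω) t' U' y.1 y.2 := hy
    exact h y (sol_congr (hD.exh ω) (fun v hv => (ht v hv).symm) (fun j hj => (hU j hj).symm) h1)

/-- the law of the factor -/
lemma map_facMap [Countable V] [StandardBorelSpace Ω] {D : MDat Ω V} {K : ℝ} (hD : Good D K) (ω : Ω) :
    ((Measure.infinitePi (siteLaw (D.E ω))).prod
      (Measure.infinitePi (fun j : V × ℕ => siteLaw (D.E ω) j.1))).map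
        (fun p => facMap D (ω, p)) = D.ν ω := by
  haveI := D.prob ω
  set μ1 := Measure.infinitePi (siteLaw (D.E ω)) with hμ1
  set μ2 := Measure.infinitePi (fun j : V × ℕ => siteLaw (D.E ω) j.1) with hμ2
  let T : (V → I) × ((V → Bool) × (V × ℕ → I)) → (V → I) × (V × ℕ → I) :=
    fun a => (a.1, innov (D.ν ω) (D.E ω) (D.B ω) a.1 a.2)
  have hinnov : Measurable (fun a : (V → I) × ((V → Bool) × (V × ℕ → I)) =>
      innov (D.ν ω) (D.E ω) (D.B ω) a.1 a.2) := by
    refine measurable_pi_iff.2 fun j => ?_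
    unfold innov
    split_ifs
    · have h1 : Measurable (fun a : (V → I) × ((V → Bool) × (V × ℕ → I)) => obsMap (D.E ω) a.2) :=
        (measurable_obsMap _).comp measurable_snd
      have h2 : Measurable (fun a : (V → I) × ((V → Bool) × (V × ℕ → I)) =>
          plim (D.ν ω) (D.B ω) a.1 j (obsMap (D.E ω) a.2)) := by
        have h3 : Measurable (fun a : (V → I) × ((V → Bool) × (V × ℕ → I)) =>
          ((ω, a.1, obsMap (D.E ω) a.2) : Ω × (V → I) × (V × ℕ → I))) :=
            measurable_const.prodMk (measurable_fst.prodMk h1)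
        have := (D.measurable_plim_param j).comp h3
        simp only [Function.comp_def] at this
        exact this
      have h4 : Measurable (fun a : (V → I) × ((V → Bool) × (V × ℕ → I)) => obsMap (D.E ω) a.2 j) :=
        (measurable_pi_apply j).comp h1
      exact measurable_Fmap_comp h2 h4
    · fun_prop
  have hT : Measurable T := measurable_fst.prodMk hinnov
  have hf : Measurable (fun p : (V → I) × (V × ℕ → I) => facMap D (ω, p)) :=
    (measurable_facMap hD).comp (measurable_const.prodMk measurable_id)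
  -- law of T
  have hTlaw : (μ1.prod (jointLaw (D.ν ω))).map T = μ1.prod μ2 := by
    refine Measure.ext fun A hA => ?_
    rw [Measure.map_apply hT hA, Measure.prod_apply (hT hA), Measure.prod_apply hA]
    refine lintegral_congr_ae ?_
    filter_upwards [ae_injOn (D.E ω)] with t ht
    have h1 := map_innov (D.ν ω) (hD.exh ω) t ht
    have h2 : Measurable (fun y => innov (D.ν ω) (D.E ω) (D.B ω) t y) :=
      measurable_pi_iff.2 (measurable_innov (D.ν ω) (D.E ω) (D.B ω) t)
    rw [hμ2, ← h1, Measure.map_apply h2 (measurable_prodMk_left hA)]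
    rfl
  rw [← hTlaw, Measure.map_map hf hT]
  have hae : ((fun p : (V → I) × (V × ℕ → I) => facMap D (ω, p)) ∘ T)
      =ᵐ[μ1.prod (jointLaw (D.ν ω))] (fun a => a.2.1) := by
    have hm : MeasurableSet {a : (V → I) × ((V → Bool) × (V × ℕ → I)) |
        ((fun p : (V → I) × (V × ℕ → I) => facMap D (ω, p)) ∘ T) a = a.2.1} :=
      measurableSet_eq_fun (hf.comp hT) (by fun_prop)
    have : ∀ᵐ a ∂(μ1.prod (jointLaw (D.ν ω))),
        ((fun p : (V → I) × (V × ℕ → I) => facMap D (ω, p)) ∘ T) a = a.2.1 := by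
      rw [Measure.ae_prod_iff_ae_ae hm]
      refine ae_of_all _ fun t => ?_
      filter_upwards [ae_sol (D.ν ω) (hD.exh ω) (hD.off ω) t] with y hy
      exact facMap_eq hD _ (y.1, obsMap (D.E ω) y) hy
    exact this
  rw [Measure.map_congr hae]
  have h1 : (fun a : (V → I) × ((V → Bool) × (V × ℕ → I)) => a.2.1) = Prod.fst ∘ Prod.snd := rfl
  rw [h1, ← Measure.map_map measurable_fst measurable_snd]
  have h2 : (μ1.prod (jointLaw (D.ν ω))).map Prod.snd = jointLaw (D.ν ω) := by
    have := Measure.map_snd_prod (μ := μ1) (ν := jointLaw (D.ν ω))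
    simpa using this
  rw [h2]
  unfold jointLaw
  have := Measure.map_fst_prod (μ := D.ν ω) (ν := noise V)
  simpa using this

end Crest.Agent.H5
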