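import Mathlib
import Crest.Agent.H5.Factor

set_option autoImplicit false

namespace Crest.Agent.H5

open MeasureTheory ProbabilityTheory unitInterval Set Filter Topology Function

/-- product over a sum type -/
lemma prod_infinitePi_map_sumElim {α β : Type*} (μ : α → Measure I) (ν : β → Measure I)
    [∀ a, IsProbabilityMeasure (μ a)] [∀ b, IsProbabilityMeasure (ν b)]
    (ρ : α ⊕ β → Measure I) [∀ c, IsProbabilityMeasure (ρ c)] (h1 : ∀ a, ρ (Sum.inl a) = μ a)
    (h2 : ∀ b, ρ (Sum.inr b) = ν b) :
    ((Measure.infinitePi μ).prod (Measure.infinitePi ν)).map (fun p => (Sum.elim p.1 p.2 : α ⊕ β → I))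
      = Measure.infinitePi ρ := by
  classical
  refine Measure.eq_infinitePi _ fun s t ht => ?_
  have hm : Measurable (fun p : (α → I) × (β → I) => (Sum.elim p.1 p.2 : α ⊕ β → I)) := by
    refine measurable_pi_iff.2 fun c => ?_
    rcases c with a | b
    · simp only [Sum.elim_inl]; fun_prop
    · simp only [Sum.elim_inr]; fun_prop
  rw [Measure.map_apply hm (MeasurableSet.pi s.countable_toSet fun i _ => ht i)]
  have hset : (fun p : (α → I) × (β → I) => (Sum.elim p.1 p.2 : α ⊕ β → I)) ⁻¹' (s : Set (α ⊕ β)).pi t
      = ((s.toLeft : Set α).pi (fun a => t (Sum.inl a))) ×ˢ ((s.toRight : Set β).pi (fun b => t (Sum.inr b))) := by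
    ext p
    simp only [mem_preimage, Set.mem_pi, Finset.mem_coe, mem_prod, Finset.mem_toLeft, Finset.mem_toRight]
    constructor
    · intro h
      exact ⟨fun a ha => by simpa using h _ ha, fun b hb => by simpa using h _ hb⟩
    · rintro ⟨h1, h2⟩ (a | b) hc
      · simpa using h1 a hc
      · simpa using h2 b hc
  rw [hset, Measure.prod_prod, Measure.infinitePi_pi _ (fun i _ => ht _), Measure.infinitePi_pi _ (fun i _ => ht _)]
  conv_rhs => rw [← Finset.toLeft_disjSum_toRight (u := s), Finset.prod_disjSum]
  simp only [h1, h2]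

lemma infinitePi_map_split {α β : Type*} (μ : α → Measure I) (ν : β → Measure I)
    [∀ a, IsProbabilityMeasure (μ a)] [∀ b, IsProbabilityMeasure (ν b)]
    (ρ : α ⊕ β → Measure I) [∀ c, IsProbabilityMeasure (ρ c)] (h1 : ∀ a, ρ (Sum.inl a) = μ a)
    (h2 : ∀ b, ρ (Sum.inr b) = ν b) :
    (Measure.infinitePi ρ).map (fun w => ((fun a => w (Sum.inl a), fun b => w (Sum.inr b)) : (α → I) × (β → I)))
      = (Measure.infinitePi μ).prod (Measure.infinitePi ν) := by
  have hm : Measurable (fun p : (α → I) × (β → I) => (Sum.elim p.1 p.2 : α ⊕ β → I)) := by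
    refine measurable_pi_iff.2 fun c => ?_
    rcases c with a | b
    · simp only [Sum.elim_inl]; fun_prop
    · simp only [Sum.elim_inr]; fun_prop
  rw [← prod_infinitePi_map_sumElim μ ν ρ h1 h2, Measure.map_map (by fun_prop) hm]
  have : ((fun w : α ⊕ β → I => ((fun a => w (Sum.inl a), fun b => w (Sum.inr b)) : (α → I) × (β → I))) ∘
      fun p : (α → I) × (β → I) => (Sum.elim p.1 p.2 : α ⊕ β → I)) = id := by
    funext p; simp
  rw [this, Measure.map_id]

/-- restricting an independent family to two disjoint families of indices -/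
lemma infinitePi_map_two {ι α β : Type*} (ρ : ι → Measure I) [∀ i, IsProbabilityMeasure (ρ i)]
    (f : α → ι) (g : β → ι) (hf : Injective f) (hg : Injective g) (hfg : ∀ a b, f a ≠ g b) :
    (Measure.infinitePi ρ).map (fun w => ((fun a => w (f a), fun b => w (g b)) : (α → I) × (β → I)))
      = (Measure.infinitePi (fun a => ρ (f a))).prod (Measure.infinitePi (fun b => ρ (g b))) := by
  have hinj : Injective (Sum.elim f g) := by
    rintro (a | b) (a' | b') h
    · simp only [Sum.elim_inl] at h; rw [hf h]
    · simp only [Sum.elim_inl, Sum.elim_inr] at h; exact absurd h (hfg _ _)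
    · simp only [Sum.elim_inl, Sum.elim_inr] at h; exact absurd h.symm (hfg _ _)
    · simp only [Sum.elim_inr] at h; rw [hg h]
  have h1 := Measure.map_infinitePi_infinitePi_of_inj (P := ρ) hinj
  have h2 := infinitePi_map_split (fun a => ρ (f a)) (fun b => ρ (g b)) (fun c => ρ (Sum.elim f g c))
    (fun a => rfl) (fun b => rfl)
  rw [← h1, Measure.map_map (by fun_prop) (by fun_prop)] at h2
  exact h2

variable {V : Type*}

/-- splitting one family of labels into times and innovations -/
def splitLab (T : V × ℕ → I) : (V → I) × (V × ℕ → I) := (fun v => T (v, 0), fun j => T (j.1, j.2 + 1))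

lemma measurable_splitLab : Measurable (splitLab (V := V)) := by
  unfold splitLab; fun_prop

lemma map_splitLab (E : Set V) :
    (Measure.infinitePi (fun j : V × ℕ => siteLaw E j.1)).map splitLab
      = (Measure.infinitePi (siteLaw E)).prod (Measure.infinitePi (fun j : V × ℕ => siteLaw E j.1)) := by
  have := infinitePi_map_two (fun j : V × ℕ => siteLaw E j.1) (fun v : V => ((v, 0) : V × ℕ))
    (fun j : V × ℕ => ((j.1, j.2 + 1) : V × ℕ)) (fun a b h => by simpa using h)
    (fun a b h => by
      simp only [Prod.mk.injEq, add_left_inj] at h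
      exact Prod.ext h.1 h.2)
    (fun a b h => by simp at h)
  exact this

/-- the factor as a function of a single family of labels -/
noncomputable def fac {Ω : Type*} [MeasurableSpace Ω] (D : MDat Ω V) (q : Ω × (V × ℕ → I)) : V → Bool :=
  facMap D (q.1, splitLab q.2)

lemma measurable_fac {Ω : Type*} [MeasurableSpace Ω] [StandardBorelSpace Ω] [Countable V] {D : MDat Ω V}
    {K : ℝ} (hD : Good D K) : Measurable (fac D) :=
  (measurable_facMap hD).comp (measurable_fst.prodMk (measurable_splitLab.comp measurable_snd))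

lemma map_fac {Ω : Type*} [MeasurableSpace Ω] [StandardBorelSpace Ω] [Countable V] {D : MDat Ω V}
    {K : ℝ} (hD : Good D K) (ω : Ω) :
    (Measure.infinitePi (fun j : V × ℕ => siteLaw (D.E ω) j.1)).map (fun T => fac D (ω, T)) = D.ν ω := by
  have hf : Measurable (fun p : (V → I) × (V × ℕ → I) => facMap D (ω, p)) :=
    (measurable_facMap hD).comp (measurable_const.prodMk measurable_id)
  have h1 : (fun T : V × ℕ → I => fac D (ω, T)) = (fun p => facMap D (ω, p)) ∘ splitLab := rfl
  rw [h1, ← Measure.map_map hf measurable_splitLab, map_splitLab, map_facMap hD ω]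

lemma fac_equivariant {Ω : Type*} [MeasurableSpace Ω] {D : MDat Ω V} {K : ℝ} (hD : Good D K) (e : V ≃ V)
    {ω ω' : Ω} (hν : D.ν ω' = (D.ν ω).map (fun x => x ∘ e)) (hE : ∀ v, v ∈ D.E ω' ↔ e v ∈ D.E ω)
    (hB : ∀ v n w, w ∈ D.B ω' v n ↔ e w ∈ D.B ω (e v) n) (T : V × ℕ → I) :
    fac D (ω', T ∘ eobs e) = fac D (ω, T) ∘ e :=
  facMap_equivariant hD e hν hE hB (fun v => T (v, 0)) (fun j => T (j.1, j.2 + 1))

lemma fac_congr {Ω : Type*} [MeasurableSpace Ω] {D : MDat Ω V} {K : ℝ} (hD : Good D K) (ω : Ω)
    {T T' : V × ℕ → I} (h : ∀ j : V × ℕ, j.1 ∈ D.E ω → T j = T' j) : fac D (ω, T) = fac D (ω, T') :=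
  facMap_congr hD ω (fun v hv => h (v, 0) hv) (fun j hj => h (j.1, j.2 + 1) hj)

lemma exists_smap : ∃ s : I → (ℕ → I), Measurable s ∧
    (volume : Measure I).map s = Measure.infinitePi (fun _ : ℕ => (volume : Measure I)) :=
  (Measure.infinitePi (fun _ : ℕ => (volume : Measure I))).exists_measurable_map_eq

/-- one label split into infinitely many -/
noncomputable def smap : I → (ℕ → I) := Classical.choose exists_smap

@[fun_prop]
lemma measurable_smap : Measurable smap := (Classical.choose_spec exists_smap).1

lemma map_smap : (volume : Measure I).map smap = Measure.infinitePi (fun _ : ℕ => (volume : Measure I)) :=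
  (Classical.choose_spec exists_smap).2

/-- expanding labels -/
noncomputable def expand {W : Type*} (u : W → I) (j : W × ℕ) : I := smap (u j.1) j.2

lemma measurable_expand {W : Type*} : Measurable (expand (W := W)) := by
  refine measurable_pi_iff.2 fun j => ?_
  unfold expand
  exact (measurable_pi_apply j.2).comp (measurable_smap.comp (measurable_pi_apply j.1))

lemma map_expand {W : Type*} :
    (Measure.infinitePi (fun _ : W => (volume : Measure I))).map expand
      = Measure.infinitePi (fun _ : W × ℕ => (volume : Measure I)) := by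
  have h1 := Measure.infinitePi_map_pi (μ := fun _ : W => (volume : Measure I))
    (f := fun _ => smap) (fun _ => measurable_smap)
  simp_rw [map_smap] at h1
  have h2 := Measure.infinitePi_map_curry_symm (fun (_ : W) (_ : ℕ) => (volume : Measure I))
  rw [← h2, ← h1, Measure.map_map]
  · rfl
  · fun_prop
  · refine measurable_pi_iff.2 fun i => measurable_smap.comp (measurable_pi_apply i)

end Crest.Agent.H5
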