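import Mathlib
import Crest.Agent.H5.Equi
import Crest.Agent.H5.Lab

set_option autoImplicit false

namespace Crest.Agent.H5

open MeasureTheory ProbabilityTheory Set Filter Topology
open Crest.ProbabilityR.SpanningTrees Crest.ProbabilityR.GraphTables

/-- vertices near an edge -/
def ballV (G : SimpleGraph ℕ) (e : Sym2 ℕ) (n : ℕ) : Set ℕ := {w | ∃ u ∈ e, w ∈ reach G u n}

lemma ballV_finite {G : SimpleGraph ℕ} (hG : Nice G) (e : Sym2 ℕ) (n : ℕ) : (ballV G e n).Finite := by
  have : ballV G e n ⊆ reach G (ep e).1 n ∪ reach G (ep e).2 n := by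
    rintro w ⟨u, hu, hw⟩
    rw [← ep_eq e, Sym2.mem_iff] at hu
    rcases hu with rfl | rfl
    · exact Or.inl hw
    · exact Or.inr hw
  exact ((reach_finite hG.2 _ n).union (reach_finite hG.2 _ n)).subset this

open Classical in
/-- edges near an edge -/
noncomputable def ballE (G : SimpleGraph ℕ) (e : Sym2 ℕ) (n : ℕ) : Finset (Sym2 ℕ) :=
  if h : Nice G then edgesIn G (ballV_finite h e n).toFinset else ∅

lemma mem_ballE (G : SimpleGraph ℕ) (e f : Sym2 ℕ) (n : ℕ) :
    f ∈ ballE G e n ↔ Nice G ∧ (∀ w ∈ f, ∃ u ∈ e, w ∈ reach G u n) ∧ f ∈ G.edgeSet := by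
  unfold ballE
  split_ifs with h
  · rw [mem_edgesIn]
    simp only [Set.Finite.mem_toFinset, h, true_and]
    rfl
  · simp [h]

/-- active edges -/
def actE (G : SimpleGraph ℕ) : Set (Sym2 ℕ) := {e | Nice G ∧ e ∈ G.edgeSet}

lemma actE_nice {G : SimpleGraph ℕ} (h : Nice G) : actE G = G.edgeSet := by
  ext e; simp [actE, h]

lemma isExh_ballE (G : SimpleGraph ℕ) : IsExh (actE G) (ballE G) := by
  refine ⟨fun v _ n w hw => ?_, fun v _ m n hmn w hw => ?_, fun v hv w hw => ?_⟩
  · rw [mem_ballE] at hw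
    exact ⟨hw.1, hw.2.2⟩
  · rw [mem_ballE] at hw ⊢
    refine ⟨hw.1, fun x hx => ?_, hw.2.2⟩
    obtain ⟨u, hu, hxu⟩ := hw.2.1 x hx
    exact ⟨u, hu, reach_mono G u hmn hxu⟩
  · obtain ⟨hG, hv⟩ := hv
    obtain ⟨_, hw⟩ := hw
    have hu : (ep v).1 ∈ v := by
      have : (ep v).1 ∈ s((ep v).1, (ep v).2) := Sym2.mem_mk_left _ _
      rwa [ep_eq] at this
    obtain ⟨n1, h1⟩ := (exists_reach_iff G (ep v).1 (ep w).1).2 (hG.1.preconnected _ _)
    obtain ⟨n2, h2⟩ := (exists_reach_iff G (ep v).1 (ep w).2).2 (hG.1.preconnected _ _)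
    refine ⟨max n1 n2, ?_⟩
    rw [mem_ballE]
    refine ⟨hG, fun x hx => ⟨(ep v).1, hu, ?_⟩, hw⟩
    rw [← ep_eq w, Sym2.mem_iff] at hx
    rcases hx with rfl | rfl
    · exact reach_mono G _ (le_max_left _ _) h1
    · exact reach_mono G _ (le_max_right _ _) h2

/-- the forest data -/
noncomputable def fD : MDat (ℕ → ℕ → Bool) (Sym2 ℕ) where
  ν A := fusf (graphOfTable A)
  E A := actE (graphOfTable A)
  B A := ballE (graphOfTable A)
  prob _ := inferInstance
  meas_ν := measurable_fusf
  meas_E e := measurableSet_nice.inter (measurableSet_edge e)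
  meas_B e n f := by
    have h1 : {A : ℕ → ℕ → Bool | f ∈ ballE (graphOfTable A) e n}
        = {A | Nice (graphOfTable A)} ∩ ({A | ∀ w ∈ f, ∃ u ∈ e, w ∈ reach (graphOfTable A) u n} ∩
          {A | f ∈ (graphOfTable A).edgeSet}) := by
      ext A
      simp only [mem_ofPred_eq, mem_ballE, mem_inter_iff]
    rw [h1]
    refine measurableSet_nice.inter (MeasurableSet.inter ?_ (measurableSet_edge f))
    induction f with
    | h a b =>
      induction e with
      | h c d =>
        have h2 : {A : ℕ → ℕ → Bool | ∀ w ∈ s(a, b), ∃ u ∈ s(c, d), w ∈ reach (graphOfTable A) u n}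
            = ({A | a ∈ reach (graphOfTable A) c n} ∪ {A | a ∈ reach (graphOfTable A) d n}) ∩
              ({A | b ∈ reach (graphOfTable A) c n} ∪ {A | b ∈ reach (graphOfTable A) d n}) := by
          ext A
          simp [Sym2.mem_iff]
        rw [h2]
        exact ((measurableSet_reach c n a).union (measurableSet_reach d n a)).inter
          ((measurableSet_reach c n b).union (measurableSet_reach d n b))

lemma good_fD : Good fD (5/4) where
  K0 := by norm_num
  K2 := by norm_num
  lip A := by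
    by_cases h : Nice (graphOfTable A)
    · show TiltLip (fusf (graphOfTable A)) (actE (graphOfTable A)) (5/4)
      rw [actE_nice h]
      exact fusf_tiltLip h
    · intro F v hv
      exact absurd hv.1 h
  exh A := isExh_ballE (graphOfTable A)
  off A v hv := by
    have hset : {x : Sym2 ℕ → Bool | x v = true} = upSet {v} := by
      ext x; simp [upSet]
    show fusf (graphOfTable A) {x | x v = true} = 0
    by_cases h : Nice (graphOfTable A)
    · rw [hset, fusf_upSet h]
      have hv' : v ∉ (graphOfTable A).edgeSet := fun h' => hv ⟨h, h'⟩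
      unfold qG
      rw [if_neg, ENNReal.ofReal_zero]
      intro h'
      exact hv' (h' (by simp))
    · unfold fusf
      rw [dif_neg h, hset, Measure.dirac_apply' _ (measurableSet_upSet _)]
      simp [upSet]

lemma graphOfTable_tableOf (G : SimpleGraph ℕ) : graphOfTable (tableOf G) = G := by
  ext i j
  rw [adj_table]
  simp only [tableOf, decide_eq_true_eq]
  constructor
  · rintro ⟨_, h | h⟩
    · exact h
    · exact h.symm
  · intro h
    exact ⟨h.ne, Or.inl h⟩

lemma measurable_tableOf : Measurable (fun A : ℕ → ℕ → Bool => tableOf (graphOfTable A)) := by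
  refine measurable_pi_iff.2 fun i => measurable_pi_iff.2 fun j => ?_
  refine measurable_to_bool ?_
  have : (fun A : ℕ → ℕ → Bool => tableOf (graphOfTable A) i j) ⁻¹' {true}
      = {A | (graphOfTable A).Adj i j} := by
    ext A; simp [tableOf]
  rw [this]
  exact measurableSet_adj i j

lemma mem_ballE_comap (σ : Equiv.Perm ℕ) (G : SimpleGraph ℕ) (e f : Sym2 ℕ) (n : ℕ) :
    f ∈ ballE (G.comap ⇑σ) e n ↔ symE σ f ∈ ballE G (symE σ e) n := by
  rw [mem_ballE, mem_ballE, nice_comap, mem_edgeSet_comap]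
  refine and_congr Iff.rfl (and_congr ?_ Iff.rfl)
  have hmem : ∀ (g : Sym2 ℕ) (x : ℕ), x ∈ symE σ g ↔ σ.symm x ∈ g := by
    intro g x
    show x ∈ Sym2.map σ g ↔ _
    rw [Sym2.mem_map]
    constructor
    · rintro ⟨a, ha, rfl⟩
      simpa using ha
    · intro h
      exact ⟨_, h, by simp⟩
  constructor
  · intro h w hw
    rw [hmem] at hw
    obtain ⟨u, hu, hr⟩ := h _ hw
    refine ⟨σ u, (hmem _ _).2 (by simpa using hu), ?_⟩
    rw [mem_reach_comap] at hr
    simpa using hr
  · intro h w hw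
    obtain ⟨u, hu, hr⟩ := h (σ w) ((hmem _ _).2 (by simpa using hw))
    rw [hmem] at hu
    refine ⟨σ.symm u, hu, ?_⟩
    rw [mem_reach_comap]
    simpa using hr

end Crest.Agent.H5
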