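import Mathlib
import Crest.Agent.H5.FData

set_option autoImplicit false

namespace Crest.Agent.H5

open MeasureTheory ProbabilityTheory Set Filter Topology unitInterval
open Crest.ProbabilityR.SpanningTrees Crest.ProbabilityR.GraphTables

/-- law of a masked reindexed family -/
lemma infinitePi_map_mask {ι α : Type*} (M : Set α) [DecidablePred (· ∈ M)] (f : α → ι) (hf : InjOn f M) :
    (Measure.infinitePi (fun _ : ι => (volume : Measure I))).map
        (fun a => fun j : α => if j ∈ M then a (f j) else (0 : I))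
      = Measure.infinitePi (fun j : α => if j ∈ M then (volume : Measure I) else Measure.dirac 0) := by
  let f' : α → ι ⊕ α := fun j => if j ∈ M then Sum.inl (f j) else Sum.inr j
  have hf' : Function.Injective f' := by
    intro i j hij
    simp only [f'] at hij
    by_cases hi : i ∈ M <;> by_cases hj : j ∈ M
    · rw [if_pos hi, if_pos hj] at hij
      exact hf hi hj (Sum.inl_injective hij)
    · rw [if_pos hi, if_neg hj] at hij
      exact absurd hij (by simp)
    · rw [if_neg hi, if_pos hj] at hij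
      exact absurd hij (by simp)
    · rw [if_neg hi, if_neg hj] at hij
      exact Sum.inr_injective hij
  let ρ : ι ⊕ α → Measure I := fun c => match c with
    | Sum.inl _ => volume
    | Sum.inr _ => Measure.dirac 0
  haveI : ∀ c, IsProbabilityMeasure (ρ c) := by
    rintro (c | c)
    · show IsProbabilityMeasure (volume : Measure I); infer_instance
    · show IsProbabilityMeasure (Measure.dirac (0 : I)); infer_instance
  have h1 := Measure.map_infinitePi_infinitePi_of_inj (P := ρ) hf'
  have h2 := prod_infinitePi_map_sumElim (fun _ : ι => (volume : Measure I))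
    (fun _ : α => (Measure.dirac (0 : I))) ρ (fun _ => rfl) (fun _ => rfl)
  have h3 : Measure.infinitePi (fun _ : α => (Measure.dirac (0 : I))) = Measure.dirac (fun _ => 0) :=
    Measure.infinitePi_dirac _
  have hm : Measurable (fun p : (ι → I) × (α → I) => (Sum.elim p.1 p.2 : ι ⊕ α → I)) := by
    refine measurable_pi_iff.2 fun c => ?_
    rcases c with a | b
    · simp only [Sum.elim_inl]; fun_prop
    · simp only [Sum.elim_inr]; fun_prop
  rw [h3, Measure.prod_dirac, Measure.map_map hm (by fun_prop)] at h2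
  rw [← h2, Measure.map_map (by fun_prop) (hm.comp (by fun_prop))] at h1
  have h4 : (fun a : ι → I => fun j : α => if j ∈ M then a (f j) else (0 : I))
      = (fun (w : ι ⊕ α → I) (i : α) => w (f' i)) ∘
        ((fun p : (ι → I) × (α → I) => (Sum.elim p.1 p.2 : ι ⊕ α → I)) ∘ fun x => (x, fun _ => 0)) := by
    funext a j
    simp only [Function.comp, f']
    split_ifs <;> simp
  rw [h4, h1]
  congr 1
  funext j
  simp only [f']
  split_ifs <;> rfl

/-- rank of a neighbour -/
noncomputable def rank (G : SimpleGraph ℕ) (b : ℕ → I) (u v : ℕ) : ℕ := {w | G.Adj u w ∧ b w < b v}.ncard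

/-- index of the label used by an edge -/
noncomputable def eidx (G : SimpleGraph ℕ) (b : ℕ → I) (k : ℕ) (u v : ℕ) : Option (ℕ × ℕ) :=
  if b u < b v then some (u, Nat.pair (rank G b u v) k)
  else if b v < b u then some (v, Nat.pair (rank G b v u) k)
  else none

lemma eidx_symm (G : SimpleGraph ℕ) (b : ℕ → I) (k : ℕ) (u v : ℕ) : eidx G b k u v = eidx G b k v u := by
  unfold eidx
  by_cases h1 : b u < b v
  · rw [if_pos h1, if_neg (not_lt.2 h1.le), if_pos h1]
  · by_cases h2 : b v < b u
    · rw [if_neg h1, if_pos h2, if_pos h2]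
    · rw [if_neg h1, if_neg h2, if_neg h2, if_neg h1]

/-- index on unordered pairs -/
noncomputable def eix (G : SimpleGraph ℕ) (b : ℕ → I) (j : Sym2 ℕ × ℕ) : Option (ℕ × ℕ) :=
  Sym2.lift ⟨eidx G b j.2, eidx_symm G b j.2⟩ j.1

/-- evaluation -/
def oget (a : ℕ × ℕ → I) (o : Option (ℕ × ℕ)) : I := match o with
  | some i => a i
  | none => 0

/-- edge labels -/
noncomputable def elab' (G : SimpleGraph ℕ) (b : ℕ → I) (a : ℕ × ℕ → I) (j : Sym2 ℕ × ℕ) : I :=
  oget a (eix G b j)

lemma rank_comap (τ : Equiv.Perm ℕ) (G : SimpleGraph ℕ) (b : ℕ → I) (u v : ℕ) :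
    rank (G.comap ⇑τ) (b ∘ τ) u v = rank G b (τ u) (τ v) := by
  unfold rank
  have : {w | G.Adj (τ u) w ∧ b w < b (τ v)} = τ '' {w | (G.comap ⇑τ).Adj u w ∧ (b ∘ τ) w < (b ∘ τ) v} := by
    ext w
    simp only [mem_ofPred_eq, mem_image, SimpleGraph.comap_adj, Function.comp]
    constructor
    · rintro ⟨h1, h2⟩
      exact ⟨τ.symm w, ⟨by simpa using h1, by simpa using h2⟩, by simp⟩
    · rintro ⟨x, ⟨h1, h2⟩, rfl⟩
      exact ⟨h1, h2⟩
  rw [this, Set.ncard_image_of_injective _ τ.injective]

lemma elab_comap (τ : Equiv.Perm ℕ) (G : SimpleGraph ℕ) (b : ℕ → I) (a : ℕ × ℕ → I) (j : Sym2 ℕ × ℕ) :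
    elab' (G.comap ⇑τ) (b ∘ τ) (a ∘ eobs τ) j = elab' G b a (eobs (symE τ) j) := by
  obtain ⟨e, k⟩ := j
  induction e with
  | h u v =>
    unfold elab' eix
    simp only [eobs_apply, symE_mk, Sym2.lift_mk, eidx, rank_comap, Function.comp]
    split_ifs <;> simp [oget, eobs_apply]

/-- masking -/
noncomputable def mask (E : Set (Sym2 ℕ)) (T : Sym2 ℕ × ℕ → I) (j : Sym2 ℕ × ℕ) : I :=
  haveI := Classical.dec (j.1 ∈ E)
  if j.1 ∈ E then T j else 0

lemma rank_lt (G : SimpleGraph ℕ) (hG : ∀ v, (G.neighborSet v).Finite) (b : ℕ → I) (u v v' : ℕ)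
    (hv : G.Adj u v) (h : b v < b v') : rank G b u v < rank G b u v' := by
  unfold rank
  refine Set.ncard_lt_ncard ?_ ((hG u).subset fun w hw => hw.1)
  refine ⟨fun w hw => ⟨hw.1, hw.2.trans h⟩, fun hsub => ?_⟩
  have : v ∈ {w | G.Adj u w ∧ b w < b v} := hsub ⟨hv, h⟩
  exact lt_irrefl _ this.2

lemma rank_inj (G : SimpleGraph ℕ) (hG : ∀ v, (G.neighborSet v).Finite) (b : ℕ → I)
    (hb : Function.Injective b) (u v v' : ℕ)
    (hv : G.Adj u v) (hv' : G.Adj u v') (h : rank G b u v = rank G b u v') : v = v' := by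
  by_contra hne
  rcases lt_trichotomy (b v) (b v') with h1 | h1 | h1
  · have := rank_lt G hG b u v v' hv h1; omega
  · exact hne (hb h1)
  · have := rank_lt G hG b u v' v hv' h1; omega

/-- description of the index of an edge -/
lemma eix_spec (G : SimpleGraph ℕ) (b : ℕ → I) (hb : Function.Injective b) (e : Sym2 ℕ) (k : ℕ)
    (he : e ∈ G.edgeSet) : ∃ u v, e = s(u, v) ∧ G.Adj u v ∧ b u < b v ∧
      eix G b (e, k) = some (u, Nat.pair (rank G b u v) k) := by
  induction e with
  | h x y =>
    have hadj : G.Adj x y := he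
    rcases lt_trichotomy (b x) (b y) with h1 | h1 | h1
    · refine ⟨x, y, rfl, hadj, h1, ?_⟩
      unfold eix
      simp only [Sym2.lift_mk, eidx]
      rw [if_pos h1]
    · exact absurd (hb h1) hadj.ne
    · refine ⟨y, x, Sym2.eq_swap, hadj.symm, h1, ?_⟩
      unfold eix
      simp only [Sym2.lift_mk, eidx]
      rw [if_neg (not_lt.2 h1.le), if_pos h1]

/-- law of the edge labels given the ordering variables -/
lemma map_mask_elab (G : SimpleGraph ℕ) (hG : ∀ v, (G.neighborSet v).Finite) (b : ℕ → I)
    (hb : Function.Injective b) :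
    (Measure.infinitePi (fun _ : ℕ × ℕ => (volume : Measure I))).map
        (fun a => mask G.edgeSet (elab' G b a))
      = Measure.infinitePi (fun j : Sym2 ℕ × ℕ => siteLaw G.edgeSet j.1) := by
  classical
  let M : Set (Sym2 ℕ × ℕ) := {j | j.1 ∈ G.edgeSet}
  let f : Sym2 ℕ × ℕ → ℕ × ℕ := fun j => (eix G b j).getD (0, 0)
  have hf : InjOn f M := by
    rintro ⟨e, k⟩ he ⟨e', k'⟩ he' h
    obtain ⟨u, v, h1, h2, h3, h4⟩ := eix_spec G b hb e k he
    obtain ⟨u', v', h1', h2', h3', h4'⟩ := eix_spec G b hb e' k' he'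
    simp only [f] at h
    rw [h4, h4'] at h
    simp only [Option.getD_some, Prod.mk.injEq, Nat.pair_eq_pair] at h
    obtain ⟨hu, hr, hk⟩ := h
    subst hu
    have := rank_inj G hG b hb u v v' h2 h2' hr
    subst this
    rw [h1, h1', hk]
  have key := infinitePi_map_mask M f hf
  have e1 : (fun a : ℕ × ℕ → I => fun j : Sym2 ℕ × ℕ => if j ∈ M then a (f j) else (0 : I))
      = fun a => mask G.edgeSet (elab' G b a) := by
    funext a j
    unfold mask
    by_cases hj : j.1 ∈ G.edgeSet
    · rw [if_pos (show j ∈ M from hj), if_pos hj]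
      obtain ⟨u, v, h1, h2, h3, h4⟩ := eix_spec G b hb j.1 j.2 hj
      unfold elab'
      simp only [f]
      have h5 : eix G b j = some (u, Nat.pair (rank G b u v) j.2) := h4
      rw [h5]
      rfl
    · rw [if_neg (show j ∉ M from hj), if_neg hj]
  have e2 : (fun j : Sym2 ℕ × ℕ => if j ∈ M then (volume : Measure I) else Measure.dirac 0)
      = fun j => siteLaw G.edgeSet j.1 := by
    funext j
    unfold siteLaw
    by_cases hj : j.1 ∈ G.edgeSet
    · rw [if_pos (show j ∈ M from hj), if_pos hj]
    · rw [if_neg (show j ∉ M from hj), if_neg hj]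
  rw [e1] at key
  rw [key]
  congr 1

/-! ### measurability -/

lemma measurable_ncard {α : Type*} [MeasurableSpace α] (P : ℕ → Set α) (hP : ∀ w, MeasurableSet (P w)) :
    Measurable (fun q => {w | q ∈ P w}.ncard) := by
  have key : ∀ r : ℕ, r ≠ 0 → MeasurableSet {q | {w | q ∈ P w}.ncard = r} := by
    intro r hr
    have : {q | {w | q ∈ P w}.ncard = r}
        = ⋃ R : Finset ℕ, ⋃ _ : R.card = r, ⋂ w, {q | q ∈ P w ↔ w ∈ R} := by
      ext q
      simp only [mem_ofPred_eq, mem_iUnion, mem_iInter, exists_prop]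
      constructor
      · intro h
        have hfin : {w | q ∈ P w}.Finite := by
          by_contra hinf
          rw [Set.Infinite.ncard hinf] at h
          exact hr h.symm
        refine ⟨hfin.toFinset, ?_, fun w => by simp⟩
        rw [← Set.ncard_eq_toFinset_card _ hfin]
        exact h
      · rintro ⟨R, hR, hw⟩
        have : {w | q ∈ P w} = (R : Set ℕ) := by
          ext w; exact hw w
        rw [this, Set.ncard_coe_finset, hR]
    rw [this]
    refine MeasurableSet.iUnion fun R => MeasurableSet.iUnion fun _ => MeasurableSet.iInter fun w => ?_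
    by_cases hw : w ∈ R
    · have : {q | q ∈ P w ↔ w ∈ R} = P w := by ext q; simp [hw]
      rw [this]; exact hP w
    · have : {q | q ∈ P w ↔ w ∈ R} = (P w)ᶜ := by ext q; simp [hw]
      rw [this]; exact (hP w).compl
  refine measurable_to_countable' fun r => ?_
  by_cases hr : r = 0
  · subst hr
    have : (fun q => {w | q ∈ P w}.ncard) ⁻¹' {0} = (⋃ r : ℕ, ⋃ _ : r ≠ 0, {q | {w | q ∈ P w}.ncard = r})ᶜ := by
      ext q
      simp only [mem_preimage, mem_singleton_iff, mem_compl_iff, mem_iUnion, exists_prop, mem_ofPred_eq]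
      constructor
      · rintro h ⟨r, h1, h2⟩
        exact h1 (h2 ▸ h)
      · intro h
        by_contra h'
        exact h ⟨_, h', rfl⟩
    rw [this]
    exact (MeasurableSet.iUnion fun r => MeasurableSet.iUnion fun hr => key r hr).compl
  · exact key r hr

/-- joint measurability of the edge labels -/
lemma measurable_elab : Measurable (fun q : (ℕ → ℕ → Bool) × ((ℕ → I) × (ℕ × ℕ → I)) =>
    elab' (graphOfTable q.1) q.2.1 q.2.2) := by
  refine measurable_pi_iff.2 fun j => ?_
  obtain ⟨e, k⟩ := j
  have hlt : ∀ u v : ℕ, MeasurableSet {q : (ℕ → ℕ → Bool) × ((ℕ → I) × (ℕ × ℕ → I)) | q.2.1 u < q.2.1 v} :=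
    fun u v => measurableSet_lt (by fun_prop) (by fun_prop)
  have hrank : ∀ u v : ℕ, Measurable (fun q : (ℕ → ℕ → Bool) × ((ℕ → I) × (ℕ × ℕ → I)) =>
      rank (graphOfTable q.1) q.2.1 u v) := by
    intro u v
    unfold rank
    exact measurable_ncard (fun w => {q : (ℕ → ℕ → Bool) × ((ℕ → I) × (ℕ × ℕ → I)) |
      (graphOfTable q.1).Adj u w ∧ q.2.1 w < q.2.1 v})
      (fun w => (measurable_fst (measurableSet_adj u w)).inter (hlt w v))
  have hval : ∀ u v : ℕ, Measurable (fun q : (ℕ → ℕ → Bool) × ((ℕ → I) × (ℕ × ℕ → I)) =>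
      q.2.2 (u, Nat.pair (rank (graphOfTable q.1) q.2.1 u v) k)) := by
    intro u v
    have h1 : Measurable (fun p : ℕ × ((ℕ → ℕ → Bool) × ((ℕ → I) × (ℕ × ℕ → I))) =>
        p.2.2.2 (u, Nat.pair p.1 k)) :=
      measurable_from_prod_countable_right fun r => by
        have h2 : Measurable (fun y : (ℕ → ℕ → Bool) × ((ℕ → I) × (ℕ × ℕ → I)) => y.2.2) :=
          measurable_snd.comp measurable_snd
        exact (measurable_pi_apply (u, Nat.pair r k)).comp h2
    exact h1.comp ((hrank u v).prodMk measurable_id)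
  induction e with
  | h u v =>
    have : (fun q : (ℕ → ℕ → Bool) × ((ℕ → I) × (ℕ × ℕ → I)) =>
        elab' (graphOfTable q.1) q.2.1 q.2.2 (s(u, v), k))
        = fun q => if q.2.1 u < q.2.1 v then q.2.2 (u, Nat.pair (rank (graphOfTable q.1) q.2.1 u v) k)
          else if q.2.1 v < q.2.1 u then q.2.2 (v, Nat.pair (rank (graphOfTable q.1) q.2.1 v u) k)
          else 0 := by
      funext q
      unfold elab' eix
      simp only [Sym2.lift_mk, eidx]
      split_ifs <;> rfl
    rw [this]
    exact Measurable.ite (hlt u v) (hval u v) (Measurable.ite (hlt v u) (hval v u) measurable_const)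

lemma measurable_mask (E : Set (Sym2 ℕ)) : Measurable (mask E) := by
  refine measurable_pi_iff.2 fun j => ?_
  unfold mask
  split_ifs
  · exact measurable_pi_apply j
  · exact measurable_const

/-- law of the masked edge labels -/
lemma map_edgeLabels (G : SimpleGraph ℕ) (hG : ∀ v, (G.neighborSet v).Finite) :
    (Measure.infinitePi (fun _ : ℕ => (volume : Measure I))).map
        (fun x => mask G.edgeSet (elab' G (splitLab (expand x)).1 (splitLab (expand x)).2))
      = Measure.infinitePi (fun j : Sym2 ℕ × ℕ => siteLaw G.edgeSet j.1) := by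
  have hF : Measurable (fun q : (ℕ → I) × (ℕ × ℕ → I) => mask G.edgeSet (elab' G q.1 q.2)) := by
    have h1 : Measurable (fun q : (ℕ → I) × (ℕ × ℕ → I) =>
        elab' (graphOfTable (tableOf G)) q.1 q.2) :=
      measurable_elab.comp (measurable_const.prodMk measurable_id)
    rw [graphOfTable_tableOf] at h1
    exact (measurable_mask _).comp h1
  have hsite : ∀ v : ℕ, siteLaw (univ : Set ℕ) v = volume := by
    intro v
    unfold siteLaw
    rw [if_pos (mem_univ v)]
  have h1 : (Measure.infinitePi (fun _ : ℕ => (volume : Measure I))).map (fun x => splitLab (expand x))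
      = (Measure.infinitePi (siteLaw (univ : Set ℕ))).prod
        (Measure.infinitePi (fun _ : ℕ × ℕ => (volume : Measure I))) := by
    have h2 := map_splitLab (univ : Set ℕ)
    have h3 : (fun j : ℕ × ℕ => siteLaw (univ : Set ℕ) j.1) = fun _ => (volume : Measure I) := by
      funext j; exact hsite j.1
    rw [h3] at h2
    rw [← h2, ← map_expand, Measure.map_map measurable_splitLab measurable_expand]
    rfl
  have h2 : (fun x : ℕ → I => mask G.edgeSet (elab' G (splitLab (expand x)).1 (splitLab (expand x)).2))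
      = (fun q : (ℕ → I) × (ℕ × ℕ → I) => mask G.edgeSet (elab' G q.1 q.2)) ∘ (fun x => splitLab (expand x)) := rfl
  have hse : Measurable (fun x : ℕ → I => splitLab (expand x)) := measurable_splitLab.comp measurable_expand
  rw [h2, ← Measure.map_map hF hse, h1]
  refine Measure.ext fun C hC => ?_
  rw [Measure.map_apply hF hC, Measure.prod_apply (hF hC)]
  have h3 : ∀ᵐ b ∂(Measure.infinitePi (siteLaw (univ : Set ℕ))),
      (Measure.infinitePi (fun _ : ℕ × ℕ => (volume : Measure I)))
        (Prod.mk b ⁻¹' ((fun q : (ℕ → I) × (ℕ × ℕ → I) => mask G.edgeSet (elab' G q.1 q.2)) ⁻¹' C))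
      = Measure.infinitePi (fun j : Sym2 ℕ × ℕ => siteLaw G.edgeSet j.1) C := by
    filter_upwards [ae_injOn (univ : Set ℕ)] with b hb
    have hb' : Function.Injective b := injOn_univ.1 hb
    have hFb : Measurable (fun a : ℕ × ℕ → I => mask G.edgeSet (elab' G b a)) :=
      hF.comp (measurable_const.prodMk measurable_id)
    rw [← map_mask_elab G hG b hb', Measure.map_apply hFb hC]
    rfl
  rw [lintegral_congr_ae h3, lintegral_const, measure_univ, mul_one]

end Crest.Agent.H5
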